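import Vale.Agent.P371.Defs

/-!
# [YOUNG] pointwise Young inequality with traces

In an eigenbasis of `W` (eigenvalues `w_a`, unit eigenvectors `e_a`), with `rho = sum_j v_j v_j^*`
(here `Rop v`): `tr(W rho) = sum_a w_a rho_aa` and, for `t ≥ 0` and a unit vector `e`,
`⟨e, rho^3 e⟩ - 3 t^2 ⟨e, rho e⟩ + 2 t^3 = ⟨y, rho y⟩ + 2 t ‖y‖^2 ≥ 0`, `y = (rho - t) e`.
-/

namespace LT371

open Matrix MeasureTheory
open scoped ComplexOrder

section Rop

variable {H : Type*} [NormedAddCommGroup H] [InnerProductSpace ℂ H] {N : ℕ}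

/-- `rho x = sum_j ⟨v_j, x⟩ v_j` -/
noncomputable def Rop (v : Fin N → H) (x : H) : H := ∑ j, (inner ℂ (v j) x : ℂ) • v j

theorem Rop_sub (v : Fin N → H) (x y : H) : Rop v (x - y) = Rop v x - Rop v y := by
  simp [Rop, sub_smul]

theorem Rop_smul (v : Fin N → H) (c : ℂ) (x : H) : Rop v (c • x) = c • Rop v x := by
  simp [Rop, mul_smul, Finset.smul_sum]

theorem inner_Rop (v : Fin N → H) (x y : H) :
    (inner ℂ x (Rop v y) : ℂ) = ∑ j, (inner ℂ x (v j) : ℂ) * inner ℂ (v j) y := by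
  rw [Rop, inner_sum]
  refine Finset.sum_congr rfl fun j _ => ?_
  rw [inner_smul_right, mul_comm]

theorem Rop_symm (v : Fin N → H) (x y : H) :
    (inner ℂ (Rop v x) y : ℂ) = inner ℂ x (Rop v y) := by
  rw [inner_Rop, Rop, sum_inner]
  refine Finset.sum_congr rfl fun j _ => ?_
  rw [inner_smul_left, inner_conj_symm]

theorem Rop_re (v : Fin N → H) (x : H) :
    (inner ℂ x (Rop v x) : ℂ).re = ∑ j, ‖(inner ℂ (v j) x : ℂ)‖ ^ 2 := by
  rw [inner_Rop, Complex.re_sum]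
  refine Finset.sum_congr rfl fun j _ => ?_
  rw [← inner_conj_symm x (v j), ← Complex.normSq_eq_conj_mul_self, Complex.ofReal_re,
    Complex.normSq_eq_norm_sq]

theorem Rop_young (v : Fin N → H) (e : H) (he : ‖e‖ = 1) (t : ℝ) (ht : 0 ≤ t) :
    3 * t ^ 2 * (inner ℂ e (Rop v e) : ℂ).re
      ≤ (inner ℂ e (Rop v (Rop v (Rop v e))) : ℂ).re + 2 * t ^ 3 := by
  set y : H := Rop v e - (t : ℂ) • e with hy
  have h1 : 0 ≤ (inner ℂ y (Rop v y) : ℂ).re := by
    rw [Rop_re]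
    positivity
  have h2 : 0 ≤ (inner ℂ y y : ℂ).re := inner_self_nonneg (𝕜 := ℂ) (x := y)
  have hee : (inner ℂ e e : ℂ).re = 1 := by
    rw [inner_self_eq_norm_sq_to_K, he]
    simp
  have e1 : (inner ℂ y (Rop v y) : ℂ).re = (inner ℂ e (Rop v (Rop v (Rop v e))) : ℂ).re
      - 2 * t * (inner ℂ e (Rop v (Rop v e)) : ℂ).re + t ^ 2 * (inner ℂ e (Rop v e) : ℂ).re := by
    rw [hy, Rop_sub, Rop_smul, inner_sub_left, inner_sub_right, inner_sub_right, inner_smul_right,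
      inner_smul_left, inner_smul_left, inner_smul_right, Rop_symm, Rop_symm]
    simp only [Complex.sub_re, Complex.conj_ofReal, Complex.re_ofReal_mul]
    ring
  have e2 : (inner ℂ y y : ℂ).re = (inner ℂ e (Rop v (Rop v e)) : ℂ).re
      - 2 * t * (inner ℂ e (Rop v e) : ℂ).re + t ^ 2 := by
    rw [hy, inner_sub_left, inner_sub_right, inner_sub_right, inner_smul_right,
      inner_smul_left, inner_smul_left, inner_smul_right, Rop_symm, Rop_symm]
    simp only [Complex.sub_re, Complex.conj_ofReal, Complex.re_ofReal_mul, hee]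
    ring
  nlinarith [mul_nonneg ht h2]

theorem Rop_cube {κ : Type*} [Fintype κ] (b : OrthonormalBasis κ ℂ H) (v : Fin N → H) :
    ∑ a, (inner ℂ (b a) (Rop v (Rop v (Rop v (b a)))) : ℂ)
      = ((Matrix.of fun i j => (inner ℂ (v i) (v j) : ℂ)) *
          (Matrix.of fun i j => (inner ℂ (v i) (v j) : ℂ)) *
          (Matrix.of fun i j => (inner ℂ (v i) (v j) : ℂ)) :
            Matrix (Fin N) (Fin N) ℂ).trace := by
  have e1 : ∀ a, (inner ℂ (b a) (Rop v (Rop v (Rop v (b a)))) : ℂ)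
      = ∑ i, ∑ j, ∑ k, inner ℂ (b a) (v i) * (inner ℂ (v i) (v j) *
        (inner ℂ (v j) (v k) * inner ℂ (v k) (b a))) := by
    intro a
    rw [inner_Rop]
    refine Finset.sum_congr rfl fun i _ => ?_
    rw [inner_Rop, Finset.mul_sum]
    refine Finset.sum_congr rfl fun j _ => ?_
    rw [inner_Rop, Finset.mul_sum, Finset.mul_sum]
  rw [Finset.sum_congr rfl fun a _ => e1 a, Finset.sum_comm, Matrix.trace]
  refine Finset.sum_congr rfl fun i _ => ?_
  rw [Finset.sum_comm, Matrix.diag_apply, Matrix.mul_apply]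
  have e2 : ∀ j, ∑ a, ∑ k, inner ℂ (b a) (v i) * (inner ℂ (v i) (v j) *
        (inner ℂ (v j) (v k) * inner ℂ (v k) (b a)))
      = ∑ k, (inner ℂ (v i) (v j) * inner ℂ (v j) (v k)) * (inner ℂ (v k) (v i) : ℂ) := by
    intro j
    rw [Finset.sum_comm]
    refine Finset.sum_congr rfl fun k _ => ?_
    rw [← b.sum_inner_mul_inner (v k) (v i), Finset.mul_sum]
    refine Finset.sum_congr rfl fun a _ => ?_
    ring
  rw [Finset.sum_congr rfl fun j _ => e2 j, Finset.sum_comm]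
  refine Finset.sum_congr rfl fun k _ => ?_
  rw [Matrix.mul_apply, Finset.sum_mul]
  rfl

end Rop

theorem young_pointwise {m N : ℕ} (W : Matrix (Fin m) (Fin m) ℂ) (hW : W.PosSemidef)
    (v : Fin N → EuclideanSpace ℂ (Fin m)) :
    ∑ j, (inner ℂ (v j) (Matrix.toEuclideanLin W (v j)) : ℂ).re ≤
      Real.pi ^ 2 / 4 *
        ((Matrix.of fun i j => (inner ℂ (v i) (v j) : ℂ)) *
          (Matrix.of fun i j => (inner ℂ (v i) (v j) : ℂ)) *
          (Matrix.of fun i j => (inner ℂ (v i) (v j) : ℂ)) :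
            Matrix (Fin N) (Fin N) ℂ).trace.re
      + 4 / (3 * Real.sqrt 3 * Real.pi) * trPow W (3 / 2) := by
  have hH : W.IsHermitian := hW.isHermitian
  set b := hH.eigenvectorBasis with hb
  set w := hH.eigenvalues with hw
  have hw0 : ∀ a, 0 ≤ w a := hW.eigenvalues_nonneg
  have hsymm : (Matrix.toEuclideanLin W).IsSymmetric := isSymmetric_toEuclideanLin_iff.2 hH
  have hWb : ∀ a, Matrix.toEuclideanLin W (b a) = ((w a : ℝ) : ℂ) • b a := by
    intro a
    have h1 := hH.mulVec_eigenvectorBasis a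
    rw [Matrix.toLpLin_apply, h1]
    ext i
    simp [hw, hb]
  -- left side
  have hL : ∀ j, (inner ℂ (v j) (Matrix.toEuclideanLin W (v j)) : ℂ).re
      = ∑ a, w a * ‖(inner ℂ (v j) (b a) : ℂ)‖ ^ 2 := by
    intro j
    rw [← b.sum_inner_mul_inner, Complex.re_sum]
    refine Finset.sum_congr rfl fun a _ => ?_
    rw [← hsymm, hWb, inner_smul_left, Complex.conj_ofReal, ← inner_conj_symm (b a) (v j)]
    have : (inner ℂ (v j) (b a) : ℂ) * (((w a : ℝ) : ℂ) * (starRingEnd ℂ) (inner ℂ (v j) (b a)))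
        = ((w a * ‖(inner ℂ (v j) (b a) : ℂ)‖ ^ 2 : ℝ) : ℂ) := by
      rw [← Complex.normSq_eq_norm_sq]
      push_cast
      rw [Complex.normSq_eq_conj_mul_self]
      ring
    rw [this, Complex.ofReal_re]
  have hL2 : ∑ j, (inner ℂ (v j) (Matrix.toEuclideanLin W (v j)) : ℂ).re
      = ∑ a, w a * (inner ℂ (b a) (Rop v (b a)) : ℂ).re := by
    rw [Finset.sum_congr rfl fun j _ => hL j, Finset.sum_comm]
    refine Finset.sum_congr rfl fun a _ => ?_
    rw [Rop_re, Finset.mul_sum]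
  -- right side
  have hR : ((Matrix.of fun i j => (inner ℂ (v i) (v j) : ℂ)) *
          (Matrix.of fun i j => (inner ℂ (v i) (v j) : ℂ)) *
          (Matrix.of fun i j => (inner ℂ (v i) (v j) : ℂ)) :
            Matrix (Fin N) (Fin N) ℂ).trace.re
      = ∑ a, (inner ℂ (b a) (Rop v (Rop v (Rop v (b a)))) : ℂ).re := by
    rw [← Rop_cube b v, Complex.re_sum]
  have hT : trPow W (3 / 2) = ∑ a, (w a) ^ (3 / 2 : ℝ) := by
    rw [trPow, dif_pos hH]
  rw [hL2, hR, hT, Finset.mul_sum, Finset.mul_sum, ← Finset.sum_add_distrib]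
  refine Finset.sum_le_sum fun a _ => ?_
  set s : ℝ := Real.sqrt (w a) with hs
  have hs0 : 0 ≤ s := Real.sqrt_nonneg _
  have hs2 : s ^ 2 = w a := Real.sq_sqrt (hw0 a)
  have hpow : (w a) ^ (3 / 2 : ℝ) = s ^ 3 := by
    rw [← hs2, ← Real.rpow_natCast, ← Real.rpow_natCast, ← Real.rpow_mul hs0]
    norm_num
  have h3 : Real.sqrt 3 ^ 2 = 3 := Real.sq_sqrt (by norm_num)
  have h3p : 0 < Real.sqrt 3 := Real.sqrt_pos.2 (by norm_num)
  have hpi := Real.pi_pos
  have hy := Rop_young v (b a) (b.orthonormal.1 a) (2 * s / (Real.pi * Real.sqrt 3))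
    (by positivity)
  rw [hpow, ← hs2]
  have e1 : Real.pi ^ 2 / 4 * (3 * (2 * s / (Real.pi * Real.sqrt 3)) ^ 2) = s ^ 2 := by
    field_simp
    rw [h3]
    ring
  have e2 : Real.pi ^ 2 / 4 * (2 * (2 * s / (Real.pi * Real.sqrt 3)) ^ 3)
      = 4 / (3 * Real.sqrt 3 * Real.pi) * s ^ 3 := by
    have : Real.sqrt 3 ^ 3 = 3 * Real.sqrt 3 := by rw [pow_succ, h3]
    field_simp
    rw [h3]
    ring
  have hy2 := mul_le_mul_of_nonneg_left hy (by positivity : (0:ℝ) ≤ Real.pi ^ 2 / 4)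
  rw [mul_add, e2, ← mul_assoc, e1] at hy2
  exact hy2

end LT371
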