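import Vale.Agent.P371.ALDefs
import Vale.Agent.P371.Young

/-!
# [AL1] the shifted pointwise Young inequality with traces
-/

namespace LT371

open Matrix MeasureTheory
open scoped ComplexOrder

theorem young_shift {m N : ℕ} (W : Matrix (Fin m) (Fin m) ℂ) (hW : W.PosSemidef)
    (v : Fin N → EuclideanSpace ℂ (Fin m)) (t : ℝ) :
    ∑ j, ((inner ℂ (v j) (Matrix.toEuclideanLin W (v j)) : ℂ).re - t * ‖v j‖ ^ 2) ≤
      Real.pi ^ 2 / 4 *
        ((Matrix.of fun i j => (inner ℂ (v i) (v j) : ℂ)) *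
          (Matrix.of fun i j => (inner ℂ (v i) (v j) : ℂ)) *
          (Matrix.of fun i j => (inner ℂ (v i) (v j) : ℂ)) :
            Matrix (Fin N) (Fin N) ℂ).trace.re
      + 4 / (3 * Real.sqrt 3 * Real.pi) * trPos W t (3 / 2) := by
  have hH : W.IsHermitian := hW.isHermitian
  set b := hH.eigenvectorBasis with hb
  set w := hH.eigenvalues with hw
  have hw0 : ∀ a, 0 ≤ w a := hW.eigenvalues_nonneg
  have hsymm : (Matrix.toEuclideanLin W).IsSymmetric := isSymmetric_toEuclideanLin_iff.2 hH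
  have hWb : ∀ a, Matrix.toEuclideanLin W (b a) = ((w a : ℝ) : ℂ) • b a := by
    intro a
    have h1 := hH.mulVec_eigenvectorBasis a
    rw [Matrix.toLpLin_apply, h1]
    ext i
    simp [hw, hb]
  -- left side
  have hL : ∀ j, (inner ℂ (v j) (Matrix.toEuclideanLin W (v j)) : ℂ).re
      = ∑ a, w a * ‖(inner ℂ (v j) (b a) : ℂ)‖ ^ 2 := by
    intro j
    rw [← b.sum_inner_mul_inner, Complex.re_sum]
    refine Finset.sum_congr rfl fun a _ => ?_
    rw [← hsymm, hWb, inner_smul_left, Complex.conj_ofReal, ← inner_conj_symm (b a) (v j)]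
    have : (inner ℂ (v j) (b a) : ℂ) * (((w a : ℝ) : ℂ) * (starRingEnd ℂ) (inner ℂ (v j) (b a)))
        = ((w a * ‖(inner ℂ (v j) (b a) : ℂ)‖ ^ 2 : ℝ) : ℂ) := by
      rw [← Complex.normSq_eq_norm_sq]
      push_cast
      rw [Complex.normSq_eq_conj_mul_self]
      ring
    rw [this, Complex.ofReal_re]
  have hN : ∀ j, ‖v j‖ ^ 2 = ∑ a, ‖(inner ℂ (v j) (b a) : ℂ)‖ ^ 2 := by
    intro j
    rw [← b.sum_sq_norm_inner_left (v j)]
  have hL2 : ∑ j, ((inner ℂ (v j) (Matrix.toEuclideanLin W (v j)) : ℂ).re - t * ‖v j‖ ^ 2)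
      = ∑ a, (w a - t) * (inner ℂ (b a) (Rop v (b a)) : ℂ).re := by
    have e : ∀ j, ((inner ℂ (v j) (Matrix.toEuclideanLin W (v j)) : ℂ).re - t * ‖v j‖ ^ 2)
        = ∑ a, (w a - t) * ‖(inner ℂ (v j) (b a) : ℂ)‖ ^ 2 := by
      intro j
      rw [hL j, hN j, Finset.mul_sum, ← Finset.sum_sub_distrib]
      refine Finset.sum_congr rfl fun a _ => ?_
      ring
    rw [Finset.sum_congr rfl fun j _ => e j, Finset.sum_comm]
    refine Finset.sum_congr rfl fun a _ => ?_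
    rw [Rop_re, Finset.mul_sum]
  -- right side
  have hR : ((Matrix.of fun i j => (inner ℂ (v i) (v j) : ℂ)) *
          (Matrix.of fun i j => (inner ℂ (v i) (v j) : ℂ)) *
          (Matrix.of fun i j => (inner ℂ (v i) (v j) : ℂ)) :
            Matrix (Fin N) (Fin N) ℂ).trace.re
      = ∑ a, (inner ℂ (b a) (Rop v (Rop v (Rop v (b a)))) : ℂ).re := by
    rw [← Rop_cube b v, Complex.re_sum]
  have hT : trPos W t (3 / 2) = ∑ a, (max (w a - t) 0) ^ (3 / 2 : ℝ) := by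
    rw [trPos, dif_pos hH]
  rw [hL2, hR, hT, Finset.mul_sum, Finset.mul_sum, ← Finset.sum_add_distrib]
  refine Finset.sum_le_sum fun a _ => ?_
  have hq0 : 0 ≤ (inner ℂ (b a) (Rop v (b a)) : ℂ).re := by
    rw [Rop_re]
    positivity
  set s : ℝ := Real.sqrt (max (w a - t) 0) with hs
  have hs0 : 0 ≤ s := Real.sqrt_nonneg _
  have hs2 : s ^ 2 = max (w a - t) 0 := Real.sq_sqrt (le_max_right _ _)
  have hpow : (max (w a - t) 0) ^ (3 / 2 : ℝ) = s ^ 3 := by
    rw [← hs2, ← Real.rpow_natCast, ← Real.rpow_natCast, ← Real.rpow_mul hs0]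
    norm_num
  have h3 : Real.sqrt 3 ^ 2 = 3 := Real.sq_sqrt (by norm_num)
  have h3p : 0 < Real.sqrt 3 := Real.sqrt_pos.2 (by norm_num)
  have hpi := Real.pi_pos
  have hy := Rop_young v (b a) (b.orthonormal.1 a) (2 * s / (Real.pi * Real.sqrt 3))
    (by positivity)
  have hle : (w a - t) * (inner ℂ (b a) (Rop v (b a)) : ℂ).re ≤
      s ^ 2 * (inner ℂ (b a) (Rop v (b a)) : ℂ).re := by
    refine mul_le_mul_of_nonneg_right ?_ hq0
    rw [hs2]
    exact le_max_left _ _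
  refine hle.trans ?_
  rw [hpow]
  have e1 : Real.pi ^ 2 / 4 * (3 * (2 * s / (Real.pi * Real.sqrt 3)) ^ 2) = s ^ 2 := by
    field_simp
    rw [h3]
    ring
  have e2 : Real.pi ^ 2 / 4 * (2 * (2 * s / (Real.pi * Real.sqrt 3)) ^ 3)
      = 4 / (3 * Real.sqrt 3 * Real.pi) * s ^ 3 := by
    have : Real.sqrt 3 ^ 3 = 3 * Real.sqrt 3 := by rw [pow_succ, h3]
    field_simp
    rw [h3]
    ring
  have hy2 := mul_le_mul_of_nonneg_left hy (by positivity : (0:ℝ) ≤ Real.pi ^ 2 / 4)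
  rw [mul_add, e2, ← mul_assoc, e1] at hy2
  exact hy2

end LT371
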