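import Vale.Agent.P371.Core
import Vale.Agent.P371.AL1

/-!
# [AL2] sum of the shifted eigenvalues: `∑ (|λ_j| - t)_+ ≤ c ∫ ∑ ((w_i(x) - t)_+)^(3/2)`
-/

namespace LT371

open Matrix MeasureTheory
open scoped ComplexOrder ENNReal

theorem lt_shift_aux {m N : ℕ} {gam : ℝ} {W : ℝ → Matrix (Fin m) (Fin m) ℂ}
    (hW : IsPotential gam W)
    {lam : Fin N → ℝ} {psi : Fin N → ℝ → EuclideanSpace ℂ (Fin m)}
    (h : IsNegFamily W lam psi) (t : ℝ) :
    ENNReal.ofReal (∑ j, (|lam j| - t)) ≤
      ENNReal.ofReal (4 / (3 * Real.sqrt 3 * Real.pi)) *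
        ∫⁻ x, ENNReal.ofReal (trPos (W x) t (3 / 2)) := by
  have heig := h.eig
  choose g hg hweak using heig
  have horth := h.orth
  have hself : ∀ j, (∫ x, inner ℂ (psi j x) (psi j x) : ℂ) = 1 := fun j => by
    simpa using horth j j
  have hnorm : ∀ j, ∫ x, ‖psi j x‖ ^ 2 = 1 := by
    intro j
    have h1 : (∫ x, inner ℂ (psi j x) (psi j x) : ℂ) = ((∫ x, ‖psi j x‖ ^ 2 : ℝ) : ℂ) := by
      rw [← integral_complex_ofReal]
      refine integral_congr_ae (Filter.Eventually.of_forall fun x => ?_)
      simp [inner_self_eq_norm_sq_to_K]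
    rw [hself j] at h1
    exact_mod_cast h1.symm
  have hnint : ∀ j, Integrable fun x => ‖psi j x‖ ^ 2 := fun j => by
    have := (hg j).memLp
    exact (memLp_two_iff_integrable_sq_norm this.1).mp this
  -- the quadratic form identity
  have e0 : ∀ j, (∫ x, ‖g j x‖ ^ 2) -
      (∫ x, inner ℂ (psi j x) (Matrix.toEuclideanLin (W x) (psi j x)) : ℂ).re = lam j := by
    intro j
    have := hweak j (psi j) (g j) (hg j)
    rw [hself j, mul_one] at this
    have h1 : (∫ x, inner ℂ (g j x) (g j x) : ℂ) = ((∫ x, ‖g j x‖ ^ 2 : ℝ) : ℂ) := by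
      rw [← integral_complex_ofReal]
      refine integral_congr_ae (Filter.Eventually.of_forall fun x => ?_)
      simp [inner_self_eq_norm_sq_to_K]
    rw [h1] at this
    have h2 := congrArg Complex.re this
    simpa using h2
  -- integrability of the potential term
  have hpint : ∀ j, Integrable fun x =>
      (inner ℂ (psi j x) (Matrix.toEuclideanLin (W x) (psi j x)) : ℂ) := by
    intro j
    by_contra hni
    have h1 := e0 j
    rw [integral_undef hni] at h1
    have h2 : 0 ≤ ∫ x, ‖g j x‖ ^ 2 := integral_nonneg fun x => by positivity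
    have h3 := h.neg j
    simp at h1
    linarith
  obtain ⟨hcube, hkin⟩ := kinetic psi g hg horth
  set c : ℝ := 4 / (3 * Real.sqrt 3 * Real.pi) with hc
  set A : ℝ → ℝ := fun x => ∑ j,
    ((inner ℂ (psi j x) (Matrix.toEuclideanLin (W x) (psi j x)) : ℂ).re
      - t * ‖psi j x‖ ^ 2) with hA
  set B : ℝ → ℝ := fun x =>
    Real.pi ^ 2 / 4 * (gram psi x * gram psi x * gram psi x).trace.re with hB
  have hAterm : ∀ j, Integrable fun x =>
      (inner ℂ (psi j x) (Matrix.toEuclideanLin (W x) (psi j x)) : ℂ).re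
      - t * ‖psi j x‖ ^ 2 := fun j => by
    have h1 : Integrable (fun x =>
          (inner ℂ (psi j x) (Matrix.toEuclideanLin (W x) (psi j x)) : ℂ).re) := (hpint j).re
    exact h1.sub ((hnint j).const_mul t)
  have hAint : Integrable A := integrable_finsetSum _ fun j _ => hAterm j
  have hBint : Integrable B := hcube.const_mul _
  have hpt : ∀ x, A x - B x ≤ c * trPos (W x) t (3 / 2) := by
    intro x
    have := young_shift (W x) (hW.psd x) (fun j => psi j x) t
    simp only [hA, hB, gram] at *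
    linarith
  -- the sum of the eigenvalues
  have hsum : ∑ j, (|lam j| - t) ≤ ∫ x, (A x - B x) := by
    rw [integral_sub hAint hBint]
    have hAI : ∫ x, A x = ∑ j,
        ((∫ x, inner ℂ (psi j x) (Matrix.toEuclideanLin (W x) (psi j x)) : ℂ).re - t) := by
      simp only [hA]
      rw [integral_finsetSum _ fun j _ => hAterm j]
      refine Finset.sum_congr rfl fun j _ => ?_
      have hre : Integrable (fun x =>
          (inner ℂ (psi j x) (Matrix.toEuclideanLin (W x) (psi j x)) : ℂ).re) := (hpint j).re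
      rw [integral_sub hre ((hnint j).const_mul t), integral_const_mul, hnorm j, mul_one]
      congr 1
      exact integral_re (hpint j)
    have h1 : ∑ j, (|lam j| - t) = (∫ x, A x) - (∑ j, ∫ x, ‖g j x‖ ^ 2) := by
      rw [hAI, ← Finset.sum_sub_distrib]
      refine Finset.sum_congr rfl fun j _ => ?_
      rw [abs_of_neg (h.neg j), ← e0 j]
      ring
    have h2 : (∫ x, B x) ≤ ∑ j, ∫ x, ‖g j x‖ ^ 2 := by
      rw [hB, integral_const_mul]
      exact hkin
    rw [h1]
    linarith
  have hint : Integrable fun x => A x - B x := hAint.sub hBint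
  have h3 : ENNReal.ofReal (∫ x, (A x - B x)) ≤ ∫⁻ x, ENNReal.ofReal (A x - B x) := by
    rw [integral_eq_lintegral_pos_part_sub_lintegral_neg_part hint]
    refine (ENNReal.ofReal_le_ofReal (sub_le_self _ ENNReal.toReal_nonneg)).trans ?_
    exact ENNReal.ofReal_toReal_le
  have h4 : ∫⁻ x, ENNReal.ofReal (A x - B x) ≤
      ∫⁻ x, ENNReal.ofReal c * ENNReal.ofReal (trPos (W x) t (3 / 2)) := by
    refine lintegral_mono fun x => ?_
    have hc0 : 0 ≤ c := by positivity
    rw [← ENNReal.ofReal_mul hc0]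
    exact ENNReal.ofReal_le_ofReal (hpt x)
  rw [lintegral_const_mul' _ _ ENNReal.ofReal_ne_top] at h4
  exact (ENNReal.ofReal_le_ofReal hsum).trans (h3.trans h4)

/-- restriction of a family of eigenfunctions to a subset of indices -/
theorem IsNegFamily.comp {m N M : ℕ} {W : ℝ → Matrix (Fin m) (Fin m) ℂ}
    {lam : Fin N → ℝ} {psi : Fin N → ℝ → EuclideanSpace ℂ (Fin m)}
    (h : IsNegFamily W lam psi) (e : Fin M → Fin N) (he : Function.Injective e) :
    IsNegFamily W (fun j => lam (e j)) (fun j => psi (e j)) := by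
  refine ⟨fun j => h.neg _, fun j => h.eig _, fun i j => ?_⟩
  rw [h.orth (e i) (e j)]
  by_cases hij : i = j
  · simp [hij]
  · have : e i ≠ e j := fun h' => hij (he h')
    simp [hij, this]

theorem lt_shift {m N : ℕ} {gam : ℝ} {W : ℝ → Matrix (Fin m) (Fin m) ℂ}
    (hW : IsPotential gam W)
    {lam : Fin N → ℝ} {psi : Fin N → ℝ → EuclideanSpace ℂ (Fin m)}
    (h : IsNegFamily W lam psi) (t : ℝ) :
    ∑ j, ENNReal.ofReal (|lam j| - t) ≤
      ENNReal.ofReal (4 / (3 * Real.sqrt 3 * Real.pi)) *
        ∫⁻ x, ENNReal.ofReal (trPos (W x) t (3 / 2)) := by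
  classical
  set S : Finset (Fin N) := Finset.univ.filter fun j => t < |lam j| with hS
  set e : Fin S.card → Fin N := fun k => (S.equivFin.symm k : Fin N) with he
  have heinj : Function.Injective e := by
    intro a b hab
    exact S.equivFin.symm.injective (Subtype.ext hab)
  have hfam := h.comp e heinj
  have h1 := lt_shift_aux hW hfam t
  have h2 : ∑ j, ENNReal.ofReal (|lam j| - t) = ∑ j ∈ S, ENNReal.ofReal (|lam j| - t) := by
    symm
    refine Finset.sum_subset (Finset.subset_univ _) fun j _ hj => ?_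
    have : ¬ t < |lam j| := by simpa [hS] using hj
    exact ENNReal.ofReal_of_nonpos (by linarith)
  have h3 : ∑ j ∈ S, ENNReal.ofReal (|lam j| - t) =
      ENNReal.ofReal (∑ j ∈ S, (|lam j| - t)) := by
    rw [ENNReal.ofReal_sum_of_nonneg]
    intro j hj
    have : t < |lam j| := by simpa [hS] using hj
    linarith
  have h4 : ∑ j ∈ S, (|lam j| - t) = ∑ k, (|lam (e k)| - t) := by
    rw [← Finset.sum_coe_sort S (fun j => |lam j| - t)]
    exact (Equiv.sum_comp S.equivFin.symm (fun j : S => |lam j| - t)).symm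
  rw [h2, h3, h4]
  exact h1

end LT371
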