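import Vale.Agent.P371.ALDefs

/-!
# P371, [AL3] + [AL4]: the Aizenman-Lieb lifting from `gamma = 1`

Riemann grid in the shift variable, so that no joint measurability is needed.
-/

namespace LT371

open Matrix MeasureTheory ProbabilityTheory Filter Topology
open scoped ENNReal ComplexOrder

lemma beta_real {a α β : ℝ} (ha : 0 < a) (hα : 0 < α) (hβ : 0 < β) :
    ∫ x in (0 : ℝ)..a, x ^ (α - 1) * (a - x) ^ (β - 1) = a ^ (α + β - 1) * beta α β := by
  have h := Complex.betaIntegral_scaled (α : ℂ) (β : ℂ) ha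
  have h1 : ∫ x in (0 : ℝ)..a, (x : ℂ) ^ ((α : ℂ) - 1) * ((a : ℂ) - x) ^ ((β : ℂ) - 1) =
      ((∫ x in (0 : ℝ)..a, x ^ (α - 1) * (a - x) ^ (β - 1) : ℝ) : ℂ) := by
    rw [← intervalIntegral.integral_ofReal]
    apply intervalIntegral.integral_congr
    intro x hx
    rw [Set.uIcc_of_le ha.le] at hx
    have e1 : (x : ℂ) ^ ((α : ℂ) - 1) = ((x ^ (α - 1) : ℝ) : ℂ) := by
      rw [Complex.ofReal_cpow hx.1]; push_cast; rfl
    have e2 : ((a : ℂ) - x) ^ ((β : ℂ) - 1) = (((a - x) ^ (β - 1) : ℝ) : ℂ) := by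
      rw [Complex.ofReal_cpow (by linarith [hx.2])]; push_cast; rfl
    simp only []
    rw [e1, e2]
    push_cast
    rfl
  rw [h1] at h
  have h2 : (a : ℂ) ^ ((α : ℂ) + β - 1) = ((a ^ (α + β - 1) : ℝ) : ℂ) := by
    rw [Complex.ofReal_cpow ha.le]; push_cast; rfl
  rw [h2] at h
  have h3 := congrArg Complex.re h
  rw [Complex.ofReal_re, Complex.re_ofReal_mul, ← beta_eq_betaIntegralReal α β hα hβ] at h3
  exact h3

lemma int_zero {a b : ℝ} (hab : a ≤ b) {f : ℝ → ℝ} (hf : ∀ x ∈ Set.Icc a b, f x = 0) :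
    ∫ x in a..b, f x = 0 := by
  have h1 : ∫ x in a..b, f x = ∫ _x in a..b, (0 : ℝ) := by
    apply intervalIntegral.integral_congr
    intro x hx
    rw [Set.uIcc_of_le hab] at hx
    exact hf x hx
  rw [h1]; simp

section Grid

variable {gam : ℝ}

lemma gint (hg : 1 < gam) (a b : ℝ) :
    IntervalIntegrable (fun t : ℝ => t ^ (gam - 2)) volume a b :=
  intervalIntegral.intervalIntegrable_rpow' (by linarith)

/-- grid weight on `[a, b]` -/
noncomputable def wt (gam a b : ℝ) : ℝ := gam * (gam - 1) * ∫ t in a..b, t ^ (gam - 2)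

lemma wt_nonneg (hg : 1 < gam) {a b : ℝ} (ha : 0 ≤ a) (hab : a ≤ b) : 0 ≤ wt gam a b := by
  unfold wt
  apply mul_nonneg (by nlinarith)
  apply intervalIntegral.integral_nonneg hab
  intro t ht
  exact Real.rpow_nonneg (ha.trans ht.1) _

/-- one cell, upper bound -/
lemma cell_upper (hg : 1 < gam) {a b : ℝ} (ha : 0 ≤ a) (hab : a ≤ b) {φ : ℝ → ℝ}
    (hφ : Antitone φ) (hφc : Continuous φ) :
    wt gam a b * φ b ≤ gam * (gam - 1) * ∫ t in a..b, φ t * t ^ (gam - 2) := by
  unfold wt
  rw [mul_assoc]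
  apply mul_le_mul_of_nonneg_left _ (by nlinarith)
  rw [mul_comm, ← intervalIntegral.integral_const_mul]
  apply intervalIntegral.integral_mono_on hab ((gint hg a b).const_mul _)
    ((gint hg a b).continuousOn_mul hφc.continuousOn)
  intro t ht
  exact mul_le_mul_of_nonneg_right (hφ ht.2) (Real.rpow_nonneg (ha.trans ht.1) _)

/-- one cell, lower bound for the function `(l - t)_+` -/
lemma cell_lower (hg : 1 < gam) {a b l h : ℝ} (ha : 0 ≤ a) (hab : a ≤ b) (hb : b ≤ a + h) :
    gam * (gam - 1) * (∫ t in a..b, max (l - t) 0 * t ^ (gam - 2)) - h * wt gam a b ≤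
      wt gam a b * max (l - b) 0 := by
  have hc : Continuous fun t : ℝ => max (l - t) 0 := by fun_prop
  have h1 : (∫ t in a..b, max (l - t) 0 * t ^ (gam - 2)) ≤
      ∫ t in a..b, (max (l - b) 0 + h) * t ^ (gam - 2) := by
    apply intervalIntegral.integral_mono_on hab
      ((gint hg a b).continuousOn_mul hc.continuousOn) ((gint hg a b).const_mul _)
    intro t ht
    apply mul_le_mul_of_nonneg_right _ (Real.rpow_nonneg (ha.trans ht.1) _)
    apply max_le
    · have := le_max_left (l - b) 0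
      linarith [ht.1]
    · have := le_max_right (l - b) 0
      linarith
  rw [intervalIntegral.integral_const_mul] at h1
  have h2 : 0 ≤ gam * (gam - 1) := by nlinarith
  have h3 := mul_le_mul_of_nonneg_left h1 h2
  unfold wt
  linarith

lemma grid_upper (hg : 1 < gam) {h : ℝ} (hh : 0 ≤ h) (n : ℕ) {φ : ℝ → ℝ}
    (hφ : Antitone φ) (hφc : Continuous φ) :
    ∑ k ∈ Finset.range n, wt gam (k * h) ((k + 1 : ℕ) * h) * φ ((k + 1 : ℕ) * h) ≤
      gam * (gam - 1) * ∫ t in (0 : ℝ)..(n * h), φ t * t ^ (gam - 2) := by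
  have h1 : ∑ k ∈ Finset.range n, ∫ t in ((k : ℝ) * h)..((k + 1 : ℕ) * h), φ t * t ^ (gam - 2) =
      ∫ t in ((0 : ℕ) : ℝ) * h..(n * h), φ t * t ^ (gam - 2) :=
    intervalIntegral.sum_integral_adjacent_intervals (a := fun k : ℕ => (k : ℝ) * h)
      fun k _ => (gint hg _ _).continuousOn_mul hφc.continuousOn
  rw [Nat.cast_zero, zero_mul] at h1
  rw [← h1, Finset.mul_sum]
  apply Finset.sum_le_sum
  intro k _
  apply cell_upper hg _ _ hφ hφc
  · positivity
  · push_cast; nlinarith

lemma grid_lower (hg : 1 < gam) {h l : ℝ} (hh : 0 ≤ h) (n : ℕ) :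
    gam * (gam - 1) * (∫ t in (0 : ℝ)..(n * h), max (l - t) 0 * t ^ (gam - 2)) -
        h * wt gam 0 (n * h) ≤
      ∑ k ∈ Finset.range n, wt gam (k * h) ((k + 1 : ℕ) * h) * max (l - (k + 1 : ℕ) * h) 0 := by
  have hc : Continuous fun t : ℝ => max (l - t) 0 := by fun_prop
  have h1 : ∑ k ∈ Finset.range n,
      ∫ t in ((k : ℝ) * h)..((k + 1 : ℕ) * h), max (l - t) 0 * t ^ (gam - 2) =
      ∫ t in ((0 : ℕ) : ℝ) * h..(n * h), max (l - t) 0 * t ^ (gam - 2) :=
    intervalIntegral.sum_integral_adjacent_intervals (a := fun k : ℕ => (k : ℝ) * h)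
      fun k _ => (gint hg _ _).continuousOn_mul hc.continuousOn
  have h2 : ∑ k ∈ Finset.range n, ∫ t in ((k : ℝ) * h)..((k + 1 : ℕ) * h), t ^ (gam - 2) =
      ∫ t in ((0 : ℕ) : ℝ) * h..(n * h), t ^ (gam - 2) :=
    intervalIntegral.sum_integral_adjacent_intervals (a := fun k : ℕ => (k : ℝ) * h)
      fun k _ => gint hg _ _
  rw [Nat.cast_zero, zero_mul] at h1 h2
  have h3 : wt gam 0 (n * h) = ∑ k ∈ Finset.range n, wt gam (k * h) ((k + 1 : ℕ) * h) := by
    unfold wt
    rw [← h2, Finset.mul_sum]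
  rw [← h1, h3, Finset.mul_sum, Finset.mul_sum, ← Finset.sum_sub_distrib]
  apply Finset.sum_le_sum
  intro k _
  apply cell_lower hg
  · positivity
  · push_cast; nlinarith
  · push_cast; nlinarith

/-- integral of `(w - t)_+^r t^(gam-2)` over `[0, T]` -/
lemma int_le (hg : 1 < gam) {w T r : ℝ} (hw : 0 < w) (hT : 0 ≤ T) (hr : 0 < r) :
    ∫ t in (0 : ℝ)..T, (max (w - t) 0) ^ r * t ^ (gam - 2) ≤
      w ^ (gam - 1 + r) * beta (gam - 1) (r + 1) := by
  have hc : Continuous fun t : ℝ => (max (w - t) 0) ^ r :=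
    Continuous.rpow_const (by fun_prop) fun _ => Or.inr hr.le
  have hi : ∀ a b : ℝ, IntervalIntegrable (fun t => (max (w - t) 0) ^ r * t ^ (gam - 2))
      volume a b := fun a b => (gint hg a b).continuousOn_mul hc.continuousOn
  have h1 : ∫ t in (0 : ℝ)..w, (max (w - t) 0) ^ r * t ^ (gam - 2) =
      w ^ (gam - 1 + r) * beta (gam - 1) (r + 1) := by
    have hb := beta_real hw (show 0 < gam - 1 by linarith) (show 0 < r + 1 by linarith)
    rw [show gam - 1 + (r + 1) - 1 = gam - 1 + r by ring] at hb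
    rw [← hb]
    apply intervalIntegral.integral_congr
    intro x hx
    rw [Set.uIcc_of_le hw.le] at hx
    simp only []
    rw [max_eq_left (by linarith [hx.2]), show gam - 1 - 1 = gam - 2 by ring,
      show r + 1 - 1 = r by ring, mul_comm]
  have hnn : ∀ t : ℝ, 0 ≤ t → 0 ≤ (max (w - t) 0) ^ r * t ^ (gam - 2) := fun t ht =>
    mul_nonneg (Real.rpow_nonneg (le_max_right _ _) _) (Real.rpow_nonneg ht _)
  rw [← h1]
  rcases le_total T w with h | h
  · rw [← intervalIntegral.integral_add_adjacent_intervals (hi 0 T) (hi T w)]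
    have : 0 ≤ ∫ t in T..w, (max (w - t) 0) ^ r * t ^ (gam - 2) :=
      intervalIntegral.integral_nonneg h fun t ht => hnn t (hT.trans ht.1)
    linarith
  · rw [← intervalIntegral.integral_add_adjacent_intervals (hi 0 w) (hi w T)]
    have : ∫ t in w..T, (max (w - t) 0) ^ r * t ^ (gam - 2) = 0 := by
      apply int_zero h
      intro x hx
      rw [max_eq_right (by linarith [hx.1]), Real.zero_rpow hr.ne', zero_mul]
    linarith

lemma int_eq_one (hg : 1 < gam) {l T : ℝ} (hl : 0 < l) (hT : l ≤ T) :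
    gam * (gam - 1) * ∫ t in (0 : ℝ)..T, max (l - t) 0 * t ^ (gam - 2) = l ^ gam := by
  have hc : Continuous fun t : ℝ => max (l - t) 0 := by fun_prop
  have hi : ∀ a b : ℝ, IntervalIntegrable (fun t => max (l - t) 0 * t ^ (gam - 2))
      volume a b := fun a b => (gint hg a b).continuousOn_mul hc.continuousOn
  have h1 : ∫ t in (0 : ℝ)..l, max (l - t) 0 * t ^ (gam - 2) = l ^ gam * beta (gam - 1) 2 := by
    have hb := beta_real hl (show 0 < gam - 1 by linarith) (show (0 : ℝ) < 2 by norm_num)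
    rw [show gam - 1 + 2 - 1 = gam by ring] at hb
    rw [← hb]
    apply intervalIntegral.integral_congr
    intro x hx
    rw [Set.uIcc_of_le hl.le] at hx
    simp only []
    rw [max_eq_left (by linarith [hx.2]), show gam - 1 - 1 = gam - 2 by ring,
      show (2 : ℝ) - 1 = 1 by norm_num, Real.rpow_one, mul_comm]
  have h2 : ∫ t in l..T, max (l - t) 0 * t ^ (gam - 2) = 0 := by
    apply int_zero hT
    intro x hx
    rw [max_eq_right (by linarith [hx.1]), zero_mul]
  rw [← intervalIntegral.integral_add_adjacent_intervals (hi 0 l) (hi l T), h1, h2, add_zero]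
  have hb : beta (gam - 1) 2 = 1 / (gam * (gam - 1)) := by
    unfold beta
    have g1 : Real.Gamma 2 = 1 := Real.Gamma_two
    have g2 : Real.Gamma (gam - 1 + 2) = gam * ((gam - 1) * Real.Gamma (gam - 1)) := by
      rw [show gam - 1 + 2 = (gam - 1 + 1) + 1 by ring, Real.Gamma_add_one (by linarith),
        Real.Gamma_add_one (by linarith)]
      ring_nf
    have g3 : Real.Gamma (gam - 1) ≠ 0 := (Real.Gamma_pos_of_pos (by linarith)).ne'
    rw [g1, g2]
    field_simp
  rw [hb]
  have h4 : gam ≠ 0 := by linarith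
  have h5 : gam - 1 ≠ 0 := by linarith
  field_simp

end Grid

/-- the Aizenman-Lieb constant -/
lemma al_const {gam : ℝ} (hg : 1 < gam) :
    4 / (3 * Real.sqrt 3 * Real.pi) * (gam * (gam - 1) * beta (gam - 1) (3 / 2 + 1)) =
      2 / Real.sqrt 3 * Lcl gam := by
  have g1 : Real.Gamma (3 / 2 + 1) = 3 / 4 * Real.sqrt Real.pi := by
    rw [Real.Gamma_add_one (by norm_num), show (3 / 2 : ℝ) = 1 / 2 + 1 by norm_num,
      Real.Gamma_add_one (by norm_num), Real.Gamma_one_half_eq]
    ring
  have g2 : Real.Gamma (gam + 1) = gam * ((gam - 1) * Real.Gamma (gam - 1)) := by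
    rw [Real.Gamma_add_one (by linarith)]
    congr 1
    rw [← Real.Gamma_add_one (by linarith)]
    ring_nf
  have g3 : gam - 1 + (3 / 2 + 1) = gam + 3 / 2 := by ring
  have g4 : 0 < Real.Gamma (gam + 3 / 2) := Real.Gamma_pos_of_pos (by linarith)
  have h3 : Real.sqrt 3 ≠ 0 := by positivity
  have hpi : Real.sqrt Real.pi ≠ 0 := by positivity
  have hpi2 : Real.sqrt Real.pi ^ 2 = Real.pi := Real.sq_sqrt Real.pi_pos.le
  unfold beta Lcl
  rw [g1, g2, g3]
  have g4' := g4.ne'
  have hpp := Real.pi_ne_zero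
  field_simp
  rw [hpi2]
  ring

lemma trPow_nonneg' {m : ℕ} {A : Matrix (Fin m) (Fin m) ℂ} (hA : A.PosSemidef) (p : ℝ) :
    0 ≤ trPow A p := by
  unfold trPow
  rw [dif_pos hA.isHermitian]
  exact Finset.sum_nonneg fun i _ => Real.rpow_nonneg (hA.eigenvalues_nonneg i) _

lemma trShift_nonneg {m : ℕ} (A : Matrix (Fin m) (Fin m) ℂ) (t : ℝ) : 0 ≤ trShift A t := by
  unfold trShift
  split_ifs
  · exact Finset.sum_nonneg fun i _ => Real.rpow_nonneg (le_max_right _ _) _
  · exact le_rfl

lemma sum_lintegral_le {ι : Type*} (s : Finset ι) (f : ι → ℝ → ℝ≥0∞) :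
    ∑ k ∈ s, ∫⁻ x, f k x ≤ ∫⁻ x, ∑ k ∈ s, f k x := by
  classical
  induction s using Finset.induction_on with
  | empty => simp
  | insert a s ha ih =>
    rw [Finset.sum_insert ha]
    calc (∫⁻ x, f a x) + ∑ k ∈ s, ∫⁻ x, f k x ≤ (∫⁻ x, f a x) + ∫⁻ x, ∑ k ∈ s, f k x := by
          gcongr
      _ ≤ ∫⁻ x, (f a x + ∑ k ∈ s, f k x) := le_lintegral_add _ _
      _ = _ := by simp only [Finset.sum_insert ha]

/-- pointwise inequality for a matrix -/
lemma matrix_grid {gam : ℝ} (hg : 1 < gam) {m : ℕ} {A : Matrix (Fin m) (Fin m) ℂ}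
    (hA : A.PosSemidef) {h : ℝ} (hh : 0 < h) (n : ℕ) :
    ∑ k ∈ Finset.range n, wt gam (k * h) ((k + 1 : ℕ) * h) * trShift A ((k + 1 : ℕ) * h) ≤
      gam * (gam - 1) * beta (gam - 1) (3 / 2 + 1) * trPow A (gam + 1 / 2) := by
  unfold trShift trPow
  rw [dif_pos hA.isHermitian]
  simp only [dif_pos hA.isHermitian, Finset.mul_sum]
  rw [Finset.sum_comm]
  apply Finset.sum_le_sum
  intro i _
  set w := hA.isHermitian.eigenvalues i with hw
  have hw0 : 0 ≤ w := hA.eigenvalues_nonneg i
  have hanti : Antitone fun t : ℝ => (max (w - t) 0) ^ (3 / 2 : ℝ) := by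
    intro a b hab
    exact Real.rpow_le_rpow (le_max_right _ _) (max_le_max (by linarith) le_rfl) (by norm_num)
  have hcont : Continuous fun t : ℝ => (max (w - t) 0) ^ (3 / 2 : ℝ) :=
    Continuous.rpow_const (by fun_prop) fun _ => Or.inr (by norm_num)
  refine (grid_upper hg hh.le n hanti hcont).trans ?_
  rcases hw0.eq_or_lt with h0 | h0
  · rw [← h0, Real.zero_rpow (by linarith), mul_zero]
    have : ∫ t in (0 : ℝ)..(n * h), (max (0 - t) 0) ^ (3 / 2 : ℝ) * t ^ (gam - 2) = 0 := by
      apply int_zero (by positivity)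
      intro x hx
      rw [max_eq_right (by linarith [hx.1]), Real.zero_rpow (by norm_num), zero_mul]
    rw [this, mul_zero]
  · have h1 := int_le hg h0 (show (0 : ℝ) ≤ n * h by positivity) (show (0 : ℝ) < 3 / 2 by norm_num)
    rw [show gam - 1 + 3 / 2 = gam + 1 / 2 by ring] at h1
    have h2 : 0 ≤ gam * (gam - 1) := by nlinarith
    calc gam * (gam - 1) * ∫ t in (0 : ℝ)..(n * h), (max (w - t) 0) ^ (3 / 2 : ℝ) * t ^ (gam - 2)
        ≤ gam * (gam - 1) * (w ^ (gam + 1 / 2) * beta (gam - 1) (3 / 2 + 1)) :=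
          mul_le_mul_of_nonneg_left h1 h2
      _ = _ := by ring

theorem al_lift {gam : ℝ} (hg : 1 < gam) {m N : ℕ} {W : ℝ → Matrix (Fin m) (Fin m) ℂ}
    (hW : ∀ x, (W x).PosSemidef) (lam : Fin N → ℝ)
    (hyp : ∀ t : ℝ, 0 < t → ∑ j, ENNReal.ofReal (|lam j| - t) ≤
      ENNReal.ofReal (4 / (3 * Real.sqrt 3 * Real.pi)) *
        ∫⁻ x, ENNReal.ofReal (trShift (W x) t)) :
    ∑ j, ENNReal.ofReal (|lam j| ^ gam) ≤
      ENNReal.ofReal (2 / Real.sqrt 3 * Lcl gam) *
        ∫⁻ x, ENNReal.ofReal (trPow (W x) (gam + 1 / 2)) := by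
  set c : ℝ := 4 / (3 * Real.sqrt 3 * Real.pi) with hc
  have hc0 : 0 ≤ c := by positivity
  set C : ℝ := gam * (gam - 1) * beta (gam - 1) (3 / 2 + 1) with hC
  have hC0 : 0 ≤ C := mul_nonneg (by nlinarith) (beta_pos (by linarith) (by norm_num)).le
  rw [← al_const hg, ← hc, ← hC]
  set T : ℝ := 1 + ∑ j, |lam j| with hT
  have hT0 : 0 < T := by
    have : 0 ≤ ∑ j, |lam j| := Finset.sum_nonneg fun j _ => abs_nonneg _
    linarith
  have hTl : ∀ j, |lam j| ≤ T := by
    intro j
    have := Finset.single_le_sum (f := fun j => |lam j|) (fun j _ => abs_nonneg _)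
      (Finset.mem_univ j)
    linarith
  set K : ℝ := wt gam 0 T with hK
  have hK0 : 0 ≤ K := wt_nonneg hg le_rfl hT0.le
  set R : ℝ≥0∞ := ENNReal.ofReal (c * C) *
        ∫⁻ x, ENNReal.ofReal (trPow (W x) (gam + 1 / 2)) with hR
  -- the estimate for a grid with n cells
  have main : ∀ n : ℕ, 0 < n → ∑ j, ENNReal.ofReal (|lam j| ^ gam) ≤
      R + (N : ℝ≥0∞) * ENNReal.ofReal (T / n * K) := by
    intro n hn
    set h : ℝ := T / n with hh
    have hn' : (0 : ℝ) < n := by exact_mod_cast hn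
    have hh0 : 0 < h := by positivity
    have hnh : n * h = T := by rw [hh]; field_simp
    set cw : ℕ → ℝ := fun k => wt gam (k * h) ((k + 1 : ℕ) * h) with hcw
    have hcw0 : ∀ k, 0 ≤ cw k := fun k =>
      wt_nonneg hg (by positivity) (by push_cast; nlinarith)
    have h1 : ∀ j, |lam j| ^ gam ≤
        ∑ k ∈ Finset.range n, cw k * max (|lam j| - (k + 1 : ℕ) * h) 0 + h * K := by
      intro j
      have hgl := grid_lower (l := |lam j|) hg hh0.le n
      rw [hnh] at hgl
      rcases (abs_nonneg (lam j)).eq_or_lt with h0 | h0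
      · rw [← h0, Real.zero_rpow (by linarith)]
        have : 0 ≤ ∑ k ∈ Finset.range n, cw k * max (0 - (k + 1 : ℕ) * h) 0 :=
          Finset.sum_nonneg fun k _ => mul_nonneg (hcw0 k) (le_max_right _ _)
        positivity
      · rw [int_eq_one hg h0 (hTl j)] at hgl
        simp only [hcw]
        linarith
    have h2 : ∀ j, ENNReal.ofReal (|lam j| ^ gam) ≤
        ∑ k ∈ Finset.range n, ENNReal.ofReal (cw k) * ENNReal.ofReal (|lam j| - (k + 1 : ℕ) * h) +
          ENNReal.ofReal (h * K) := by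
      intro j
      refine (ENNReal.ofReal_le_ofReal (h1 j)).trans ?_
      rw [ENNReal.ofReal_add (Finset.sum_nonneg fun k _ => mul_nonneg (hcw0 k) (le_max_right _ _))
        (by positivity)]
      gcongr
      rw [ENNReal.ofReal_sum_of_nonneg fun k _ => mul_nonneg (hcw0 k) (le_max_right _ _)]
      apply Finset.sum_le_sum
      intro k _
      rw [ENNReal.ofReal_mul (hcw0 k), ENNReal.ofReal_max]
      simp
    calc ∑ j, ENNReal.ofReal (|lam j| ^ gam)
        ≤ ∑ j : Fin N, (∑ k ∈ Finset.range n,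
            ENNReal.ofReal (cw k) * ENNReal.ofReal (|lam j| - (k + 1 : ℕ) * h) +
              ENNReal.ofReal (h * K)) := Finset.sum_le_sum fun j _ => h2 j
      _ = ∑ k ∈ Finset.range n, ENNReal.ofReal (cw k) *
            ∑ j : Fin N, ENNReal.ofReal (|lam j| - (k + 1 : ℕ) * h) +
              (N : ℝ≥0∞) * ENNReal.ofReal (h * K) := by
          rw [Finset.sum_add_distrib, Finset.sum_comm]
          simp only [Finset.mul_sum, Finset.sum_const, Finset.card_univ, Fintype.card_fin,
            nsmul_eq_mul]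
      _ ≤ R + (N : ℝ≥0∞) * ENNReal.ofReal (h * K) := by
          gcongr
          calc ∑ k ∈ Finset.range n, ENNReal.ofReal (cw k) *
                ∑ j : Fin N, ENNReal.ofReal (|lam j| - (k + 1 : ℕ) * h)
              ≤ ∑ k ∈ Finset.range n, ENNReal.ofReal (cw k) * (ENNReal.ofReal c *
                ∫⁻ x, ENNReal.ofReal (trShift (W x) ((k + 1 : ℕ) * h))) := by
                apply Finset.sum_le_sum
                intro k _
                gcongr
                apply hyp
                positivity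
            _ = ENNReal.ofReal c * ∑ k ∈ Finset.range n,
                ∫⁻ x, ENNReal.ofReal (cw k * trShift (W x) ((k + 1 : ℕ) * h)) := by
                rw [Finset.mul_sum]
                apply Finset.sum_congr rfl
                intro k _
                rw [← mul_assoc, mul_comm (ENNReal.ofReal (cw k)), mul_assoc]
                congr 1
                rw [← lintegral_const_mul' _ _ ENNReal.ofReal_ne_top]
                apply lintegral_congr
                intro x
                rw [ENNReal.ofReal_mul (hcw0 k)]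
            _ ≤ ENNReal.ofReal c * ∫⁻ x, ∑ k ∈ Finset.range n,
                ENNReal.ofReal (cw k * trShift (W x) ((k + 1 : ℕ) * h)) := by
                gcongr
                exact sum_lintegral_le _ _
            _ ≤ ENNReal.ofReal c * ∫⁻ x, ENNReal.ofReal C *
                ENNReal.ofReal (trPow (W x) (gam + 1 / 2)) := by
                gcongr with x
                rw [← ENNReal.ofReal_sum_of_nonneg fun k _ =>
                  mul_nonneg (hcw0 k) (trShift_nonneg _ _), ← ENNReal.ofReal_mul hC0]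
                exact ENNReal.ofReal_le_ofReal (matrix_grid hg (hW x) hh0 n)
            _ = R := by
                rw [lintegral_const_mul' _ _ ENNReal.ofReal_ne_top, ← mul_assoc,
                  ← ENNReal.ofReal_mul hc0]
  -- limit n → ∞
  have hlim : Tendsto (fun n : ℕ => R + (N : ℝ≥0∞) * ENNReal.ofReal (T / n * K)) atTop
      (𝓝 (R + (N : ℝ≥0∞) * ENNReal.ofReal 0)) := by
    apply Tendsto.const_add
    apply ENNReal.Tendsto.const_mul _ (Or.inr (ENNReal.natCast_ne_top N))
    apply (ENNReal.continuous_ofReal.tendsto 0).comp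
    have h1 : Tendsto (fun n : ℕ => T / (n : ℝ)) atTop (𝓝 0) :=
      tendsto_const_div_atTop_nhds_zero_nat T
    simpa using h1.mul_const K
  rw [ENNReal.ofReal_zero, mul_zero, add_zero] at hlim
  refine ge_of_tendsto hlim ?_
  filter_upwards [eventually_gt_atTop 0] with n hn
  exact main n hn

end LT371
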