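import Vale.Agent.P371.Defs

/-!
# P371, Aizenman-Lieb lifting: the shifted trace

`trPos A t p` is `∑ i, ((w_i - t)_+) ^ p` over the eigenvalues `w_i` of `A`, and
`trShift A t` is the case `p = 3/2`.
-/

namespace LT371

open Matrix MeasureTheory
open scoped ENNReal ComplexOrder

/-- `∑ i, ((w_i - t)_+) ^ p` over the eigenvalues `w_i` of a Hermitian matrix `A`; junk value `0`
if `A` is not Hermitian. -/
noncomputable def trPos {m : ℕ} (A : Matrix (Fin m) (Fin m) ℂ) (t p : ℝ) : ℝ :=
  open Classical in if h : A.IsHermitian then ∑ i, (max (h.eigenvalues i - t) 0) ^ p else 0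

/-- trace of `((A - t)_+)^(3/2)`; junk value `0` if `A` is not Hermitian. -/
noncomputable def trShift {m : ℕ} (A : Matrix (Fin m) (Fin m) ℂ) (t : ℝ) : ℝ :=
  open Classical in
  if h : A.IsHermitian then ∑ i, (max (h.eigenvalues i - t) 0) ^ (3 / 2 : ℝ) else 0

theorem trPos_eq_trShift {m : ℕ} (A : Matrix (Fin m) (Fin m) ℂ) (t : ℝ) :
    trPos A t (3 / 2) = trShift A t := rfl

end LT371
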