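import Vale.Agent.P371.Core
import Vale.Agent.P371.DefsP

/-!
# bridge between the elementary definitions (`LTh`) and the EuclideanSpace ones (`LT371`)
-/

namespace LTh

open MeasureTheory Matrix
open scoped ENNReal ComplexOrder

variable {m N : ℕ}

theorem trPow_eq (A : Matrix (Fin m) (Fin m) ℂ) (p : ℝ) : trPow A p = LT371.trPow A p := rfl

theorem Lone_eq (gam : ℝ) : Lone gam = LT371.Lone gam := rfl

/-- to Euclidean space -/
noncomputable def toE (psi : ℝ → Fin m → ℂ) : ℝ → EuclideanSpace ℂ (Fin m) :=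
  fun x => WithLp.toLp 2 (psi x)

/-- from Euclidean space -/
def ofE (psi : ℝ → EuclideanSpace ℂ (Fin m)) : ℝ → Fin m → ℂ := fun x => (psi x).ofLp

theorem ofE_toE (psi : ℝ → Fin m → ℂ) : ofE (toE psi) = psi := rfl

theorem dot_eq (a b : EuclideanSpace ℂ (Fin m)) : dot a.ofLp b.ofLp = inner ℂ a b := by
  rw [LT371.inner_eq_sum]
  rfl

theorem integral_apply {g : ℝ → EuclideanSpace ℂ (Fin m)} {x y : ℝ}
    (hg : IntervalIntegrable g volume x y) (i : Fin m) :
    (∫ t in x..y, g t).ofLp i = ∫ t in x..y, (g t).ofLp i := by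
  have := (EuclideanSpace.proj (𝕜 := ℂ) i).intervalIntegral_comp_comm hg
  simpa using this.symm

theorem isH1_ofE {psi g : ℝ → EuclideanSpace ℂ (Fin m)} (h : LT371.IsH1 psi g) :
    IsH1 (ofE psi) (ofE g) := by
  refine ⟨fun i => memLp_piLp_iff.mp h.memLp i, fun i => memLp_piLp_iff.mp h.memLp_deriv i,
    fun i x y => ?_⟩
  have h1 := congrArg (fun v : EuclideanSpace ℂ (Fin m) => v.ofLp i) (h.sub_eq x y)
  simp only [ofE]
  rw [← integral_apply (h.intervalIntegrable x y) i, ← h1]
  simp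

theorem isH1_toE {psi g : ℝ → Fin m → ℂ} (h : IsH1 psi g) : LT371.IsH1 (toE psi) (toE g) := by
  have hg2 : MemLp (toE g) 2 volume := memLp_piLp_iff.mpr fun i => h.memLp_deriv i
  refine ⟨memLp_piLp_iff.mpr fun i => h.memLp i, hg2, fun x y => ?_⟩
  have hgi : IntervalIntegrable (toE g) volume x y := by
    have hl : LocallyIntegrable (toE g) volume := hg2.locallyIntegrable (by norm_num)
    rw [intervalIntegrable_iff]
    exact (hl.integrableOn_isCompact isCompact_uIcc).mono_set Set.uIoc_subset_uIcc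
  ext i
  rw [integral_apply hgi i]
  exact h.sub_eq i x y

theorem isEigenpair_iff (W : ℝ → Matrix (Fin m) (Fin m) ℂ) (lam : ℝ)
    (psi : ℝ → EuclideanSpace ℂ (Fin m)) :
    IsEigenpair W lam (ofE psi) ↔ LT371.IsEigenpair W lam psi := by
  constructor
  · rintro ⟨g, hg, hw⟩
    refine ⟨toE g, ?_, fun phi h hph => ?_⟩
    · exact isH1_toE hg
    · have := hw (ofE phi) (ofE h) (isH1_ofE hph)
      simp only [← dot_eq]
      exact this
  · rintro ⟨g, hg, hw⟩
    refine ⟨ofE g, isH1_ofE hg, fun phi h hph => ?_⟩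
    have := hw (toE phi) (toE h) (isH1_toE hph)
    simp only [← dot_eq] at this
    exact this

theorem isNegFamily_iff (W : ℝ → Matrix (Fin m) (Fin m) ℂ) (lam : Fin N → ℝ)
    (psi : Fin N → ℝ → EuclideanSpace ℂ (Fin m)) :
    IsNegFamily W lam (fun j => ofE (psi j)) ↔ LT371.IsNegFamily W lam psi := by
  constructor
  · rintro ⟨h1, h2, h3⟩
    refine ⟨h1, fun j => (isEigenpair_iff W _ _).mp (h2 j), fun i j => ?_⟩
    have := h3 i j
    simp only [← dot_eq]
    exact this
  · rintro ⟨h1, h2, h3⟩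
    refine ⟨h1, fun j => (isEigenpair_iff W _ _).mpr (h2 j), fun i j => ?_⟩
    have := h3 i j
    simp only [← dot_eq] at this
    exact this

theorem TrNeg_eq (gam : ℝ) (W : ℝ → Matrix (Fin m) (Fin m) ℂ) :
    TrNeg gam W = LT371.TrNeg gam W := by
  apply le_antisymm
  · refine iSup_le fun N => iSup_le fun lam => iSup_le fun psi => iSup_le fun h => ?_
    have h' : LT371.IsNegFamily W lam (fun j => toE (psi j)) :=
      (isNegFamily_iff W lam (fun j => toE (psi j))).mp h
    unfold LT371.TrNeg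
    exact le_iSup_of_le N (le_iSup_of_le lam (le_iSup_of_le (fun j => toE (psi j))
      (le_iSup_of_le h' le_rfl)))
  · refine iSup_le fun N => iSup_le fun lam => iSup_le fun psi => iSup_le fun h => ?_
    have h' : IsNegFamily W lam (fun j => ofE (psi j)) :=
      (isNegFamily_iff W lam psi).mpr h
    unfold TrNeg
    exact le_iSup_of_le N (le_iSup_of_le lam (le_iSup_of_le (fun j => ofE (psi j))
      (le_iSup_of_le h' le_rfl)))

theorem isPotential_iff (gam : ℝ) (W : ℝ → Matrix (Fin m) (Fin m) ℂ) :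
    IsPotential gam W ↔ LT371.IsPotential gam W :=
  ⟨fun h => ⟨h.meas, h.psd, h.finite⟩, fun h => ⟨h.meas, h.psd, h.finite⟩⟩

theorem potNorm_eq (gam : ℝ) (W : ℝ → Matrix (Fin m) (Fin m) ℂ) :
    potNorm gam W = LT371.potNorm gam W := rfl

theorem LT_eq (gam : ℝ) (m : ℕ) : LT gam m = LT371.LT gam m := by
  unfold LT LT371.LT
  refine iSup_congr fun W => ?_
  refine iSup_congr_Prop (isPotential_iff gam W) fun h => ?_
  refine iSup_congr_Prop (by rw [potNorm_eq]) fun h2 => ?_
  rw [TrNeg_eq, potNorm_eq]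

end LTh
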