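import Mathlib

/-!
# [LYAP] solution of the Lyapunov equation along an absolutely continuous curve

`A_x X = (1/2)(P X + X P) + n X` is invertible for every integer `n` (its eigenvalues are
`(p_i+p_j)/2 + n`, of absolute value `≥ δ`), `‖A_x⁻¹‖ ≤ 1/δ` in Hilbert-Schmidt norm.
Derivative: `d/dx tr(E X) = 2 tr(X E') - tr(P' X²)` with `P' = E`
(`tr(E X') = tr(X (E' - (1/2)(P' X + X P')))`).
FTC: the exact identity
`⟨E_y,X_y⟩ - ⟨E_x,X_x⟩ = ⟨X_x+X_y, E_y-E_x⟩ - ⟨X_x,(A_y-A_x)X_y⟩`.
-/

namespace LT371

open Matrix MeasureTheory Filter Topology Set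
open scoped ComplexOrder

namespace Lyap

variable {N : ℕ}

/-- squared Hilbert-Schmidt norm -/
noncomputable def fn (X : Matrix (Fin N) (Fin N) ℂ) : ℝ := ∑ i, ∑ j, ‖X i j‖ ^ 2

theorem fn_nonneg (X : Matrix (Fin N) (Fin N) ℂ) : 0 ≤ fn X := by
  unfold fn; positivity

theorem fn_eq (X : Matrix (Fin N) (Fin N) ℂ) : (Xᴴ * X).trace.re = fn X := by
  simp only [Matrix.trace, Matrix.diag, Matrix.mul_apply, Matrix.conjTranspose_apply,
    Complex.re_sum, fn]
  rw [Finset.sum_comm]
  refine Finset.sum_congr rfl fun i _ => Finset.sum_congr rfl fun j _ => ?_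
  rw [Complex.star_def, ← Complex.normSq_eq_conj_mul_self, Complex.ofReal_re,
    Complex.normSq_eq_norm_sq]

theorem fn_eq' (X : Matrix (Fin N) (Fin N) ℂ) : (X * Xᴴ).trace.re = fn X := by
  rw [Matrix.trace_mul_comm, fn_eq]

theorem cs (X Y : Matrix (Fin N) (Fin N) ℂ) :
    ((Xᴴ * Y).trace.re) ^ 2 ≤ fn X * fn Y := by
  have h1 : |(Xᴴ * Y).trace.re| ≤ ∑ p : Fin N × Fin N, ‖X p.1 p.2‖ * ‖Y p.1 p.2‖ := by
    refine (Complex.abs_re_le_norm _).trans ?_
    simp only [Matrix.trace, Matrix.diag, Matrix.mul_apply, Matrix.conjTranspose_apply]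
    rw [Finset.sum_comm, Fintype.sum_prod_type]
    refine (norm_sum_le _ _).trans (Finset.sum_le_sum fun i _ => ?_)
    refine (norm_sum_le _ _).trans (Finset.sum_le_sum fun j _ => ?_)
    rw [norm_mul, Complex.star_def, Complex.norm_conj]
  have h2 := Finset.sum_mul_sq_le_sq_mul_sq (Finset.univ : Finset (Fin N × Fin N))
    (fun p => ‖X p.1 p.2‖) (fun p => ‖Y p.1 p.2‖)
  have h3 : ∀ Z : Matrix (Fin N) (Fin N) ℂ,
      ∑ p : Fin N × Fin N, ‖Z p.1 p.2‖ ^ 2 = fn Z := fun Z => by
    rw [Fintype.sum_prod_type]; rfl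
  rw [h3, h3] at h2
  refine le_trans ?_ h2
  rw [← sq_abs]
  exact pow_le_pow_left₀ (abs_nonneg _) h1 2

/-- the Lyapunov operator -/
noncomputable def L (n : ℤ) (P : Matrix (Fin N) (Fin N) ℂ) :
    Matrix (Fin N) (Fin N) ℂ →ₗ[ℂ] Matrix (Fin N) (Fin N) ℂ where
  toFun X := (1 / 2 : ℂ) • (P * X + X * P) + (n : ℂ) • X
  map_add' X Y := by
    simp only [Matrix.mul_add, Matrix.add_mul, smul_add]
    abel
  map_smul' c X := by
    simp only [Matrix.mul_smul, Matrix.smul_mul, smul_add, RingHom.id_apply, smul_comm c]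

theorem L_apply (n : ℤ) (P X : Matrix (Fin N) (Fin N) ℂ) :
    L n P X = (1 / 2 : ℂ) • (P * X + X * P) + (n : ℂ) • X := rfl

theorem psd_left {Q : Matrix (Fin N) (Fin N) ℂ} (hQ : Q.PosSemidef)
    (X : Matrix (Fin N) (Fin N) ℂ) : 0 ≤ (Xᴴ * (Q * X)).trace.re := by
  have := (hQ.conjTranspose_mul_mul_same X).trace_nonneg
  rw [Matrix.mul_assoc] at this
  exact (Complex.le_def.mp this).1

theorem psd_right {Q : Matrix (Fin N) (Fin N) ℂ} (hQ : Q.PosSemidef)
    (X : Matrix (Fin N) (Fin N) ℂ) : 0 ≤ (Xᴴ * (X * Q)).trace.re := by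
  have := (hQ.mul_mul_conjTranspose_same X).trace_nonneg
  rw [Matrix.trace_mul_comm] at this
  exact (Complex.le_def.mp this).1

theorem re_smul_real (c : ℝ) (z : ℂ) : ((c : ℂ) * z).re = c * z.re := by
  rw [Complex.re_ofReal_mul]

theorem L_pair (n : ℤ) (P X : Matrix (Fin N) (Fin N) ℂ) :
    (Xᴴ * L n P X).trace.re =
      (1 / 2) * ((Xᴴ * (P * X)).trace.re + (Xᴴ * (X * P)).trace.re) + n * fn X := by
  rw [L_apply, Matrix.mul_add, Matrix.mul_smul, Matrix.mul_smul, Matrix.trace_add,
    Matrix.trace_smul, Matrix.trace_smul, Matrix.mul_add, Matrix.trace_add, smul_eq_mul,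
    smul_eq_mul, Complex.add_re, show (1 / 2 : ℂ) = ((1 / 2 : ℝ) : ℂ) by push_cast; rfl,
    re_smul_real, Complex.add_re, show (n : ℂ) = ((n : ℝ) : ℂ) by push_cast; rfl,
    re_smul_real, fn_eq]

theorem low_left {P : Matrix (Fin N) (Fin N) ℂ} {c : ℝ}
    (h : (P - (c : ℂ) • (1 : Matrix (Fin N) (Fin N) ℂ)).PosSemidef)
    (X : Matrix (Fin N) (Fin N) ℂ) :
    c * fn X ≤ (Xᴴ * (P * X)).trace.re ∧ c * fn X ≤ (Xᴴ * (X * P)).trace.re := by
  constructor
  · have h1 := psd_left h X
    rw [Matrix.sub_mul, Matrix.mul_sub, Matrix.trace_sub, Complex.sub_re, Matrix.smul_mul,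
      Matrix.one_mul, Matrix.mul_smul, Matrix.trace_smul, smul_eq_mul, re_smul_real,
      fn_eq] at h1
    linarith
  · have h1 := psd_right h X
    rw [Matrix.mul_sub, Matrix.mul_sub, Matrix.trace_sub, Complex.sub_re, Matrix.mul_smul,
      Matrix.mul_one, Matrix.mul_smul, Matrix.trace_smul, smul_eq_mul, re_smul_real,
      fn_eq] at h1
    linarith

theorem up_left {P : Matrix (Fin N) (Fin N) ℂ} {c : ℝ}
    (h : ((c : ℂ) • (1 : Matrix (Fin N) (Fin N) ℂ) - P).PosSemidef)
    (X : Matrix (Fin N) (Fin N) ℂ) :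
    (Xᴴ * (P * X)).trace.re ≤ c * fn X ∧ (Xᴴ * (X * P)).trace.re ≤ c * fn X := by
  constructor
  · have h1 := psd_left h X
    rw [Matrix.sub_mul, Matrix.mul_sub, Matrix.trace_sub, Complex.sub_re, Matrix.smul_mul,
      Matrix.one_mul, Matrix.mul_smul, Matrix.trace_smul, smul_eq_mul, re_smul_real,
      fn_eq] at h1
    linarith
  · have h1 := psd_right h X
    rw [Matrix.mul_sub, Matrix.mul_sub, Matrix.trace_sub, Complex.sub_re, Matrix.mul_smul,
      Matrix.mul_one, Matrix.mul_smul, Matrix.trace_smul, smul_eq_mul, re_smul_real,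
      fn_eq] at h1
    linarith

theorem L_coer {δ : ℝ} (n : ℤ) {P : Matrix (Fin N) (Fin N) ℂ}
    (hlow : (P - (δ : ℂ) • (1 : Matrix (Fin N) (Fin N) ℂ)).PosSemidef)
    (hup : (((1 - δ : ℝ) : ℂ) • (1 : Matrix (Fin N) (Fin N) ℂ) - P).PosSemidef)
    (X : Matrix (Fin N) (Fin N) ℂ) :
    δ * fn X ≤ |(Xᴴ * L n P X).trace.re| := by
  rw [L_pair]
  obtain ⟨h1, h2⟩ := low_left hlow X
  obtain ⟨h3, h4⟩ := up_left hup X
  have h0 := fn_nonneg X
  rcases le_or_gt 0 n with hn | hn
  · have : (0 : ℝ) ≤ n := by exact_mod_cast hn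
    have h5 : 0 ≤ (n : ℝ) * fn X := mul_nonneg this h0
    refine le_trans ?_ (le_abs_self _)
    linarith
  · have : (n : ℝ) ≤ -1 := by
      have : n ≤ -1 := by omega
      exact_mod_cast this
    have h5 : (n : ℝ) * fn X ≤ -1 * fn X := mul_le_mul_of_nonneg_right this h0
    refine le_trans ?_ (neg_le_abs _)
    linarith

theorem L_bound {δ : ℝ} (hδ : 0 < δ) (n : ℤ) {P : Matrix (Fin N) (Fin N) ℂ}
    (hlow : (P - (δ : ℂ) • (1 : Matrix (Fin N) (Fin N) ℂ)).PosSemidef)
    (hup : (((1 - δ : ℝ) : ℂ) • (1 : Matrix (Fin N) (Fin N) ℂ) - P).PosSemidef)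
    (X : Matrix (Fin N) (Fin N) ℂ) :
    fn X ≤ (1 / δ) ^ 2 * fn (L n P X) := by
  have h1 := L_coer n hlow hup X
  have h2 := cs X (L n P X)
  have h0 := fn_nonneg X
  have h3 : (δ * fn X) ^ 2 ≤ fn X * fn (L n P X) := by
    refine le_trans ?_ h2
    rw [← sq_abs ((Xᴴ * L n P X).trace.re)]
    exact pow_le_pow_left₀ (mul_nonneg hδ.le h0) h1 2
  rcases h0.eq_or_lt with h | h
  · rw [← h]
    exact mul_nonneg (by positivity) (fn_nonneg _)
  · have h4 : δ ^ 2 * fn X ≤ fn (L n P X) := by
      have : fn X * (δ ^ 2 * fn X) ≤ fn X * fn (L n P X) := by nlinarith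
      exact le_of_mul_le_mul_left this h
    have h5 : (1 / δ) ^ 2 * (δ ^ 2 * fn X) ≤ (1 / δ) ^ 2 * fn (L n P X) :=
      mul_le_mul_of_nonneg_left h4 (by positivity)
    have h6 : (1 / δ) ^ 2 * (δ ^ 2 * fn X) = fn X := by
      field_simp
    linarith

theorem fn_eq_zero {X : Matrix (Fin N) (Fin N) ℂ} (h : fn X ≤ 0) : X = 0 := by
  have h0 : fn X = 0 := le_antisymm h (fn_nonneg X)
  unfold fn at h0
  rw [Finset.sum_eq_zero_iff_of_nonneg (fun i _ => by positivity)] at h0
  ext i j
  have h1 := h0 i (Finset.mem_univ _)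
  rw [Finset.sum_eq_zero_iff_of_nonneg (fun i _ => by positivity)] at h1
  have h2 := h1 j (Finset.mem_univ _)
  simpa using h2

theorem L_inj {δ : ℝ} (hδ : 0 < δ) (n : ℤ) {P : Matrix (Fin N) (Fin N) ℂ}
    (hlow : (P - (δ : ℂ) • (1 : Matrix (Fin N) (Fin N) ℂ)).PosSemidef)
    (hup : (((1 - δ : ℝ) : ℂ) • (1 : Matrix (Fin N) (Fin N) ℂ) - P).PosSemidef) :
    Function.Injective (L n P) := by
  rw [injective_iff_map_eq_zero]
  intro X hX
  apply fn_eq_zero
  have := L_bound hδ n hlow hup X
  rw [hX] at this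
  simpa [fn] using this

theorem L_star (n : ℤ) {P : Matrix (Fin N) (Fin N) ℂ} (hP : P.IsHermitian)
    (X : Matrix (Fin N) (Fin N) ℂ) : L n P Xᴴ = (L n P X)ᴴ := by
  rw [L_apply, L_apply, Matrix.conjTranspose_add, Matrix.conjTranspose_smul,
    Matrix.conjTranspose_smul, Matrix.conjTranspose_add, Matrix.conjTranspose_mul,
    Matrix.conjTranspose_mul, hP.eq]
  have h1 : star (1 / 2 : ℂ) = 1 / 2 := by
    rw [show (1 / 2 : ℂ) = ((1 / 2 : ℝ) : ℂ) by push_cast; rfl]
    exact Complex.conj_ofReal _
  have h2 : star (n : ℂ) = n := by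
    rw [show (n : ℂ) = ((n : ℝ) : ℂ) by push_cast; rfl]
    exact Complex.conj_ofReal _
  rw [h1, h2, add_comm (P * Xᴴ)]

/-- exact difference identity -/
theorem diff_id (n : ℤ) {P Q E F X Y : Matrix (Fin N) (Fin N) ℂ}
    (hX : L n P X = E) (hY : L n Q Y = F) :
    (F * Y).trace - (E * X).trace = ((X + Y) * (F - E)).trace -
      (1 / 2 : ℂ) * (X * ((Q - P) * Y + Y * (Q - P))).trace := by
  rw [L_apply] at hX hY
  subst hX hY
  simp only [Matrix.add_mul, Matrix.mul_add, Matrix.mul_sub, Matrix.sub_mul, Matrix.smul_mul,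
    Matrix.mul_smul, Matrix.trace_add, Matrix.trace_sub, Matrix.trace_smul, smul_eq_mul]
  have e1 : (P * X * Y).trace = (X * (Y * P)).trace := by
    rw [Matrix.mul_assoc, Matrix.trace_mul_comm, Matrix.mul_assoc]
  have e2 : (X * P * Y).trace = (X * (P * Y)).trace := by rw [Matrix.mul_assoc]
  have e3 : (Q * Y * Y).trace = (Y * (Q * Y)).trace := by
    rw [Matrix.trace_mul_comm]
  have e4 : (Y * Q * Y).trace = (Y * (Q * Y)).trace := by rw [Matrix.mul_assoc]
  have e5 : (Y * (Y * Q)).trace = (Y * (Q * Y)).trace := by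
    rw [Matrix.trace_mul_comm, Matrix.mul_assoc]
  have e6 : (P * X * X).trace = (X * (P * X)).trace := by rw [Matrix.trace_mul_comm]
  have e7 : (X * P * X).trace = (X * (P * X)).trace := by rw [Matrix.mul_assoc]
  have e8 : (X * (X * P)).trace = (X * (P * X)).trace := by
    rw [Matrix.trace_mul_comm, Matrix.mul_assoc]
  have e9 : (Y * (P * X)).trace = (X * (Y * P)).trace := by
    rw [← Matrix.mul_assoc, Matrix.trace_mul_comm]
  have e10 : (Y * (X * P)).trace = (X * (P * Y)).trace := by
    rw [Matrix.trace_mul_comm, Matrix.mul_assoc]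
  have e11 : (Y * X).trace = (X * Y).trace := Matrix.trace_mul_comm _ _
  rw [e3, e4, e5, e6, e7, e8, e9, e10, e11]
  ring

theorem trace_le (Y D : Matrix (Fin N) (Fin N) ℂ) {B : ℝ} (hB : ∀ i j, ‖Y i j‖ ≤ B) :
    |(Y * D).trace.re| ≤ B * ∑ i, ∑ j, ‖D i j‖ := by
  refine (Complex.abs_re_le_norm _).trans ?_
  simp only [Matrix.trace, Matrix.diag, Matrix.mul_apply]
  rw [Finset.sum_comm, Finset.mul_sum]
  refine (norm_sum_le _ _).trans (Finset.sum_le_sum fun i _ => ?_)
  rw [Finset.mul_sum]
  refine (norm_sum_le _ _).trans (Finset.sum_le_sum fun j _ => ?_)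
  rw [norm_mul]
  exact mul_le_mul_of_nonneg_right (hB _ _) (norm_nonneg _)

theorem ac_of_dist_le {F G : ℝ → ℝ} {a b C : ℝ} (hG : AbsolutelyContinuousOnInterval G a b)
    (h : ∀ x ∈ uIcc a b, ∀ y ∈ uIcc a b, dist (F x) (F y) ≤ C * dist (G x) (G y)) :
    AbsolutelyContinuousOnInterval F a b := by
  unfold AbsolutelyContinuousOnInterval at hG ⊢
  have h1 := hG.const_mul C
  rw [mul_zero] at h1
  refine squeeze_zero' (Eventually.of_forall fun E => Finset.sum_nonneg fun _ _ => dist_nonneg)
    ?_ h1
  have : ∀ᶠ E in (AbsolutelyContinuousOnInterval.totalLengthFilter ⊓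
      𝓟 (AbsolutelyContinuousOnInterval.disjWithin a b)),
      E ∈ AbsolutelyContinuousOnInterval.disjWithin a b :=
    Filter.mem_inf_of_right (Filter.mem_principal_self _)
  filter_upwards [this] with E hE
  rw [Finset.mul_sum]
  refine Finset.sum_le_sum fun i hi => ?_
  exact h _ (hE.1 i hi).1 _ (hE.1 i hi).2

end Lyap

open Lyap

theorem lyap_curve {N : ℕ} {δ : ℝ} (hδ : 0 < δ) (n : ℤ)
    (E E' P : ℝ → Matrix (Fin N) (Fin N) ℂ)
    (hE'int : ∀ i j, ∀ a b : ℝ, IntervalIntegrable (fun x => E' x i j) volume a b)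
    (hE' : ∀ i j, ∀ a b : ℝ, E b i j - E a i j = ∫ x in a..b, E' x i j)
    (hP : ∀ i j, ∀ a b : ℝ, P b i j - P a i j = ∫ x in a..b, E x i j)
    (hE : ∀ x, (E x).IsHermitian)
    (hlow : ∀ x, (P x - (δ : ℂ) • (1 : Matrix (Fin N) (Fin N) ℂ)).PosSemidef)
    (hup : ∀ x, (((1 - δ : ℝ) : ℂ) • (1 : Matrix (Fin N) (Fin N) ℂ) - P x).PosSemidef) :
    ∃ X : ℝ → Matrix (Fin N) (Fin N) ℂ,
      (∀ x, (1 / 2 : ℂ) • (P x * X x + X x * P x) + (n : ℂ) • X x = E x) ∧
      (∀ x, (X x).IsHermitian) ∧
      (∀ i j, Continuous fun x => X x i j) ∧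
      (∀ x, ∑ i, ∑ j, ‖X x i j‖ ^ 2 ≤ (1 / δ) ^ 2 * ∑ i, ∑ j, ‖E x i j‖ ^ 2) ∧
      (∀ a b : ℝ, IntervalIntegrable
        (fun x => 2 * (X x * E' x).trace.re - (E x * X x * X x).trace.re) volume a b) ∧
      ∀ a b : ℝ, (E b * X b).trace.re - (E a * X a).trace.re =
        ∫ x in a..b, (2 * (X x * E' x).trace.re - (E x * X x * X x).trace.re) := by
  -- continuity of the data
  have hEc : ∀ i j, Continuous fun x => E x i j := by
    intro i j
    have h1 := (intervalIntegral.continuous_primitive (fun a b => hE'int i j a b) 0)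
    have h2 : (fun x => E x i j) = fun x => (∫ t in (0 : ℝ)..x, E' t i j) + E 0 i j := by
      funext x
      rw [← hE' i j 0 x]; ring
    rw [h2]
    exact h1.add continuous_const
  have hPd : ∀ i j x, HasDerivAt (fun x => P x i j) (E x i j) x := by
    intro i j x
    have h2 : (fun x => P x i j) = fun x => (∫ t in (0 : ℝ)..x, E t i j) + P 0 i j := by
      funext x
      rw [← hP i j 0 x]; ring
    rw [h2]
    exact ((hEc i j).integral_hasStrictDerivAt 0 x).hasDerivAt.add_const _
  have hPc : ∀ i j, Continuous fun x => P x i j := fun i j =>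
    continuous_iff_continuousAt.mpr fun x => (hPd i j x).continuousAt
  have hPh : ∀ x, (P x).IsHermitian := by
    intro x
    have h1 := (hlow x).isHermitian
    have h2 : ((δ : ℂ) • (1 : Matrix (Fin N) (Fin N) ℂ)).IsHermitian := by
      unfold Matrix.IsHermitian
      rw [Matrix.conjTranspose_smul, Matrix.conjTranspose_one]
      congr 1
      exact Complex.conj_ofReal _
    have := h1.add h2
    simpa using this
  -- the solution
  have hsurj : ∀ x, Function.Surjective (L n (P x)) := fun x =>
    (LinearMap.injective_iff_surjective).mp (L_inj hδ n (hlow x) (hup x))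
  choose X hX using fun x => hsurj x (E x)
  have hXE : ∀ x, (1 / 2 : ℂ) • (P x * X x + X x * P x) + (n : ℂ) • X x = E x := fun x => by
    rw [← L_apply]; exact hX x
  have hXh : ∀ x, (X x).IsHermitian := by
    intro x
    apply L_inj hδ n (hlow x) (hup x)
    rw [L_star n (hPh x), hX x, (hE x).eq]
  -- continuity of the solution
  have hXc : ∀ i j, Continuous fun x => X x i j := by
    intro i j
    rw [continuous_iff_continuousAt]
    intro x
    have key : ∀ y, fn (X y - X x) ≤ (1 / δ) ^ 2 *
        fn (E y - E x - (1 / 2 : ℂ) • ((P y - P x) * X x + X x * (P y - P x))) := by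
      intro y
      have h1 := L_bound hδ n (hlow y) (hup y) (X y - X x)
      have h2 : L n (P y) (X y - X x) =
          E y - E x - (1 / 2 : ℂ) • ((P y - P x) * X x + X x * (P y - P x)) := by
        rw [map_sub, hX y, L_apply]
        have h3 : E x = (1 / 2 : ℂ) • (P x * X x + X x * P x) + (n : ℂ) • X x := (hXE x).symm
        rw [h3]
        simp only [Matrix.sub_mul, Matrix.mul_sub, smul_add, smul_sub]
        abel
      rwa [h2] at h1
    have hlim : Tendsto (fun y => (1 / δ) ^ 2 *
        fn (E y - E x - (1 / 2 : ℂ) • ((P y - P x) * X x + X x * (P y - P x)))) (𝓝 x)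
        (𝓝 0) := by
      have hcont : Continuous (fun y => (1 / δ) ^ 2 *
          fn (E y - E x - (1 / 2 : ℂ) • ((P y - P x) * X x + X x * (P y - P x)))) := by
        unfold fn
        simp only [Matrix.sub_apply, Matrix.smul_apply, Matrix.add_apply, Matrix.mul_apply]
        refine continuous_const.mul (continuous_finsetSum _ fun k _ =>
          continuous_finsetSum _ fun l _ => ?_)
        refine Continuous.pow (Continuous.norm ?_) 2
        refine ((hEc k l).sub continuous_const).sub ?_
        simp only [smul_eq_mul]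
        refine continuous_const.mul (Continuous.add ?_ ?_)
        · exact continuous_finsetSum _ fun r _ =>
            ((hPc k r).sub continuous_const).mul continuous_const
        · exact continuous_finsetSum _ fun r _ =>
            continuous_const.mul ((hPc r l).sub continuous_const)
      have := hcont.tendsto x
      simpa [fn] using this
    have h3 : Tendsto (fun y => ‖X y i j - X x i j‖ ^ 2) (𝓝 x) (𝓝 0) := by
      refine squeeze_zero (fun y => by positivity) (fun y => ?_) hlim
      refine le_trans ?_ (key y)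
      unfold fn
      refine le_trans ?_ (Finset.single_le_sum
        (f := fun i => ∑ j, ‖(X y - X x) i j‖ ^ 2) (fun i _ => by positivity)
        (Finset.mem_univ i))
      exact Finset.single_le_sum
        (f := fun j => ‖(X y - X x) i j‖ ^ 2) (fun i _ => by positivity) (Finset.mem_univ j)
    have h4 : Tendsto (fun y => ‖X y i j - X x i j‖) (𝓝 x) (𝓝 0) := by
      have := (Real.continuous_sqrt.tendsto 0).comp h3
      simp only [Real.sqrt_zero] at this
      refine this.congr fun y => ?_
      simp [Function.comp, Real.sqrt_sq]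
    exact tendsto_iff_norm_sub_tendsto_zero.mpr h4
  -- the difference identity
  have hdiff : ∀ x y, (E y * X y).trace.re - (E x * X x).trace.re =
      ((X x + X y) * (E y - E x)).trace.re -
      (1 / 2) * (X x * ((P y - P x) * X y + X y * (P y - P x))).trace.re := by
    intro x y
    have := congrArg Complex.re (diff_id n (hX x) (hX y))
    rw [Complex.sub_re, Complex.sub_re,
      show (1 / 2 : ℂ) = ((1 / 2 : ℝ) : ℂ) by push_cast; rfl, re_smul_real] at this
    exact this
  -- almost everywhere derivative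
  have hderiv : ∀ᵐ x : ℝ, HasDerivAt (fun x => (E x * X x).trace.re)
      (2 * (X x * E' x).trace.re - (E x * X x * X x).trace.re) x := by
    have hloc : ∀ i j, LocallyIntegrable (fun x => E' x i j) volume := by
      intro i j
      rw [locallyIntegrable_iff]
      intro K hK
      obtain ⟨r, hr⟩ := hK.isBounded.subset_closedBall (0 : ℝ)
      rw [Real.closedBall_eq_Icc] at hr
      refine IntegrableOn.mono_set ?_ hr
      by_cases h : 0 - r ≤ 0 + r
      · have := hE'int i j (0 - r) (0 + r)
        rw [intervalIntegrable_iff_integrableOn_Icc_of_le h] at this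
        exact this
      · rw [Set.Icc_eq_empty h]
        exact integrableOn_empty
    have hae : ∀ᵐ x : ℝ, ∀ i j, HasDerivAt (fun y => E y i j) (E' x i j) x := by
      rw [ae_all_iff]
      intro i
      rw [ae_all_iff]
      intro j
      filter_upwards [LocallyIntegrable.ae_hasDerivAt_integral (hloc i j)] with x hx
      have h2 : (fun x => E x i j) = fun x => (∫ t in (0 : ℝ)..x, E' t i j) + E 0 i j := by
        funext x
        rw [← hE' i j 0 x]; ring
      rw [h2]
      exact (hx 0).add_const _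
    filter_upwards [hae] with x hx
    rw [hasDerivAt_iff_tendsto_slope]
    have hEs : ∀ i j, Tendsto (fun y => (y - x)⁻¹ • (E y i j - E x i j)) (𝓝[≠] x)
        (𝓝 (E' x i j)) := fun i j => (hasDerivAt_iff_tendsto_slope.mp (hx i j)).congr
          fun y => by simp [slope]
    have hPs : ∀ i j, Tendsto (fun y => (y - x)⁻¹ • (P y i j - P x i j)) (𝓝[≠] x)
        (𝓝 (E x i j)) := fun i j => (hasDerivAt_iff_tendsto_slope.mp (hPd i j x)).congr
          fun y => by simp [slope]
    have hXs : ∀ i j, Tendsto (fun y => X y i j) (𝓝[≠] x) (𝓝 (X x i j)) := fun i j =>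
      ((hXc i j).tendsto x).mono_left nhdsWithin_le_nhds
    have e1 : ∀ y, slope (fun x => (E x * X x).trace.re) x y =
        (∑ i, ∑ j, (X x i j + X y i j) * ((y - x)⁻¹ • (E y j i - E x j i))).re -
        (1 / 2) * (∑ i, ∑ j, X x i j *
          ((∑ k, ((y - x)⁻¹ • (P y j k - P x j k)) * X y k i) +
            ∑ k, X y j k * ((y - x)⁻¹ • (P y k i - P x k i)))).re := by
      intro y
      rw [slope_def_module, smul_eq_mul, hdiff x y]
      have f1 : ∀ Z D : Matrix (Fin N) (Fin N) ℂ, (y - x)⁻¹ * ((Z * D).trace.re) =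
          (∑ i, ∑ j, Z i j * ((y - x)⁻¹ • D j i)).re := by
        intro Z D
        simp only [Matrix.trace, Matrix.diag, Matrix.mul_apply, Complex.re_sum]
        rw [Finset.mul_sum]
        refine Finset.sum_congr rfl fun i _ => ?_
        rw [Finset.mul_sum]
        refine Finset.sum_congr rfl fun j _ => ?_
        rw [mul_smul_comm, Complex.real_smul, re_smul_real]
      rw [mul_sub, f1, mul_left_comm, f1]
      congr 2
      refine congrArg Complex.re (Finset.sum_congr rfl fun i _ => Finset.sum_congr rfl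
        fun j _ => ?_)
      congr 1
      simp only [Matrix.add_apply, Matrix.mul_apply, Matrix.sub_apply, smul_add,
        Finset.smul_sum, smul_mul_assoc, mul_smul_comm]
    have e2 : 2 * (X x * E' x).trace.re - (E x * X x * X x).trace.re =
        (∑ i, ∑ j, (X x i j + X x i j) * (E' x j i)).re -
        (1 / 2) * (∑ i, ∑ j, X x i j *
          ((∑ k, (E x j k) * X x k i) + ∑ k, X x j k * (E x k i))).re := by
      have g1 : (∑ i, ∑ j, (X x i j + X x i j) * (E' x j i)).re = 2 * (X x * E' x).trace.re := by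
        have : ∑ i, ∑ j, (X x i j + X x i j) * (E' x j i) = ((X x + X x) * E' x).trace := by
          simp [Matrix.trace, Matrix.mul_apply]
        rw [this, Matrix.add_mul, Matrix.trace_add, Complex.add_re]
        ring
      have g2 : (∑ i, ∑ j, X x i j *
          ((∑ k, (E x j k) * X x k i) + ∑ k, X x j k * (E x k i))).re =
          2 * (E x * X x * X x).trace.re := by
        have : ∑ i, ∑ j, X x i j *
          ((∑ k, (E x j k) * X x k i) + ∑ k, X x j k * (E x k i)) =
          (X x * (E x * X x + X x * E x)).trace := by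
          simp [Matrix.trace, Matrix.mul_apply]
        rw [this, Matrix.mul_add, Matrix.trace_add, Complex.add_re]
        have t1 : (X x * (E x * X x)).trace = (E x * X x * X x).trace := by
          rw [Matrix.trace_mul_comm]
        have t2 : (X x * (X x * E x)).trace = (E x * X x * X x).trace := by
          rw [← Matrix.mul_assoc, Matrix.trace_mul_comm, Matrix.mul_assoc]
        rw [t1, t2]
        ring
      rw [g1, g2]
      ring
    rw [e2]
    refine Tendsto.congr (fun y => (e1 y).symm) ?_
    refine Tendsto.sub ?_ (Tendsto.const_mul _ ?_)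
    · refine (Complex.continuous_re.tendsto _).comp ?_
      refine tendsto_finsetSum _ fun i _ => tendsto_finsetSum _ fun j _ => ?_
      exact (tendsto_const_nhds.add (hXs i j)).mul (hEs j i)
    · refine (Complex.continuous_re.tendsto _).comp ?_
      refine tendsto_finsetSum _ fun i _ => tendsto_finsetSum _ fun j _ => ?_
      refine tendsto_const_nhds.mul (Tendsto.add ?_ ?_)
      · exact tendsto_finsetSum _ fun k _ => (hPs j k).mul (hXs k i)
      · exact tendsto_finsetSum _ fun k _ => (hXs j k).mul (hPs k i)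
  -- absolute continuity
  have hac : ∀ a b : ℝ, AbsolutelyContinuousOnInterval (fun x => (E x * X x).trace.re) a b := by
    intro a b
    -- bound for the entries of X
    obtain ⟨B, hB0, hB⟩ : ∃ B : ℝ, 0 ≤ B ∧ ∀ x ∈ uIcc a b, ∀ i j, ‖X x i j‖ ≤ B := by
      have h1 : Continuous fun x => ∑ i, ∑ j, ‖X x i j‖ :=
        continuous_finsetSum _ fun i _ => continuous_finsetSum _ fun j _ => (hXc i j).norm
      obtain ⟨B, hB⟩ := (isCompact_uIcc (a := a) (b := b)).exists_bound_of_continuousOn
        h1.continuousOn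
      refine ⟨max B 0, le_max_right _ _, fun x hx i j => le_trans ?_ (le_max_left _ _)⟩
      have h2 := hB x hx
      rw [Real.norm_eq_abs, abs_of_nonneg (by positivity)] at h2
      refine le_trans ?_ h2
      refine le_trans ?_ (Finset.single_le_sum
        (f := fun i => ∑ j, ‖X x i j‖) (fun i _ => by positivity) (Finset.mem_univ i))
      exact Finset.single_le_sum
        (f := fun j => ‖X x i j‖) (fun i _ => by positivity) (Finset.mem_univ j)
    -- the dominating function
    have hgi : ∀ u v : ℝ, IntervalIntegrable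
        (fun x => ∑ i, ∑ j, (‖E' x i j‖ + ‖E x i j‖)) volume u v := by
      intro u v
      have := IntervalIntegrable.sum (Finset.univ : Finset (Fin N))
        (f := fun i x => ∑ j, (‖E' x i j‖ + ‖E x i j‖)) (a := u) (b := v) (μ := volume)
        fun i _ => by
          have := IntervalIntegrable.sum (Finset.univ : Finset (Fin N))
            (f := fun j x => (‖E' x i j‖ + ‖E x i j‖)) (a := u) (b := v) (μ := volume)
            fun j _ => (hE'int i j u v).norm.add ((hEc i j).norm.intervalIntegrable u v)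
          simpa [Finset.sum_fn] using this
      simpa [Finset.sum_fn] using this
    have hG := (hgi a b).absolutelyContinuousOnInterval_intervalIntegral (c := a)
      (left_mem_uIcc)
    -- entrywise domination
    have hdom : ∀ x y, x ≤ y → (∑ i, ∑ j, ‖E y i j - E x i j‖) +
        (∑ i, ∑ j, ‖P y i j - P x i j‖) ≤ ∫ t in x..y, ∑ i, ∑ j, (‖E' t i j‖ + ‖E t i j‖) := by
      intro x y hxy
      rw [intervalIntegral.integral_finsetSum (fun i _ => by
        have := IntervalIntegrable.sum (Finset.univ : Finset (Fin N))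
            (f := fun j x => (‖E' x i j‖ + ‖E x i j‖)) (a := x) (b := y) (μ := volume)
            fun j _ => (hE'int i j x y).norm.add ((hEc i j).norm.intervalIntegrable x y)
        simpa [Finset.sum_fn] using this), ← Finset.sum_add_distrib]
      refine Finset.sum_le_sum fun i _ => ?_
      rw [intervalIntegral.integral_finsetSum (fun j _ =>
        (hE'int i j x y).norm.add ((hEc i j).norm.intervalIntegrable x y)),
        ← Finset.sum_add_distrib]
      refine Finset.sum_le_sum fun j _ => ?_
      rw [intervalIntegral.integral_add (hE'int i j x y).norm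
        ((hEc i j).norm.intervalIntegrable x y), hE', hP]
      exact add_le_add (intervalIntegral.norm_integral_le_integral_norm hxy)
        (intervalIntegral.norm_integral_le_integral_norm hxy)
    have main : ∀ x ∈ uIcc a b, ∀ y ∈ uIcc a b, x ≤ y →
        |(E y * X y).trace.re - (E x * X x).trace.re| ≤
        (2 * B + N * B * B) * ∫ t in x..y, ∑ i, ∑ j, (‖E' t i j‖ + ‖E t i j‖) := by
      intro x hx y hy hxy
      rw [hdiff x y]
      have b1 : |((X x + X y) * (E y - E x)).trace.re| ≤
          (2 * B) * ∑ i, ∑ j, ‖E y i j - E x i j‖ := by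
        refine (trace_le (X x + X y) (E y - E x) (B := 2 * B) fun i j => ?_).trans (le_of_eq rfl)
        refine (norm_add_le _ _).trans ?_
        have := hB x hx i j
        have := hB y hy i j
        linarith
      have b2 : |(X x * ((P y - P x) * X y + X y * (P y - P x))).trace.re| ≤
          2 * ((N * B * B) * ∑ i, ∑ j, ‖P y i j - P x i j‖) := by
        have t1 : (X x * ((P y - P x) * X y + X y * (P y - P x))).trace =
            ((X y * X x) * (P y - P x)).trace + ((X x * X y) * (P y - P x)).trace := by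
          rw [Matrix.mul_add, Matrix.trace_add, ← Matrix.mul_assoc (X x) (X y),
            ← Matrix.mul_assoc (X x) (P y - P x), Matrix.trace_mul_comm,
            ← Matrix.mul_assoc]
        rw [t1, Complex.add_re]
        have hprod : ∀ U V : Matrix (Fin N) (Fin N) ℂ, (∀ i j, ‖U i j‖ ≤ B) →
            (∀ i j, ‖V i j‖ ≤ B) → ∀ i j, ‖(U * V) i j‖ ≤ N * B * B := by
          intro U V hU hV i j
          rw [Matrix.mul_apply]
          refine (norm_sum_le _ _).trans ?_
          have : ∑ k : Fin N, ‖U i k * V k j‖ ≤ ∑ k : Fin N, B * B :=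
            Finset.sum_le_sum fun k _ => by
              rw [norm_mul]
              exact mul_le_mul (hU _ _) (hV _ _) (norm_nonneg _) hB0
          refine this.trans (le_of_eq ?_)
          simp [mul_assoc]
        have c1 := trace_le (X y * X x) (P y - P x) (hprod _ _ (hB y hy) (hB x hx))
        have c2 := trace_le (X x * X y) (P y - P x) (hprod _ _ (hB x hx) (hB y hy))
        refine (abs_add_le _ _).trans ?_
        simp only [Matrix.sub_apply] at c1 c2
        linarith
      have h5 := hdom x y hxy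
      have p1 : 0 ≤ ∑ i, ∑ j, ‖E y i j - E x i j‖ := by positivity
      have p2 : 0 ≤ ∑ i, ∑ j, ‖P y i j - P x i j‖ := by positivity
      have hN : (0 : ℝ) ≤ N * B * B := by positivity
      set SE := ∑ i, ∑ j, ‖E y i j - E x i j‖
      set SP := ∑ i, ∑ j, ‖P y i j - P x i j‖
      set IG := ∫ t in x..y, ∑ i, ∑ j, (‖E' t i j‖ + ‖E t i j‖)
      calc _ ≤ |((X x + X y) * (E y - E x)).trace.re| +
            |(1 / 2) * (X x * ((P y - P x) * X y + X y * (P y - P x))).trace.re| :=
            abs_sub _ _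
        _ ≤ (2 * B) * SE + (N * B * B) * SP := by
            rw [abs_mul, abs_of_pos (by norm_num : (0 : ℝ) < 1 / 2)]
            linarith
        _ ≤ (2 * B + N * B * B) * (SE + SP) := by nlinarith [mul_nonneg hB0 p2, mul_nonneg hN p1]
        _ ≤ (2 * B + N * B * B) * IG := mul_le_mul_of_nonneg_left h5 (by positivity)
    refine ac_of_dist_le (C := 2 * B + N * B * B) hG fun x hx y hy => ?_
    rcases le_total x y with hxy | hxy
    · rw [dist_comm, Real.dist_eq, dist_comm, Real.dist_eq,
        intervalIntegral.integral_interval_sub_left (hgi _ _) (hgi _ _)]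
      refine (main x hx y hy hxy).trans ?_
      exact mul_le_mul_of_nonneg_left (le_abs_self _) (by positivity)
    · rw [Real.dist_eq, Real.dist_eq,
        intervalIntegral.integral_interval_sub_left (hgi _ _) (hgi _ _)]
      refine (main y hy x hx hxy).trans ?_
      exact mul_le_mul_of_nonneg_left (le_abs_self _) (by positivity)
  have hae2 : ∀ᵐ x : ℝ, deriv (fun x => (E x * X x).trace.re) x =
      2 * (X x * E' x).trace.re - (E x * X x * X x).trace.re := by
    filter_upwards [hderiv] with x hx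
    exact hx.deriv
  refine ⟨X, hXE, hXh, hXc, fun x => ?_, fun a b => ?_, fun a b => ?_⟩
  · have := L_bound hδ n (hlow x) (hup x) (X x)
    rw [hX x] at this
    exact this
  · refine (hac a b).intervalIntegrable_deriv.congr_ae ?_
    exact ae_restrict_of_ae hae2
  · rw [← (hac a b).integral_deriv_eq_sub]
    refine intervalIntegral.integral_congr_ae ?_
    filter_upwards [hae2] with x hx _
    exact hx

end LT371
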