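import Vale.Agent.P371.TruncB

/-!
# [TRUNC] truncated partial fractions and the pointwise calibration inequality

For `0 < a < 1`: `sum_{n=-M}^{M-1} 1/(a+n) → π cot (π a)`, and for `a b ∈ (0,1)`:
`sum_{n=-M}^{M-1} 1/((a+n)(b+n)) → π² sinc(π(a-b)) / (sin πa sin πb)`, uniformly on `[δ, 1-δ]`.
In the eigenbasis of `P` (eigenvalues `p_i`), `(X n)_ij = E_ij / ((p_i+p_j)/2 + n)`, so the right
hand side of `calib_pointwise` is
`(1/4) sum_ijk E_ji E_ik E_kj (sum_n 1/((s_ij+n)(s_kj+n)) - sum_n 1/(s_ij+n) sum_n 1/(s_kj+n))`,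
`s_ij = (p_i+p_j)/2`, whose limit is `(π²/4) (tr E³ + kernel_ineq)` with `t_i = π p_i`, because
`sinc(A-B) - cos A cos B = sin A sin B + sinc(A-B) - cos(A-B)`.
Error terms: `|E_ji E_ik E_kj| ≤ (tr E)³ ≤ N² tr E³`.
-/

namespace LT371

open Matrix
open scoped ComplexOrder

theorem calib_pointwise (N : ℕ) {δ ε : ℝ} (hδ : 0 < δ) (hε : 0 < ε) :
    ∃ M0 : ℕ, ∀ M : ℕ, M0 ≤ M → ∀ (P E : Matrix (Fin N) (Fin N) ℂ)
      (X : ℤ → Matrix (Fin N) (Fin N) ℂ),
      (P - (δ : ℂ) • (1 : Matrix (Fin N) (Fin N) ℂ)).PosSemidef →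
      (((1 - δ : ℝ) : ℂ) • (1 : Matrix (Fin N) (Fin N) ℂ) - P).PosSemidef →
      E.PosSemidef →
      (∀ n : ℤ, (1 / 2 : ℂ) • (P * X n + X n * P) + (n : ℂ) • X n = E) →
      (Real.pi ^ 2 / 4 - ε) * (E * E * E).trace.re ≤
        (1 / 4) * ((∑ n ∈ Finset.Ico (-(M : ℤ)) (M : ℤ), (E * X n * X n).trace.re) -
          (E * (∑ n ∈ Finset.Ico (-(M : ℤ)) (M : ℤ), X n) *
            (∑ n ∈ Finset.Ico (-(M : ℤ)) (M : ℤ), X n)).trace.re) := by
  obtain ⟨M0, hM0⟩ := calib_diag N hδ hε
  refine ⟨M0, ?_⟩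
  intro M hM P E X hP0 hP1 hE hX
  have hPH : P.IsHermitian := by
    have h1 := hP0.isHermitian
    have h2 : ((δ : ℂ) • (1 : Matrix (Fin N) (Fin N) ℂ)).IsHermitian := by
      unfold Matrix.IsHermitian
      rw [Matrix.conjTranspose_smul, Matrix.conjTranspose_one]
      simp
    have h3 := h1.add h2
    simpa using h3
  set V : Matrix (Fin N) (Fin N) ℂ := (hPH.eigenvectorUnitary : Matrix (Fin N) (Fin N) ℂ) with hV
  set D : Matrix (Fin N) (Fin N) ℂ := diagonal (RCLike.ofReal ∘ hPH.eigenvalues) with hD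
  have hsp : P = V * D * star V := by
    have := hPH.spectral_theorem
    rw [Unitary.conjStarAlgAut_apply] at this
    exact this
  have hVV : star V * V = 1 := Unitary.coe_star_mul_self _
  have hVV' : V * star V = 1 := Unitary.coe_mul_star_self _
  have hconj : ∀ A : Matrix (Fin N) (Fin N) ℂ, star V * (V * A) = A := fun A => by
    rw [← Matrix.mul_assoc, hVV, Matrix.one_mul]
  have hconj' : ∀ A : Matrix (Fin N) (Fin N) ℂ, V * (star V * A) = A := fun A => by
    rw [← Matrix.mul_assoc, hVV', Matrix.one_mul]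
  set c : Matrix (Fin N) (Fin N) ℂ → Matrix (Fin N) (Fin N) ℂ := fun A => star V * A * V with hc
  have cmul : ∀ A B, c (A * B) = c A * c B := by
    intro A B
    simp only [hc]
    calc star V * (A * B) * V = star V * A * (B * V) := by simp only [Matrix.mul_assoc]
      _ = star V * A * (V * (star V * (B * V))) := by rw [hconj']
      _ = _ := by simp only [Matrix.mul_assoc]
  have cadd : ∀ A B, c (A + B) = c A + c B := by
    intro A B; simp only [hc, Matrix.mul_add, Matrix.add_mul]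
  have csmul : ∀ (a : ℂ) A, c (a • A) = a • c A := by
    intro a A; simp only [hc, Matrix.mul_smul, Matrix.smul_mul]
  have csum : ∀ (s : Finset ℤ) (f : ℤ → Matrix (Fin N) (Fin N) ℂ),
      c (∑ n ∈ s, f n) = ∑ n ∈ s, c (f n) := by
    intro s f; simp only [hc, Finset.mul_sum, Finset.sum_mul]
  have ctr : ∀ A, (c A).trace = A.trace := by
    intro A
    simp only [hc]
    rw [Matrix.trace_mul_comm, ← Matrix.mul_assoc, hVV', Matrix.one_mul]
  have cone : c 1 = 1 := by simp only [hc, Matrix.mul_one, hVV]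
  have cP : c P = D := by
    simp only [hc]
    calc star V * P * V = star V * (V * D * star V) * V := by rw [← hsp]
      _ = star V * (V * (D * (star V * V))) := by simp only [Matrix.mul_assoc]
      _ = D := by rw [hVV, Matrix.mul_one, hconj]
  have cpsd : ∀ A : Matrix (Fin N) (Fin N) ℂ, A.PosSemidef → (c A).PosSemidef := by
    intro A hA
    have := hA.conjTranspose_mul_mul_same V
    simpa only [hc, Matrix.star_eq_conjTranspose] using this
  have hdiag : ∀ i, D i i = ((hPH.eigenvalues i : ℝ) : ℂ) := by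
    intro i; rw [hD, Matrix.diagonal_apply_eq]; rfl
  have hp0 : ∀ i, δ ≤ hPH.eigenvalues i := by
    intro i
    have h1 := (cpsd _ hP0).diag_nonneg (i := i)
    have h2 : c (P - (δ : ℂ) • (1 : Matrix (Fin N) (Fin N) ℂ)) = D - (δ : ℂ) • 1 := by
      rw [sub_eq_add_neg, cadd, ← neg_smul, csmul, cone, cP, neg_smul, ← sub_eq_add_neg]
    rw [h2, Matrix.sub_apply, Matrix.smul_apply, Matrix.one_apply_eq, hdiag, smul_eq_mul,
      mul_one, ← Complex.ofReal_sub, Complex.zero_le_real] at h1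
    linarith
  have hp1 : ∀ i, hPH.eigenvalues i ≤ 1 - δ := by
    intro i
    have h1 := (cpsd _ hP1).diag_nonneg (i := i)
    have h2 : c (((1 - δ : ℝ) : ℂ) • (1 : Matrix (Fin N) (Fin N) ℂ) - P) =
        ((1 - δ : ℝ) : ℂ) • 1 - D := by
      rw [sub_eq_add_neg, cadd, ← neg_one_smul ℂ P, csmul, csmul, cone, cP, neg_one_smul,
        ← sub_eq_add_neg]
    rw [h2, Matrix.sub_apply, Matrix.smul_apply, Matrix.one_apply_eq, hdiag, smul_eq_mul,
      mul_one, ← Complex.ofReal_sub, Complex.zero_le_real] at h1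
    linarith
  have hX' : ∀ (n : ℤ) i j, (((hPH.eigenvalues i + hPH.eigenvalues j) / 2 + n : ℝ) : ℂ) *
      c (X n) i j = c E i j := by
    intro n i j
    rw [← hX n, cadd, csmul, csmul, cadd, cmul, cmul, cP, Matrix.add_apply, Matrix.smul_apply,
      Matrix.smul_apply, Matrix.add_apply, hD, Matrix.diagonal_mul, Matrix.mul_diagonal,
      smul_eq_mul, smul_eq_mul]
    simp only [Function.comp]
    have e : ∀ x : ℝ, (RCLike.ofReal x : ℂ) = (x : ℂ) := fun x => rfl
    rw [e, e]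
    push_cast
    ring
  have main := hM0 M hM hPH.eigenvalues (c E) (fun n => c (X n)) hp0 hp1 (cpsd E hE) hX'
  simp only [← cmul, ← csum, ctr] at main
  exact main

end LT371
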