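import Vale.Agent.P371.H1
import Vale.Agent.P371.Lyap
import Vale.Agent.P371.Trunc

/-!
# [CORE] the sharp kinetic energy inequality for orthonormal families in H¹(ℝ; ℂ^m)
-/

namespace LT371

open Matrix MeasureTheory Filter Topology
open scoped ComplexOrder

variable {m N : ℕ}

/-- matrix with columns `u_j(x)` -/
noncomputable def colM (u : Fin N → ℝ → EuclideanSpace ℂ (Fin m)) (x : ℝ) :
    Matrix (Fin m) (Fin N) ℂ := Matrix.of fun a j => u j x a

theorem inner_eq_sum (a b : EuclideanSpace ℂ (Fin m)) :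
    (inner ℂ a b : ℂ) = ∑ k, star (a k) * b k := by
  simp [PiLp.inner_apply, mul_comm]

theorem gram_eq (u : Fin N → ℝ → EuclideanSpace ℂ (Fin m)) (x : ℝ) :
    gram u x = (colM u x)ᴴ * colM u x := by
  ext i j
  simp [gram, colM, Matrix.mul_apply, inner_eq_sum]

theorem gram_psd (u : Fin N → ℝ → EuclideanSpace ℂ (Fin m)) (x : ℝ) :
    (gram u x).PosSemidef := by
  rw [gram_eq]
  exact Matrix.posSemidef_conjTranspose_mul_self _

/-- completing the square -/
theorem square_ineq (U V : Matrix (Fin m) (Fin N) ℂ) (X : Matrix (Fin N) (Fin N) ℂ)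
    (hX : X.IsHermitian) :
    (1 / 2) * (X * (Vᴴ * U + Uᴴ * V)).trace.re - (1 / 4) * ((Uᴴ * U) * X * X).trace.re ≤
      (Vᴴ * V).trace.re := by
  have h0 : 0 ≤ (((V - (1 / 2 : ℂ) • (U * X))ᴴ * (V - (1 / 2 : ℂ) • (U * X))).trace).re := by
    have := (Matrix.posSemidef_conjTranspose_mul_self (V - (1 / 2 : ℂ) • (U * X))).trace_nonneg
    exact (Complex.le_def.mp this).1
  have e1 : ((V - (1 / 2 : ℂ) • (U * X))ᴴ * (V - (1 / 2 : ℂ) • (U * X))).trace =
      (Vᴴ * V).trace - (1 / 2) * (X * (Vᴴ * U + Uᴴ * V)).trace +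
        (1 / 4) * ((Uᴴ * U) * X * X).trace := by
    have t1 : (Vᴴ * (U * X)).trace = (X * (Vᴴ * U)).trace := by
      rw [← Matrix.mul_assoc, Matrix.trace_mul_comm]
    have t2 : ((X * Uᴴ) * V).trace = (X * (Uᴴ * V)).trace := by
      rw [Matrix.mul_assoc]
    have t3 : ((X * Uᴴ) * (U * X)).trace = ((Uᴴ * U) * X * X).trace := by
      rw [Matrix.mul_assoc, Matrix.trace_mul_comm]
      simp only [Matrix.mul_assoc]
    rw [Matrix.conjTranspose_sub, Matrix.conjTranspose_smul, Matrix.conjTranspose_mul,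
      hX.eq]
    have hs : star (1 / 2 : ℂ) = 1 / 2 := by
      rw [show (1 / 2 : ℂ) = ((1 / 2 : ℝ) : ℂ) by push_cast; rfl]
      exact Complex.conj_ofReal _
    rw [hs]
    simp only [Matrix.sub_mul, Matrix.mul_sub, Matrix.smul_mul, Matrix.mul_smul,
      Matrix.trace_sub, Matrix.trace_smul, Matrix.mul_add, Matrix.trace_add, smul_eq_mul,
      t1, t2, t3]
    ring
  rw [e1] at h0
  have h1 : ((1 / 2 : ℂ) * (X * (Vᴴ * U + Uᴴ * V)).trace).re =
      (1 / 2) * (X * (Vᴴ * U + Uᴴ * V)).trace.re := by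
    rw [show (1 / 2 : ℂ) = ((1 / 2 : ℝ) : ℂ) by push_cast; rfl, Complex.re_ofReal_mul]
  have h2 : ((1 / 4 : ℂ) * ((Uᴴ * U) * X * X).trace).re =
      (1 / 4) * ((Uᴴ * U) * X * X).trace.re := by
    rw [show (1 / 4 : ℂ) = ((1 / 4 : ℝ) : ℂ) by push_cast; rfl, Complex.re_ofReal_mul]
  rw [Complex.add_re, Complex.sub_re, h1, h2] at h0
  linarith

theorem gram_trace (g : Fin N → ℝ → EuclideanSpace ℂ (Fin m)) (x : ℝ) :
    ((colM g x)ᴴ * colM g x).trace.re = ∑ j, ‖g j x‖ ^ 2 := by
  rw [← gram_eq, Matrix.trace, Complex.re_sum]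
  refine Finset.sum_congr rfl fun j _ => ?_
  have : (inner ℂ (g j x) (g j x) : ℂ).re = ‖g j x‖ ^ 2 := by
    have := @inner_self_eq_norm_sq ℂ _ _ _ _ (g j x)
    simpa using this
  simpa [gram, Matrix.diag] using this


/-- entrywise integral of positive semidefinite matrices -/
theorem psd_integral {N : ℕ} (F : ℝ → Matrix (Fin N) (Fin N) ℂ) (hF : ∀ x, (F x).PosSemidef)
    (μ : Measure ℝ) (hint : ∀ i j, Integrable (fun x => F x i j) μ) :
    (Matrix.of fun i j => ∫ x, F x i j ∂μ).PosSemidef := by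
  rw [Matrix.posSemidef_iff_dotProduct_mulVec]
  constructor
  · ext i j
    simp only [Matrix.conjTranspose_apply, Matrix.of_apply]
    rw [Complex.star_def, ← integral_conj]
    refine integral_congr_ae (Eventually.of_forall fun x => ?_)
    exact (hF x).isHermitian.apply i j
  · intro v
    have e : star v ⬝ᵥ ((Matrix.of fun i j => ∫ x, F x i j ∂μ) *ᵥ v) =
        ∫ x, (star v ⬝ᵥ (F x *ᵥ v)) ∂μ := by
      simp only [dotProduct, Matrix.mulVec, Matrix.of_apply]
      rw [integral_finsetSum]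
      · refine Finset.sum_congr rfl fun i _ => ?_
        rw [integral_const_mul, integral_finsetSum]
        · congr 1
          refine Finset.sum_congr rfl fun j _ => ?_
          rw [integral_mul_const]
        · intro j _
          exact (hint i j).mul_const _
      · intro i _
        exact (integrable_finsetSum _ fun j _ => (hint i j).mul_const _).const_mul _
    rw [e]
    have h1 : ∀ x, 0 ≤ star v ⬝ᵥ (F x *ᵥ v) := fun x =>
      ((Matrix.posSemidef_iff_dotProduct_mulVec.mp (hF x)).2 v)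
    have hi : Integrable (fun x => star v ⬝ᵥ (F x *ᵥ v)) μ := by
      simp only [dotProduct, Matrix.mulVec]
      exact integrable_finsetSum _ fun i _ =>
        (integrable_finsetSum _ fun j _ => (hint i j).mul_const _).const_mul _
    have h2 : ∀ x, star v ⬝ᵥ (F x *ᵥ v) = (((star v ⬝ᵥ (F x *ᵥ v)).re : ℝ) : ℂ) := by
      intro x
      apply Complex.ext
      · simp
      · have := (Complex.le_def.mp (h1 x)).2
        simpa using this.symm
    rw [integral_congr_ae (Eventually.of_forall h2), integral_complex_ofReal]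
    have : 0 ≤ ∫ x, (star v ⬝ᵥ (F x *ᵥ v)).re ∂μ :=
      integral_nonneg fun x => (Complex.le_def.mp (h1 x)).1
    exact_mod_cast this


section facts

variable {u g : Fin N → ℝ → EuclideanSpace ℂ (Fin m)}

theorem gram_cont (hu : ∀ j, IsH1 (u j) (g j)) (i j : Fin N) :
    Continuous fun x => gram u x i j := by
  simp only [gram, Matrix.of_apply]
  exact (hu i).continuous.inner (hu j).continuous

theorem gram_int (hu : ∀ j, IsH1 (u j) (g j)) (i j : Fin N) :
    Integrable fun x => gram u x i j := by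
  simp only [gram, Matrix.of_apply]
  exact (hu i).integrable_inner (hu j)

theorem gram_tendsto_top (hu : ∀ j, IsH1 (u j) (g j)) (i j : Fin N) :
    Tendsto (fun x => gram u x i j) atTop (𝓝 0) := by
  simp only [gram, Matrix.of_apply]
  have := ((hu i).tendsto_atTop).inner (𝕜 := ℂ) ((hu j).tendsto_atTop)
  simpa using this

theorem gram_tendsto_bot (hu : ∀ j, IsH1 (u j) (g j)) (i j : Fin N) :
    Tendsto (fun x => gram u x i j) atBot (𝓝 0) := by
  simp only [gram, Matrix.of_apply]
  have := ((hu i).tendsto_atBot).inner (𝕜 := ℂ) ((hu j).tendsto_atBot)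
  simpa using this

/-- a continuous function with limits at both ends is bounded -/
theorem bdd_of_tendsto {f : ℝ → ℂ} (hc : Continuous f) (h1 : Tendsto f atTop (𝓝 0))
    (h2 : Tendsto f atBot (𝓝 0)) : ∃ C, ∀ x, ‖f x‖ ≤ C := by
  have hco : Tendsto f (cocompact ℝ) (𝓝 0) := by
    rw [cocompact_eq_atBot_atTop]
    exact h2.sup h1
  let F : ZeroAtInftyContinuousMap ℝ ℂ := ⟨⟨f, hc⟩, hco⟩
  exact ⟨‖F.toBCF‖, fun x => F.toBCF.norm_coe_le_norm x⟩

theorem gram_bdd (hu : ∀ j, IsH1 (u j) (g j)) (i j : Fin N) :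
    ∃ C, ∀ x, ‖gram u x i j‖ ≤ C :=
  bdd_of_tendsto (gram_cont hu i j) (gram_tendsto_top hu i j) (gram_tendsto_bot hu i j)

theorem cube_int (hu : ∀ j, IsH1 (u j) (g j)) :
    Integrable (fun x => (gram u x * gram u x * gram u x).trace.re) := by
  have h1 : Integrable (fun x => (gram u x * gram u x * gram u x).trace) := by
    simp only [Matrix.trace, Matrix.diag, Matrix.mul_apply, Finset.sum_mul]
    refine integrable_finsetSum _ fun i _ => integrable_finsetSum _ fun j _ =>
      integrable_finsetSum _ fun k _ => ?_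
    obtain ⟨C, hC⟩ := gram_bdd hu i k
    obtain ⟨D, hD⟩ := gram_bdd hu k j
    have hi := gram_int hu j i
    refine Integrable.bdd_mul (c := C * D) hi ?_ ?_
    · exact ((gram_cont hu i k).mul (gram_cont hu k j)).aestronglyMeasurable
    · refine Eventually.of_forall fun x => ?_
      rw [norm_mul]
      exact mul_le_mul (hC x) (hD x) (norm_nonneg _) ((norm_nonneg _).trans (hC x))
  exact h1.re

end facts


section core

variable {u g : Fin N → ℝ → EuclideanSpace ℂ (Fin m)}

/-- the regularised cumulative Gram matrix -/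
noncomputable def cumP (δ : ℝ) (u : Fin N → ℝ → EuclideanSpace ℂ (Fin m)) (x : ℝ) :
    Matrix (Fin N) (Fin N) ℂ :=
  (δ : ℂ) • (1 : Matrix (Fin N) (Fin N) ℂ) +
    Matrix.of fun i j => ∫ t in Set.Iic x, gram u t i j

theorem cumP_low (hu : ∀ j, IsH1 (u j) (g j)) (δ : ℝ) (x : ℝ) :
    (cumP δ u x - (δ : ℂ) • (1 : Matrix (Fin N) (Fin N) ℂ)).PosSemidef := by
  have : cumP δ u x - (δ : ℂ) • (1 : Matrix (Fin N) (Fin N) ℂ) =
      Matrix.of fun i j => ∫ t in Set.Iic x, gram u t i j := by
    simp [cumP]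
  rw [this]
  exact psd_integral _ (gram_psd u) _ fun i j => (gram_int hu i j).restrict

theorem cumP_up (hu : ∀ j, IsH1 (u j) (g j)) (δ : ℝ)
    (horth : ∀ i j, ∫ x, gram u x i j = if i = j then ((1 - 2 * δ : ℝ) : ℂ) else 0) (x : ℝ) :
    (((1 - δ : ℝ) : ℂ) • (1 : Matrix (Fin N) (Fin N) ℂ) - cumP δ u x).PosSemidef := by
  have : ((1 - δ : ℝ) : ℂ) • (1 : Matrix (Fin N) (Fin N) ℂ) - cumP δ u x =
      Matrix.of fun i j => ∫ t in Set.Ioi x, gram u t i j := by
    ext i j
    have h := intervalIntegral.integral_Iic_add_Ioi (b := x)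
      (gram_int hu i j).integrableOn (gram_int hu i j).integrableOn
    rw [horth i j] at h
    simp only [cumP, Matrix.sub_apply, Matrix.add_apply, Matrix.smul_apply, Matrix.one_apply,
      Matrix.of_apply, smul_eq_mul]
    rw [← sub_eq_iff_eq_add'.mpr h.symm]
    split_ifs <;> push_cast <;> ring
  rw [this]
  exact psd_integral _ (gram_psd u) _ fun i j => (gram_int hu i j).restrict

theorem cumP_sub (hu : ∀ j, IsH1 (u j) (g j)) (δ : ℝ) (i j : Fin N) (a b : ℝ) :
    cumP δ u b i j - cumP δ u a i j = ∫ x in a..b, gram u x i j := by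
  rw [← intervalIntegral.integral_Iic_sub_Iic (gram_int hu i j).integrableOn
    (gram_int hu i j).integrableOn]
  simp [cumP]

/-- derivative of the Gram matrix -/
noncomputable def dgram (u g : Fin N → ℝ → EuclideanSpace ℂ (Fin m)) (x : ℝ) :
    Matrix (Fin N) (Fin N) ℂ :=
  Matrix.of fun i j => (inner ℂ (g i x) (u j x) + inner ℂ (u i x) (g j x) : ℂ)

theorem dgram_eq (x : ℝ) : dgram u g x = (colM g x)ᴴ * colM u x + (colM u x)ᴴ * colM g x := by
  ext i j
  simp [dgram, colM, Matrix.mul_apply, inner_eq_sum]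

theorem trace_tendsto_zero {l : Filter ℝ} {E X : ℝ → Matrix (Fin N) (Fin N) ℂ} {C : ℝ}
    (hE : ∀ i j, Tendsto (fun x => E x i j) l (𝓝 0))
    (hX : ∀ x, ∑ i, ∑ j, ‖X x i j‖ ^ 2 ≤ C * ∑ i, ∑ j, ‖E x i j‖ ^ 2) :
    Tendsto (fun x => (E x * X x).trace.re) l (𝓝 0) := by
  have hE2 : Tendsto (fun x => C * ∑ i, ∑ j, ‖E x i j‖ ^ 2) l (𝓝 0) := by
    have : Tendsto (fun x => C * ∑ i, ∑ j, ‖E x i j‖ ^ 2) l
        (𝓝 (C * ∑ i : Fin N, ∑ j : Fin N, (‖(0 : ℂ)‖) ^ 2)) := by
      refine Tendsto.const_mul _ ?_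
      exact tendsto_finsetSum _ fun i _ => tendsto_finsetSum _ fun j _ =>
        ((hE i j).norm).pow 2
    simpa using this
  have hXij : ∀ i j, Tendsto (fun x => X x i j) l (𝓝 0) := by
    intro i j
    have h1 : Tendsto (fun x => ‖X x i j‖ ^ 2) l (𝓝 0) := by
      refine squeeze_zero (fun x => by positivity) (fun x => ?_) hE2
      refine le_trans ?_ (hX x)
      refine le_trans ?_ (Finset.single_le_sum
        (f := fun i => ∑ j, ‖X x i j‖ ^ 2) (fun i _ => by positivity) (Finset.mem_univ i))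
      exact Finset.single_le_sum
        (f := fun j => ‖X x i j‖ ^ 2) (fun i _ => by positivity) (Finset.mem_univ j)
    have h2 : Tendsto (fun x => ‖X x i j‖) l (𝓝 0) := by
      have := (Real.continuous_sqrt.tendsto 0).comp h1
      simp only [Real.sqrt_zero] at this
      refine this.congr fun x => ?_
      simp [Function.comp, Real.sqrt_sq]
    exact tendsto_zero_iff_norm_tendsto_zero.mpr h2
  have h3 : Tendsto (fun x => (E x * X x).trace) l (𝓝 0) := by
    simp only [Matrix.trace, Matrix.diag, Matrix.mul_apply]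
    have : Tendsto (fun x => ∑ i, ∑ j, E x i j * X x j i) l
        (𝓝 (∑ i : Fin N, ∑ j : Fin N, (0 : ℂ) * 0)) :=
      tendsto_finsetSum _ fun i _ => tendsto_finsetSum _ fun j _ =>
        (hE i j).mul (hXij j i)
    simpa using this
  have := (Complex.continuous_re.tendsto 0).comp h3
  rw [Complex.zero_re] at this
  exact this

theorem core0 (hu : ∀ j, IsH1 (u j) (g j)) {δ : ℝ} (hδ : 0 < δ)
    (horth : ∀ i j, ∫ x, gram u x i j = if i = j then ((1 - 2 * δ : ℝ) : ℂ) else 0)
    {ε : ℝ} (hε : 0 < ε) :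
    (Real.pi ^ 2 / 4 - ε) * ∫ x, (gram u x * gram u x * gram u x).trace.re ≤
      ∑ j, ∫ x, ‖g j x‖ ^ 2 := by
  obtain ⟨M, hM⟩ := calib_pointwise N hδ hε
  specialize hM M le_rfl
  have hX : ∀ n : ℤ, _ := fun n => lyap_curve hδ n (gram u) (dgram u g) (cumP δ u)
    (fun i j a b => by
      simpa [dgram] using (hu i).inner_intervalIntegrable (hu j) a b)
    (fun i j a b => by
      simpa [dgram, gram] using (hu i).inner_sub (hu j) a b)
    (fun i j a b => cumP_sub hu δ i j a b)
    (fun x => (gram_psd u x).isHermitian)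
    (fun x => cumP_low hu δ x) (fun x => cumP_up hu δ horth x)
  choose X hX1 hX2 hX3 hX4 hX5 hX6 using hX
  -- the calibration function
  set s : Finset ℤ := Finset.Ico (-(M : ℤ)) (M : ℤ) with hs
  have hgL2 : ∀ j, Integrable fun x => ‖g j x‖ ^ 2 := fun j => by
    have := (hu j).memLp_deriv
    exact (memLp_two_iff_integrable_sq_norm this.1).mp this
  have key : ∀ a b : ℝ, a ≤ b →
      (Real.pi ^ 2 / 4 - ε) * (∫ x in a..b, (gram u x * gram u x * gram u x).trace.re) +
        (1 / 4) * (∑ n ∈ s, ((gram u b * X n b).trace.re - (gram u a * X n a).trace.re)) ≤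
      ∫ x in a..b, ∑ j, ‖g j x‖ ^ 2 := by
    intro a b hab
    have e1 : (1 / 4) * (∑ n ∈ s, ((gram u b * X n b).trace.re - (gram u a * X n a).trace.re)) =
        ∫ x in a..b, (1 / 4) * ∑ n ∈ s,
          (2 * (X n x * dgram u g x).trace.re - (gram u x * X n x * X n x).trace.re) := by
      rw [intervalIntegral.integral_const_mul, intervalIntegral.integral_finsetSum]
      · congr 1
        exact Finset.sum_congr rfl fun n _ => hX6 n a b
      · intro n _
        exact hX5 n a b
    have hi1 : IntervalIntegrable (fun x => (Real.pi ^ 2 / 4 - ε) *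
        (gram u x * gram u x * gram u x).trace.re) volume a b :=
      ((cube_int hu).const_mul _).intervalIntegrable
    have hi2 : IntervalIntegrable (fun x => (1 / 4) * ∑ n ∈ s,
          (2 * (X n x * dgram u g x).trace.re - (gram u x * X n x * X n x).trace.re))
          volume a b := by
      refine IntervalIntegrable.const_mul ?_ _
      have := IntervalIntegrable.sum s fun n (_ : n ∈ s) => hX5 n a b
      simpa [Finset.sum_fn] using this
    rw [e1, ← intervalIntegral.integral_const_mul, ← intervalIntegral.integral_add hi1 hi2]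
    refine intervalIntegral.integral_mono_on hab (hi1.add hi2)
      (integrable_finsetSum _ fun j _ => hgL2 j).intervalIntegrable fun x _ => ?_
    have h1 := hM (cumP δ u x) (gram u x) (fun n => X n x) (cumP_low hu δ x)
      (cumP_up hu δ horth x) (gram_psd u x) (fun n => hX1 n x)
    have h2 := square_ineq (colM u x) (colM g x) (∑ n ∈ s, X n x) (by
      rw [Matrix.IsHermitian, Matrix.conjTranspose_sum]
      exact Finset.sum_congr rfl fun n _ => (hX2 n x).eq)
    rw [gram_trace, ← gram_eq, ← dgram_eq] at h2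
    have h3 : (1 / 2) * ((∑ n ∈ s, X n x) * dgram u g x).trace.re =
        (1 / 4) * ∑ n ∈ s, 2 * (X n x * dgram u g x).trace.re := by
      rw [Finset.sum_mul, Matrix.trace_sum, Complex.re_sum, ← Finset.mul_sum]
      ring
    rw [Finset.sum_sub_distrib, mul_sub]
    rw [h3] at h2
    linarith
  -- limit
  have ht : Tendsto (fun k : ℕ =>
      (Real.pi ^ 2 / 4 - ε) * (∫ x in (-(k : ℝ))..k, (gram u x * gram u x * gram u x).trace.re) +
        (1 / 4) * (∑ n ∈ s, ((gram u (k : ℝ) * X n (k : ℝ)).trace.re -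
          (gram u (-(k : ℝ)) * X n (-(k : ℝ))).trace.re))) atTop
      (𝓝 ((Real.pi ^ 2 / 4 - ε) * (∫ x, (gram u x * gram u x * gram u x).trace.re) +
        (1 / 4) * (∑ n ∈ s, ((0 : ℝ) - 0)))) := by
    have hb : Tendsto (fun k : ℕ => ((k : ℕ) : ℝ)) atTop atTop := tendsto_natCast_atTop_atTop
    have ha : Tendsto (fun k : ℕ => -((k : ℕ) : ℝ)) atTop atBot :=
      tendsto_neg_atTop_atBot.comp hb
    refine Tendsto.add ?_ ?_
    · exact (intervalIntegral_tendsto_integral (cube_int hu) ha hb).const_mul _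
    · refine Tendsto.const_mul _ (tendsto_finsetSum _ fun n _ => ?_)
      refine Tendsto.sub ?_ ?_
      · exact (trace_tendsto_zero (fun i j => gram_tendsto_top hu i j) (hX4 n)).comp hb
      · exact (trace_tendsto_zero (fun i j => gram_tendsto_bot hu i j) (hX4 n)).comp ha
  have ht2 : Tendsto (fun k : ℕ => ∫ x in (-(k : ℝ))..k, ∑ j, ‖g j x‖ ^ 2) atTop
      (𝓝 (∫ x, ∑ j, ‖g j x‖ ^ 2)) := by
    have hb : Tendsto (fun k : ℕ => ((k : ℕ) : ℝ)) atTop atTop := tendsto_natCast_atTop_atTop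
    have ha : Tendsto (fun k : ℕ => -((k : ℕ) : ℝ)) atTop atBot :=
      tendsto_neg_atTop_atBot.comp hb
    exact intervalIntegral_tendsto_integral (integrable_finsetSum _ fun j _ => hgL2 j) ha hb
  have hfin := le_of_tendsto_of_tendsto' ht ht2 fun k =>
    key _ _ (by have : (0 : ℝ) ≤ k := Nat.cast_nonneg k; linarith)
  rw [integral_finsetSum _ fun j _ => hgL2 j] at hfin
  simpa using hfin

end core


theorem gram_smul (u : Fin N → ℝ → EuclideanSpace ℂ (Fin m)) (c : ℝ) (x : ℝ) :
    gram (fun j x => (c : ℂ) • u j x) x = ((c ^ 2 : ℝ) : ℂ) • gram u x := by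
  ext i j
  simp only [gram, Matrix.of_apply, Matrix.smul_apply, inner_smul_left, inner_smul_right,
    Complex.conj_ofReal, smul_eq_mul]
  push_cast
  ring

theorem kinetic {m N : ℕ} (u g : Fin N → ℝ → EuclideanSpace ℂ (Fin m))
    (hu : ∀ j, IsH1 (u j) (g j))
    (horth : ∀ i j, ∫ x, inner ℂ (u i x) (u j x) = if i = j then (1 : ℂ) else 0) :
    Integrable (fun x => (gram u x * gram u x * gram u x).trace.re) ∧
    Real.pi ^ 2 / 4 * ∫ x, (gram u x * gram u x * gram u x).trace.re ≤
      ∑ j, ∫ x, ‖g j x‖ ^ 2 := by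
  refine ⟨cube_int hu, ?_⟩
  set I : ℝ := ∫ x, (gram u x * gram u x * gram u x).trace.re with hI
  set K : ℝ := ∑ j, ∫ x, ‖g j x‖ ^ 2 with hK
  -- for every δ and ε
  have main : ∀ δ : ℝ, 0 < δ → δ < 1 / 2 → ∀ ε : ℝ, 0 < ε →
      (Real.pi ^ 2 / 4 - ε) * ((1 - 2 * δ) ^ 2 * I) ≤ K := by
    intro δ hδ hδ2 ε hε
    set c : ℝ := Real.sqrt (1 - 2 * δ) with hc
    have hc2 : c ^ 2 = 1 - 2 * δ := Real.sq_sqrt (by linarith)
    have hcpos : 0 < 1 - 2 * δ := by linarith
    have hu' : ∀ j, IsH1 (fun x => (c : ℂ) • u j x) (fun x => (c : ℂ) • g j x) :=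
      fun j => (hu j).smul _
    have h := core0 (u := fun j x => (c : ℂ) • u j x) (g := fun j x => (c : ℂ) • g j x) hu' hδ
      (fun i j => by
        simp only [gram_smul, hc2, Matrix.smul_apply, smul_eq_mul]
        rw [integral_const_mul]
        have := horth i j
        simp only [gram, Matrix.of_apply]
        rw [this]
        split_ifs <;> simp) hε
    have e1 : ∀ x, (gram (fun j x => (c : ℂ) • u j x) x * gram (fun j x => (c : ℂ) • u j x) x *
        gram (fun j x => (c : ℂ) • u j x) x).trace.re =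
        (1 - 2 * δ) ^ 3 * (gram u x * gram u x * gram u x).trace.re := by
      intro x
      rw [gram_smul, hc2]
      simp only [Matrix.smul_mul, Matrix.mul_smul, Matrix.trace_smul, smul_smul, smul_eq_mul]
      rw [show ((1 - 2 * δ : ℝ) : ℂ) * (((1 - 2 * δ : ℝ) : ℂ) * ((1 - 2 * δ : ℝ) : ℂ)) =
        (((1 - 2 * δ) ^ 3 : ℝ) : ℂ) by push_cast; ring, Complex.re_ofReal_mul]
    have e2 : ∀ j x, ‖(c : ℂ) • g j x‖ ^ 2 = (1 - 2 * δ) * ‖g j x‖ ^ 2 := by
      intro j x
      rw [norm_smul, mul_pow, Complex.norm_real, Real.norm_eq_abs, sq_abs, hc2]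
    simp only [e1, e2] at h
    rw [integral_const_mul] at h
    simp only [integral_const_mul] at h
    rw [← Finset.mul_sum] at h
    have h' : (1 - 2 * δ) * ((Real.pi ^ 2 / 4 - ε) * ((1 - 2 * δ) ^ 2 * I)) ≤
        (1 - 2 * δ) * K := by
      calc _ = (Real.pi ^ 2 / 4 - ε) * ((1 - 2 * δ) ^ 3 * I) := by ring
        _ ≤ _ := h
    exact le_of_mul_le_mul_left h' hcpos
  -- limits
  have ht : Tendsto (fun δ : ℝ => (Real.pi ^ 2 / 4 - δ) * ((1 - 2 * δ) ^ 2 * I))
      (𝓝[>] 0) (𝓝 ((Real.pi ^ 2 / 4 - 0) * ((1 - 2 * 0) ^ 2 * I))) := by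
    apply Tendsto.mono_left _ nhdsWithin_le_nhds
    exact Continuous.tendsto (by fun_prop) 0
  have := le_of_tendsto ht (b := K) (by
    have h1 : ∀ᶠ δ in 𝓝[>] (0 : ℝ), δ < 1 / 2 := by
      apply nhdsWithin_le_nhds
      exact Iio_mem_nhds (by norm_num)
    filter_upwards [h1, self_mem_nhdsWithin] with δ h1 h2
    exact main δ h2 h1 δ h2)
  simpa using this

end LT371
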