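import Mathlib

/-!
# P371: definitions for the one-dimensional Lieb-Thirring problem (matrix potentials)

* `trPow A p`         : the trace of the p-th power of a Hermitian matrix (functional calculus)
* `IsH1 psi g`        : psi is in H^1(R; C^m) with weak derivative g
* `IsPotential g W`   : measurable, pointwise positive semidefinite, tr W^(g+1/2) integrable
* `IsEigenpair W l psi` : weak eigenfunction of H_W = -d^2/dx^2 - W
* `TrNeg g W`         : the sum of |lambda_j|^g over the negative eigenvalues of H_W with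
                        multiplicity (supremum over finite orthonormal families of eigenfunctions)
* `LT g m`            : the sharp Lieb-Thirring constant L_g(m)
-/

namespace LT371

open MeasureTheory Matrix
open scoped ENNReal ComplexOrder

/-- trace of the `p`-th power (functional calculus) of a Hermitian matrix: the sum of the `p`-th
powers of its eigenvalues; junk value `0` if the matrix is not Hermitian. -/
noncomputable def trPow {m : ℕ} (A : Matrix (Fin m) (Fin m) ℂ) (p : ℝ) : ℝ :=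
  open Classical in if h : A.IsHermitian then ∑ i, (h.eigenvalues i) ^ p else 0

/-- `psi ∈ H¹(ℝ; ℂ^m)` (absolutely continuous representative) with weak derivative `g`. -/
structure IsH1 {m : ℕ} (psi g : ℝ → EuclideanSpace ℂ (Fin m)) : Prop where
  memLp : MemLp psi 2 volume
  memLp_deriv : MemLp g 2 volume
  sub_eq : ∀ x y : ℝ, psi y - psi x = ∫ t in x..y, g t

/-- the class of potentials for the exponent `gam` (with `p = gam + 1/2`). -/
structure IsPotential {m : ℕ} (gam : ℝ) (W : ℝ → Matrix (Fin m) (Fin m) ℂ) : Prop where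
  meas : ∀ i j, Measurable fun x => W x i j
  psd : ∀ x, (W x).PosSemidef
  finite : ∫⁻ x, ENNReal.ofReal (trPow (W x) (gam + 1 / 2)) ≠ ∞

/-- `∫ tr W^(gam+1/2)` -/
noncomputable def potNorm {m : ℕ} (gam : ℝ) (W : ℝ → Matrix (Fin m) (Fin m) ℂ) : ℝ≥0∞ :=
  ∫⁻ x, ENNReal.ofReal (trPow (W x) (gam + 1 / 2))

/-- `psi` is an eigenfunction (or zero) with eigenvalue `lam` of the operator
`H_W = -d²/dx² - W` defined by its closed quadratic form on `H¹`: `psi ∈ H¹` and
`∫ ⟨phi', psi'⟩ - ∫ ⟨phi, W psi⟩ = lam ∫ ⟨phi, psi⟩` for all `phi ∈ H¹`. -/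
def IsEigenpair {m : ℕ} (W : ℝ → Matrix (Fin m) (Fin m) ℂ) (lam : ℝ)
    (psi : ℝ → EuclideanSpace ℂ (Fin m)) : Prop :=
  ∃ g : ℝ → EuclideanSpace ℂ (Fin m), IsH1 psi g ∧
    ∀ phi h : ℝ → EuclideanSpace ℂ (Fin m), IsH1 phi h →
      (∫ x, inner ℂ (h x) (g x)) - (∫ x, inner ℂ (phi x) (Matrix.toEuclideanLin (W x) (psi x)))
        = (lam : ℂ) * ∫ x, inner ℂ (phi x) (psi x)

/-- a finite orthonormal family of eigenfunctions with negative eigenvalues -/
structure IsNegFamily {m N : ℕ} (W : ℝ → Matrix (Fin m) (Fin m) ℂ) (lam : Fin N → ℝ)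
    (psi : Fin N → ℝ → EuclideanSpace ℂ (Fin m)) : Prop where
  neg : ∀ j, lam j < 0
  eig : ∀ j, IsEigenpair W (lam j) (psi j)
  orth : ∀ i j, ∫ x, inner ℂ (psi i x) (psi j x) = if i = j then (1 : ℂ) else 0

/-- `Tr (H_W)_-^gam`: the sum of `|lam_j|^gam` over all negative eigenvalues of `H_W`, counted
with multiplicity, written as the supremum of the sums over finite orthonormal families of
eigenfunctions. -/
noncomputable def TrNeg {m : ℕ} (gam : ℝ) (W : ℝ → Matrix (Fin m) (Fin m) ℂ) : ℝ≥0∞ :=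
  ⨆ (N : ℕ) (lam : Fin N → ℝ) (psi : Fin N → ℝ → EuclideanSpace ℂ (Fin m))
    (_ : IsNegFamily W lam psi), ∑ j, ENNReal.ofReal (|lam j| ^ gam)

/-- the sharp Lieb-Thirring constant `L_gam(m)` -/
noncomputable def LT (gam : ℝ) (m : ℕ) : ℝ≥0∞ :=
  ⨆ (W : ℝ → Matrix (Fin m) (Fin m) ℂ) (_ : IsPotential gam W) (_ : potNorm gam W ≠ 0),
    TrNeg gam W / potNorm gam W

/-- the semiclassical constant -/
noncomputable def Lcl (gam : ℝ) : ℝ :=
  Real.Gamma (gam + 1) / (2 * Real.sqrt Real.pi * Real.Gamma (gam + 3 / 2))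

/-- the one-bound-state constant -/
noncomputable def Lone (gam : ℝ) : ℝ :=
  2 * ((gam - 1 / 2) / (gam + 1 / 2)) ^ (gam - 1 / 2) * Lcl gam

/-- Gram matrix `E(x)_ij = ⟨u_i(x), u_j(x)⟩` of a finite family of vector functions -/
noncomputable def gram {m N : ℕ} (u : Fin N → ℝ → EuclideanSpace ℂ (Fin m)) (x : ℝ) :
    Matrix (Fin N) (Fin N) ℂ := Matrix.of fun i j => inner ℂ (u i x) (u j x)

end LT371
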