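import Vale.Agent.P371.Defs

/-!
# [H1] basic facts on H¹ functions
-/

namespace LT371

open Matrix MeasureTheory Filter Topology
open scoped ComplexOrder

variable {m : ℕ} {u g v h : ℝ → EuclideanSpace ℂ (Fin m)}

theorem memLp_integrable_inner (hu : MemLp u 2 volume) (hv : MemLp v 2 volume) :
    Integrable fun x => (inner ℂ (u x) (v x) : ℂ) := by
  refine (L2.integrable_inner (𝕜 := ℂ) (hu.toLp u) (hv.toLp v)).congr ?_
  filter_upwards [hu.coeFn_toLp, hv.coeFn_toLp] with x h1 h2
  rw [h1, h2]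

theorem IsH1.intervalIntegrable (H : IsH1 u g) (a b : ℝ) :
    IntervalIntegrable g volume a b := by
  have h1 : LocallyIntegrable g volume := H.memLp_deriv.locallyIntegrable (by norm_num)
  exact intervalIntegrable_iff.mpr
    ((h1.integrableOn_isCompact isCompact_uIcc).mono_set Set.uIoc_subset_uIcc)

theorem IsH1.eq_add (H : IsH1 u g) (a x : ℝ) : u x = u a + ∫ t in a..x, g t := by
  rw [← H.sub_eq a x]; abel

theorem IsH1.continuous (H : IsH1 u g) : Continuous u := by
  have h1 : u = fun x => u 0 + ∫ t in (0 : ℝ)..x, g t := by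
    funext x; exact H.eq_add 0 x
  rw [h1]
  exact continuous_const.add
    (intervalIntegral.continuous_primitive (fun a b => H.intervalIntegrable a b) 0)

theorem IsH1.ae_hasDerivAt (H : IsH1 u g) : ∀ᵐ x, HasDerivAt u (g x) x := by
  have h1 : LocallyIntegrable g volume := H.memLp_deriv.locallyIntegrable (by norm_num)
  filter_upwards [_root_.LocallyIntegrable.ae_hasDerivAt_integral h1] with x hx
  have h2 : u = fun x => u 0 + ∫ t in (0 : ℝ)..x, g t := by
    funext x; exact H.eq_add 0 x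
  rw [h2]
  simpa using (hx 0).const_add (u 0)

theorem IsH1.integrable_inner (H : IsH1 u g) (K : IsH1 v h) :
    Integrable fun x => (inner ℂ (u x) (v x) : ℂ) := by
  exact memLp_integrable_inner H.memLp K.memLp

theorem IsH1.integrable_deriv_inner (H : IsH1 u g) (K : IsH1 v h) :
    Integrable fun x => (inner ℂ (g x) (v x) + inner ℂ (u x) (h x) : ℂ) := by
  exact (memLp_integrable_inner H.memLp_deriv K.memLp).add
    (memLp_integrable_inner H.memLp K.memLp_deriv)

theorem IsH1.inner_intervalIntegrable (H : IsH1 u g) (K : IsH1 v h) (a b : ℝ) :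
    IntervalIntegrable (fun x => (inner ℂ (g x) (v x) + inner ℂ (u x) (h x) : ℂ))
      volume a b :=
  (H.integrable_deriv_inner K).intervalIntegrable

/-- a function dominated in variation by a real absolutely continuous function is absolutely
continuous -/
theorem ac_of_dist_le {F : Type*} [PseudoMetricSpace F] {f : ℝ → F} {P : ℝ → ℝ} {a b : ℝ}
    (hP : AbsolutelyContinuousOnInterval P a b)
    (hf : ∀ x ∈ Set.uIcc a b, ∀ y ∈ Set.uIcc a b, dist (f x) (f y) ≤ dist (P x) (P y)) :
    AbsolutelyContinuousOnInterval f a b := by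
  rw [absolutelyContinuousOnInterval_iff] at hP ⊢
  intro ε hε
  obtain ⟨δ, hδ, hE⟩ := hP ε hε
  refine ⟨δ, hδ, fun E hE1 hE2 => lt_of_le_of_lt (Finset.sum_le_sum fun i hi => ?_) (hE E hE1 hE2)⟩
  have h1 := hE1.1 i hi
  exact hf _ h1.1 _ h1.2

theorem integral_ac {F : Type*} [NormedAddCommGroup F] [NormedSpace ℝ F] {w : ℝ → F} {a b : ℝ}
    (hw : IntervalIntegrable w volume a b) :
    AbsolutelyContinuousOnInterval (fun x => ∫ t in a..x, w t) a b := by
  refine ac_of_dist_le
    (hw.norm.absolutelyContinuousOnInterval_intervalIntegral (c := a) (by simp)) ?_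
  intro x hx y hy
  have hwx : IntervalIntegrable w volume a x :=
    hw.mono_set (Set.uIcc_subset_uIcc (by simp) hx)
  have hwy : IntervalIntegrable w volume a y :=
    hw.mono_set (Set.uIcc_subset_uIcc (by simp) hy)
  rw [dist_eq_norm, dist_eq_norm, intervalIntegral.integral_interval_sub_left hwx hwy,
    intervalIntegral.integral_interval_sub_left hwx.norm hwy.norm]
  exact intervalIntegral.norm_integral_le_abs_integral_norm

theorem IsH1.inner_ac (H : IsH1 u g) (K : IsH1 v h) (a b : ℝ) :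
    AbsolutelyContinuousOnInterval (fun x => (inner ℂ (u x) (v x) : ℂ)) a b := by
  obtain ⟨C, hC⟩ := isCompact_uIcc.exists_bound_of_continuousOn
    (H.continuous.continuousOn (s := Set.uIcc a b))
  obtain ⟨D, hD⟩ := isCompact_uIcc.exists_bound_of_continuousOn
    (K.continuous.continuousOn (s := Set.uIcc a b))
  set M : ℝ := max C D with hM
  have hM0 : 0 ≤ M := (norm_nonneg _).trans ((hC a (by simp)).trans (le_max_left _ _))
  have hgi := (H.intervalIntegrable a b).norm
  have hhi := (K.intervalIntegrable a b).norm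
  have hs : IntervalIntegrable (fun t => M * (‖g t‖ + ‖h t‖)) volume a b :=
    (hgi.add hhi).const_mul M
  refine ac_of_dist_le (hs.absolutelyContinuousOnInterval_intervalIntegral (c := a) (by simp)) ?_
  intro x hx y hy
  have hsx : IntervalIntegrable (fun t => M * (‖g t‖ + ‖h t‖)) volume a x :=
    hs.mono_set (Set.uIcc_subset_uIcc (by simp) hx)
  have hsy : IntervalIntegrable (fun t => M * (‖g t‖ + ‖h t‖)) volume a y :=
    hs.mono_set (Set.uIcc_subset_uIcc (by simp) hy)
  rw [dist_eq_norm, dist_eq_norm, intervalIntegral.integral_interval_sub_left hsx hsy,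
    intervalIntegral.integral_const_mul, norm_mul, Real.norm_of_nonneg hM0,
    intervalIntegral.integral_add ((H.intervalIntegrable y x).norm)
      ((K.intervalIntegrable y x).norm)]
  have e1 : (inner ℂ (u x) (v x) : ℂ) - inner ℂ (u y) (v y)
      = inner ℂ (u x - u y) (v x) + inner ℂ (u y) (v x - v y) := by
    rw [inner_sub_left, inner_sub_right]; ring
  have e2 : ‖u x - u y‖ ≤ |∫ t in y..x, ‖g t‖| := by
    rw [H.sub_eq y x]; exact intervalIntegral.norm_integral_le_abs_integral_norm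
  have e3 : ‖v x - v y‖ ≤ |∫ t in y..x, ‖h t‖| := by
    rw [K.sub_eq y x]; exact intervalIntegral.norm_integral_le_abs_integral_norm
  have e4 : ‖v x‖ ≤ M := (hD x hx).trans (le_max_right _ _)
  have e5 : ‖u y‖ ≤ M := (hC y hy).trans (le_max_left _ _)
  have e6 : |∫ t in y..x, ‖g t‖| + |∫ t in y..x, ‖h t‖|
      = |(∫ t in y..x, ‖g t‖) + ∫ t in y..x, ‖h t‖| := by
    rcases le_total y x with hxy | hxy
    · have a1 : 0 ≤ ∫ t in y..x, ‖g t‖ :=
        intervalIntegral.integral_nonneg hxy fun t _ => norm_nonneg _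
      have a2 : 0 ≤ ∫ t in y..x, ‖h t‖ :=
        intervalIntegral.integral_nonneg hxy fun t _ => norm_nonneg _
      rw [abs_of_nonneg a1, abs_of_nonneg a2, abs_of_nonneg (add_nonneg a1 a2)]
    · have a1 : ∫ t in y..x, ‖g t‖ ≤ 0 := by
        rw [intervalIntegral.integral_symm]
        exact neg_nonpos.2 (intervalIntegral.integral_nonneg hxy fun t _ => norm_nonneg _)
      have a2 : ∫ t in y..x, ‖h t‖ ≤ 0 := by
        rw [intervalIntegral.integral_symm]
        exact neg_nonpos.2 (intervalIntegral.integral_nonneg hxy fun t _ => norm_nonneg _)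
      rw [abs_of_nonpos a1, abs_of_nonpos a2, abs_of_nonpos (add_nonpos a1 a2)]; ring
  rw [e1, Real.norm_eq_abs, ← e6]
  calc ‖(inner ℂ (u x - u y) (v x) : ℂ) + inner ℂ (u y) (v x - v y)‖
      ≤ ‖(inner ℂ (u x - u y) (v x) : ℂ)‖ + ‖(inner ℂ (u y) (v x - v y) : ℂ)‖ := norm_add_le _ _
    _ ≤ ‖u x - u y‖ * ‖v x‖ + ‖u y‖ * ‖v x - v y‖ :=
        add_le_add (norm_inner_le_norm _ _) (norm_inner_le_norm _ _)
    _ ≤ |∫ t in y..x, ‖g t‖| * M + M * |∫ t in y..x, ‖h t‖| :=
        add_le_add (mul_le_mul e2 e4 (norm_nonneg _) (abs_nonneg _))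
          (mul_le_mul e5 e3 (norm_nonneg _) hM0)
    _ = M * (|∫ t in y..x, ‖g t‖| + |∫ t in y..x, ‖h t‖|) := by ring

/-- product rule -/
theorem IsH1.inner_sub (H : IsH1 u g) (K : IsH1 v h) (a b : ℝ) :
    inner ℂ (u b) (v b) - inner ℂ (u a) (v a) =
      ∫ x in a..b, (inner ℂ (g x) (v x) + inner ℂ (u x) (h x) : ℂ) := by
  have hI := H.inner_intervalIntegrable K a b
  have hac := (H.inner_ac K a b).sub (integral_ac hI)
  have hloc : LocallyIntegrable
      (fun x => (inner ℂ (g x) (v x) + inner ℂ (u x) (h x) : ℂ)) volume :=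
    (H.integrable_deriv_inner K).locallyIntegrable
  have hz : ∀ᵐ x, x ∈ Set.uIcc a b → HasDerivAt ((fun x => (inner ℂ (u x) (v x) : ℂ)) -
      fun x => ∫ t in a..x, (inner ℂ (g t) (v t) + inner ℂ (u t) (h t) : ℂ)) 0 x := by
    filter_upwards [H.ae_hasDerivAt, K.ae_hasDerivAt,
      _root_.LocallyIntegrable.ae_hasDerivAt_integral hloc]
      with x h1 h2 h3 _
    have h4 := (h1.inner ℂ h2).sub (h3 a)
    have h5 : (inner ℂ (u x) (h x) + inner ℂ (g x) (v x) : ℂ) -
        (inner ℂ (g x) (v x) + inner ℂ (u x) (h x)) = 0 := by ring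
    rw [h5] at h4
    exact h4
  obtain ⟨C, hC⟩ := hac.const_of_ae_hasDerivAt_zero hz
  have h1 := hC a (by simp)
  have h2 := hC b (by simp)
  simp only [Pi.sub_apply, intervalIntegral.integral_same, sub_zero] at h1 h2
  rw [h1, ← h2]; ring

theorem IsH1.tendsto_atTop (H : IsH1 u g) : Tendsto u atTop (𝓝 0) := by
  set w : ℝ → ℂ := fun x => (inner ℂ (g x) (u x) + inner ℂ (u x) (g x) : ℂ) with hw
  have hwi : Integrable w := H.integrable_deriv_inner H
  have h1 : Tendsto (fun b => ∫ x in (0 : ℝ)..b, w x) atTop (𝓝 (∫ x in Set.Ioi 0, w x)) :=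
    intervalIntegral_tendsto_integral_Ioi 0 hwi.integrableOn tendsto_id
  have h2 : Tendsto (fun b => (inner ℂ (u b) (u b) : ℂ)) atTop
      (𝓝 ((∫ x in Set.Ioi 0, w x) + inner ℂ (u 0) (u 0))) := by
    refine (h1.add_const (inner ℂ (u 0) (u 0) : ℂ)).congr fun b => ?_
    rw [← H.inner_sub H 0 b]; ring
  have h3 : (∫ x in Set.Ioi 0, w x) + inner ℂ (u 0) (u 0) = 0 := by
    refine IntegrableAtFilter.eq_zero_of_tendsto (μ := volume) (l := atTop)
      (f := fun b => (inner ℂ (u b) (u b) : ℂ)) ?_ ?_ h2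
    · exact (H.integrable_inner H).integrableAtFilter _
    · intro s hs
      obtain ⟨c, hc⟩ := mem_atTop_sets.1 hs
      have : Set.Ici c ⊆ s := fun x hx => hc x hx
      exact top_le_iff.1 ((le_of_eq (Real.volume_Ici (a := c)).symm).trans (measure_mono this))
  rw [h3] at h2
  rw [tendsto_zero_iff_norm_tendsto_zero]
  have h4 : Tendsto (fun b => ‖(inner ℂ (u b) (u b) : ℂ)‖) atTop (𝓝 0) := by
    simpa using h2.norm
  have h5 := (Real.continuous_sqrt.tendsto 0).comp h4
  rw [Real.sqrt_zero] at h5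
  refine h5.congr fun b => ?_
  simp only [Function.comp_apply]
  rw [inner_self_eq_norm_sq_to_K]
  simp

theorem IsH1.tendsto_atBot (H : IsH1 u g) : Tendsto u atBot (𝓝 0) := by
  set w : ℝ → ℂ := fun x => (inner ℂ (g x) (u x) + inner ℂ (u x) (g x) : ℂ) with hw
  have hwi : Integrable w := H.integrable_deriv_inner H
  have h1 : Tendsto (fun a => ∫ x in a..(0 : ℝ), w x) atBot (𝓝 (∫ x in Set.Iic 0, w x)) :=
    intervalIntegral_tendsto_integral_Iic 0 hwi.integrableOn tendsto_id
  have h2 : Tendsto (fun a => (inner ℂ (u a) (u a) : ℂ)) atBot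
      (𝓝 (inner ℂ (u 0) (u 0) - ∫ x in Set.Iic 0, w x)) := by
    refine (h1.const_sub (inner ℂ (u 0) (u 0) : ℂ)).congr fun a => ?_
    rw [← H.inner_sub H a 0]; ring
  have h3 : inner ℂ (u 0) (u 0) - (∫ x in Set.Iic 0, w x) = 0 := by
    refine IntegrableAtFilter.eq_zero_of_tendsto (μ := volume) (l := atBot)
      (f := fun b => (inner ℂ (u b) (u b) : ℂ)) ?_ ?_ h2
    · exact (H.integrable_inner H).integrableAtFilter _
    · intro s hs
      obtain ⟨c, hc⟩ := mem_atBot_sets.1 hs
      have : Set.Iic c ⊆ s := fun x hx => hc x hx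
      exact top_le_iff.1 ((le_of_eq (Real.volume_Iic (a := c)).symm).trans (measure_mono this))
  rw [h3] at h2
  rw [tendsto_zero_iff_norm_tendsto_zero]
  have h4 : Tendsto (fun b => ‖(inner ℂ (u b) (u b) : ℂ)‖) atBot (𝓝 0) := by
    simpa using h2.norm
  have h5 := (Real.continuous_sqrt.tendsto 0).comp h4
  rw [Real.sqrt_zero] at h5
  refine h5.congr fun b => ?_
  simp only [Function.comp_apply]
  rw [inner_self_eq_norm_sq_to_K]
  simp

theorem IsH1.smul (H : IsH1 u g) (c : ℂ) : IsH1 (fun x => c • u x) (fun x => c • g x) where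
  memLp := H.memLp.const_smul c
  memLp_deriv := H.memLp_deriv.const_smul c
  sub_eq := fun x y => by
    rw [intervalIntegral.integral_smul, ← H.sub_eq x y, smul_sub]

end LT371
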