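import Vale.Agent.P371.H1

/-!
# [KELLER] lower bound `L_gam(m) ≥ L_gam^(1)` for all `gam > 1/2`, `m ≥ 1`

With `p = gam + 1/2`, `q = p - 1 = gam - 1/2 > 0` and `s = sigmoid (2x/q)` (so that
`4 s (1-s) = 1/cosh(x/q)^2`, `1 - 2 s = -tanh(x/q)`):
`W(x) = diag(w(x),0,...,0)`, `w = 4 (p/q) s(1-s) = (p/q) / cosh(x/q)^2`,
`psi = c (s(1-s))^(q/2) e_0`, eigenvalue `-1`:
`psi' = (1-2s) psi`, `psi'' = (1 - w) psi`.
`∫ w^p = (4p/q)^p (q/2) B(p,p) = (p/q)^p q √π Γ(p)/Γ(p+1/2) = 1 / Lone gam`.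
-/

namespace LT371

open Matrix MeasureTheory Filter Topology
open scoped ComplexOrder ENNReal

/-- auxiliary: `s = sigmoid (2x/q)` -/
noncomputable def kS (q x : ℝ) : ℝ := Real.sigmoid (2 / q * x)

/-- auxiliary: `s (1 - s)` (which is `1/(4 cosh(x/q)^2)`) -/
noncomputable def kP (q x : ℝ) : ℝ := kS q x * (1 - kS q x)

/-- auxiliary: the ground state `(s (1 - s))^(q/2)` (proportional to `cosh(x/q)^(-q)`) -/
noncomputable def kF (q x : ℝ) : ℝ := kP q x ^ (q / 2)

lemma kP_pos (q x : ℝ) : 0 < kP q x :=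
  mul_pos (Real.sigmoid_pos _) (sub_pos.2 (Real.sigmoid_lt_one _))

lemma kP_le_one (q x : ℝ) : kP q x ≤ 1 := by
  have h1 := Real.sigmoid_pos (2 / q * x)
  have h2 := Real.sigmoid_lt_one (2 / q * x)
  unfold kP kS
  nlinarith

lemma kF_pos (q x : ℝ) : 0 < kF q x := Real.rpow_pos_of_pos (kP_pos q x) _

lemma hasDerivAt_kS {q : ℝ} (x : ℝ) : HasDerivAt (kS q) (2 / q * kP q x) x := by
  have h := (Real.hasDerivAt_sigmoid (2 / q * x)).comp x ((hasDerivAt_id x).const_mul (2 / q))
  refine h.congr_deriv ?_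
  simp only [kP, kS]
  ring

lemma continuous_kS {q : ℝ} : Continuous (kS q) :=
  continuous_iff_continuousAt.2 fun x => (hasDerivAt_kS x).continuousAt

lemma hasDerivAt_kP {q : ℝ} (x : ℝ) :
    HasDerivAt (kP q) (2 / q * (1 - 2 * kS q x) * kP q x) x := by
  have h := (hasDerivAt_kS (q := q) x).mul ((hasDerivAt_kS (q := q) x).const_sub 1)
  refine h.congr_deriv ?_
  simp only [kP]
  ring

lemma continuous_kP {q : ℝ} : Continuous (kP q) :=
  continuous_iff_continuousAt.2 fun x => (hasDerivAt_kP x).continuousAt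

lemma hasDerivAt_kF {q : ℝ} (hq : 0 < q) (x : ℝ) :
    HasDerivAt (kF q) ((1 - 2 * kS q x) * kF q x) x := by
  have h := (hasDerivAt_kP (q := q) x).rpow_const (p := q / 2) (Or.inl (kP_pos q x).ne')
  refine h.congr_deriv ?_
  have h2 : kP q x ^ (q / 2 - 1) = kP q x ^ (q / 2) / kP q x := by
    rw [Real.rpow_sub (kP_pos q x), Real.rpow_one]
  rw [h2, kF]
  have h3 := (kP_pos q x).ne'
  field_simp

lemma continuous_kF {q : ℝ} (hq : 0 < q) : Continuous (kF q) :=
  continuous_iff_continuousAt.2 fun x => (hasDerivAt_kF hq x).continuousAt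

/-- the potential `w = 4 (q+1)/q s(1-s) = ((q+1)/q) / cosh(x/q)^2` -/
noncomputable def kW (q x : ℝ) : ℝ := 4 * ((q + 1) / q) * kP q x

lemma kW_pos {q : ℝ} (hq : 0 < q) (x : ℝ) : 0 < kW q x := by
  have := kP_pos q x
  unfold kW
  positivity

lemma continuous_kW {q : ℝ} : Continuous (kW q) := continuous_const.mul continuous_kP

lemma hasDerivAt_kF' {q : ℝ} (hq : 0 < q) (x : ℝ) :
    HasDerivAt (fun x => (1 - 2 * kS q x) * kF q x) ((1 - kW q x) * kF q x) x := by
  have h := (((hasDerivAt_kS (q := q) x).const_mul 2).const_sub 1).mul (hasDerivAt_kF hq x)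
  refine h.congr_deriv ?_
  simp only [kW, kP]
  field_simp
  ring

open ProbabilityTheory in
lemma lintegral_kP_rpow {q r : ℝ} (hq : 0 < q) (hr : 0 < r) :
    ∫⁻ x, ENNReal.ofReal (kP q x ^ r) = ENNReal.ofReal (q / 2 * beta r r) := by
  have hb := beta_pos hr hr
  have h1 := lintegral_betaPDF_eq_one hr hr
  rw [lintegral_betaPDF] at h1
  have himg : (kS q) '' Set.univ = Set.Ioo 0 1 := by
    rw [Set.image_univ, ← Real.range_sigmoid]
    ext y
    constructor
    · rintro ⟨x, rfl⟩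
      exact ⟨_, rfl⟩
    · rintro ⟨x, rfl⟩
      refine ⟨x * (q / 2), ?_⟩
      unfold kS
      congr 1
      field_simp
  have hinj : Set.InjOn (kS q) Set.univ := by
    intro a _ b _ hab
    have := Real.sigmoid_injective hab
    have hq' : (2 / q) ≠ 0 := by positivity
    exact mul_left_cancel₀ hq' this
  have h2 := lintegral_image_eq_lintegral_abs_deriv_mul (s := Set.univ) (f := kS q)
    (f' := fun x => 2 / q * kP q x) MeasurableSet.univ
    (fun x _ => (hasDerivAt_kS x).hasDerivWithinAt) hinj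
    (fun x => ENNReal.ofReal (1 / beta r r * x ^ (r - 1) * (1 - x) ^ (r - 1)))
  rw [himg, h1, Measure.restrict_univ] at h2
  have h3 : ∀ x : ℝ, ENNReal.ofReal |2 / q * kP q x| *
      ENNReal.ofReal (1 / beta r r * kS q x ^ (r - 1) * (1 - kS q x) ^ (r - 1)) =
      ENNReal.ofReal (2 / q * (1 / beta r r)) * ENNReal.ofReal (kP q x ^ r) := by
    intro x
    have hs : 0 < kS q x := Real.sigmoid_pos _
    have hs' : 0 < 1 - kS q x := sub_pos.2 (Real.sigmoid_lt_one _)
    have hp := kP_pos q x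
    rw [← ENNReal.ofReal_mul (abs_nonneg _), ← ENNReal.ofReal_mul (by positivity)]
    congr 1
    rw [abs_of_pos (by positivity), mul_assoc (1 / beta r r), ← Real.mul_rpow hs.le hs'.le]
    have : kP q x ^ r = kP q x ^ (r - 1) * kP q x := by
      rw [Real.rpow_sub_one hp.ne']
      field_simp
    rw [this]
    unfold kP
    ring
  simp only [h3] at h2
  rw [lintegral_const_mul _ (by
    exact ((continuous_kP.rpow_const fun x => Or.inr hr.le).measurable).ennreal_ofReal)] at h2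
  have h4 : ENNReal.ofReal (q / 2 * beta r r) * ENNReal.ofReal (2 / q * (1 / beta r r)) = 1 := by
    rw [← ENNReal.ofReal_mul (by positivity)]
    rw [show q / 2 * beta r r * (2 / q * (1 / beta r r)) = 1 by field_simp]
    simp
  calc ∫⁻ x, ENNReal.ofReal (kP q x ^ r)
      = (ENNReal.ofReal (q / 2 * beta r r) * ENNReal.ofReal (2 / q * (1 / beta r r))) *
        ∫⁻ x, ENNReal.ofReal (kP q x ^ r) := by rw [h4, one_mul]
    _ = ENNReal.ofReal (q / 2 * beta r r) := by
        rw [mul_assoc, ← h2, mul_one]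

lemma integrable_kP_rpow {q r : ℝ} (hq : 0 < q) (hr : 0 < r) :
    Integrable fun x => kP q x ^ r := by
  refine ⟨(continuous_kP.rpow_const fun x => Or.inr hr.le).aestronglyMeasurable, ?_⟩
  rw [hasFiniteIntegral_iff_ofReal (ae_of_all _ fun x => (Real.rpow_pos_of_pos (kP_pos q x) _).le),
    lintegral_kP_rpow hq hr]
  exact ENNReal.ofReal_lt_top

lemma kF_sq {q : ℝ} (x : ℝ) : kF q x ^ 2 = kP q x ^ q := by
  rw [kF, ← Real.rpow_natCast, ← Real.rpow_mul (kP_pos q x).le]
  congr 1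
  push_cast
  ring

lemma integrable_kF_sq {q : ℝ} (hq : 0 < q) : Integrable fun x => kF q x ^ 2 := by
  simp only [kF_sq]
  exact integrable_kP_rpow hq hq

lemma memLp_kF {q : ℝ} (hq : 0 < q) : MemLp (kF q) 2 volume :=
  (memLp_two_iff_integrable_sq (continuous_kF hq).aestronglyMeasurable).2 (integrable_kF_sq hq)

lemma memLp_mul_kF {q : ℝ} (hq : 0 < q) {b : ℝ → ℝ} (hb : Continuous b) {C : ℝ}
    (hC : ∀ x, |b x| ≤ C) : MemLp (fun x => b x * kF q x) 2 volume := by
  refine MemLp.of_le_mul (c := C) (memLp_kF hq) (hb.mul (continuous_kF hq)).aestronglyMeasurable ?_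
  refine ae_of_all _ fun x => ?_
  rw [norm_mul]
  exact mul_le_mul_of_nonneg_right (hC x) (norm_nonneg _)


lemma isH1_real_smul {m : ℕ} {f f' : ℝ → ℝ} (hf : MemLp f 2 volume) (hf' : MemLp f' 2 volume)
    (hd : ∀ x, HasDerivAt f (f' x) x) (hc : Continuous f') (e : EuclideanSpace ℂ (Fin m)) :
    IsH1 (fun x => ((f x : ℝ) : ℂ) • e) (fun x => ((f' x : ℝ) : ℂ) • e) := by
  have key : ∀ {b : ℝ → ℝ}, MemLp b 2 volume →
      MemLp (fun x => ((b x : ℝ) : ℂ) • e) 2 volume := by
    intro b hb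
    refine MemLp.of_le_mul (c := ‖e‖) hb ?_ ?_
    · exact (Complex.continuous_ofReal.comp_aestronglyMeasurable hb.1).smul_const e
    · refine ae_of_all _ fun x => ?_
      rw [norm_smul, Complex.norm_real, mul_comm]
  refine ⟨key hf, key hf', fun x y => ?_⟩
  have h1 : ∀ t ∈ Set.uIcc x y, HasDerivAt (fun x => ((f x : ℝ) : ℂ) • e)
      (((f' t : ℝ) : ℂ) • e) t := by
    intro t _
    exact ((hd t).ofReal_comp).smul_const e
  have h2 : Continuous fun t => ((f' t : ℝ) : ℂ) • e :=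
    (Complex.continuous_ofReal.comp hc).smul continuous_const
  exact (intervalIntegral.integral_eq_sub_of_hasDerivAt h1
    (h2.intervalIntegrable x y)).symm

lemma integrable_inner_of_memLp {m : ℕ} {u v : ℝ → EuclideanSpace ℂ (Fin m)}
    (hu : MemLp u 2 volume) (hv : MemLp v 2 volume) :
    Integrable fun x => (inner ℂ (u x) (v x) : ℂ) := by
  have h := L2.integrable_inner (𝕜 := ℂ) (hu.toLp u) (hv.toLp v)
  refine h.congr ?_
  filter_upwards [hu.coeFn_toLp, hv.coeFn_toLp] with x h1 h2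
  rw [h1, h2]

/-- integration by parts on the line for H¹ functions -/
lemma ibp_line {m : ℕ} {u g v h : ℝ → EuclideanSpace ℂ (Fin m)} (H : IsH1 u g) (K : IsH1 v h) :
    ∫ x, (inner ℂ (g x) (v x) + inner ℂ (u x) (h x) : ℂ) = 0 := by
  have hint : Integrable fun x => (inner ℂ (g x) (v x) + inner ℂ (u x) (h x) : ℂ) :=
    (integrable_inner_of_memLp H.memLp_deriv K.memLp).add
      (integrable_inner_of_memLp H.memLp K.memLp_deriv)
  have h1 := intervalIntegral_tendsto_integral hint tendsto_neg_atTop_atBot tendsto_id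
  have h2 : Tendsto (fun n : ℝ => (inner ℂ (u n) (v n) : ℂ) - inner ℂ (u (-n)) (v (-n)))
      atTop (𝓝 0) := by
    have a1 : Tendsto (fun n : ℝ => (inner ℂ (u n) (v n) : ℂ)) atTop (𝓝 0) := by
      simpa using H.tendsto_atTop.inner K.tendsto_atTop (𝕜 := ℂ)
    have a2 : Tendsto (fun n : ℝ => (inner ℂ (u (-n)) (v (-n)) : ℂ)) atTop (𝓝 0) := by
      have := (H.tendsto_atBot.inner K.tendsto_atBot (𝕜 := ℂ)).comp
        (tendsto_neg_atTop_atBot (G := ℝ))
      simpa [Function.comp_def] using this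
    simpa using a1.sub a2
  refine tendsto_nhds_unique h1 ?_
  refine h2.congr fun n => ?_
  exact H.inner_sub K (-n) n

section diag

variable {m : ℕ} (i0 : Fin m)

/-- the potential `diag(w,0,...,0)` -/
noncomputable def kMat (q : ℝ) (x : ℝ) : Matrix (Fin m) (Fin m) ℂ :=
  Matrix.diagonal fun i => if i = i0 then ((kW q x : ℝ) : ℂ) else 0

lemma kMat_apply_single (q : ℝ) (x : ℝ) (c : ℂ) :
    Matrix.toEuclideanLin (kMat i0 q x) (c • EuclideanSpace.single i0 (1 : ℂ)) =
      ((kW q x : ℝ) : ℂ) • c • EuclideanSpace.single i0 (1 : ℂ) := by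
  ext i
  simp only [kMat, Matrix.toLpLin_apply, PiLp.toLp_apply, Matrix.mulVec_diagonal]
  by_cases h : i = i0
  · subst h
    simp
  · simp [h]

lemma kMat_psd {q : ℝ} (hq : 0 < q) (x : ℝ) : (kMat i0 q x).PosSemidef := by
  refine Matrix.posSemidef_diagonal_iff.2 fun i => ?_
  split_ifs
  · exact_mod_cast (kW_pos hq x).le
  · exact le_rfl

lemma trPow_diagonal {d : Fin m → ℝ} {p : ℝ} :
    trPow (Matrix.diagonal fun i => ((d i : ℝ) : ℂ)) p = ∑ i, d i ^ p := by
  have hH : (Matrix.diagonal fun i => ((d i : ℝ) : ℂ)).IsHermitian := by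
    rw [Matrix.IsHermitian, Matrix.diagonal_conjTranspose]
    congr 1
    ext i
    simp
  rw [trPow, dif_pos hH]
  have h1 := hH.roots_charpoly_eq_eigenvalues
  rw [Matrix.charpoly_diagonal, Polynomial.roots_prod _ _ (by
    simp [Finset.prod_ne_zero_iff, Polynomial.X_sub_C_ne_zero])] at h1
  simp only [Polynomial.roots_X_sub_C, Multiset.bind_singleton] at h1
  have h2 := congrArg (fun s => (s.map fun z : ℂ => z.re ^ p).sum) h1
  simp only [Multiset.map_map, Function.comp_def] at h2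
  simpa [List.sum_ofFn] using h2.symm

lemma trPow_kMat {q : ℝ} {p : ℝ} (hp : p ≠ 0) (x : ℝ) :
    trPow (kMat i0 q x) p = kW q x ^ p := by
  have h := trPow_diagonal (m := m) (d := fun i => if i = i0 then kW q x else 0) (p := p)
  have h2 : (Matrix.diagonal fun i => (((if i = i0 then kW q x else 0 : ℝ)) : ℂ)) =
      kMat i0 q x := by
    unfold kMat
    congr 1
    ext i
    split_ifs <;> simp
  rw [h2] at h
  rw [h, Finset.sum_eq_single i0]
  · simp
  · intro b _ hb
    simp [hb, Real.zero_rpow hp]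
  · intro h
    exact absurd (Finset.mem_univ _) h

end diag

open ProbabilityTheory in
lemma potNorm_kMat {m : ℕ} (i0 : Fin m) {gam : ℝ} (hgam : 1 / 2 < gam) :
    potNorm gam (kMat i0 (gam - 1 / 2)) = (ENNReal.ofReal (Lone gam))⁻¹ := by
  obtain ⟨q, hqdef⟩ : ∃ q, q = gam - 1 / 2 := ⟨_, rfl⟩
  have hq : 0 < q := by rw [hqdef]; linarith
  have hgq : gam = q + 1 / 2 := by rw [hqdef]; ring
  subst hgq
  have e1 : q + 1 / 2 - 1 / 2 = q := by ring
  have e2 : q + 1 / 2 + 1 / 2 = q + 1 := by ring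
  have hp : 0 < q + 1 := by linarith
  rw [e1, potNorm, e2]
  have h1 : ∀ x, ENNReal.ofReal (trPow (kMat i0 q x) (q + 1)) =
      ENNReal.ofReal ((4 * ((q + 1) / q)) ^ (q + 1)) * ENNReal.ofReal (kP q x ^ (q + 1)) := by
    intro x
    rw [trPow_kMat i0 hp.ne', ← ENNReal.ofReal_mul (by positivity), kW,
      Real.mul_rpow (by positivity) (kP_pos q x).le]
  simp only [h1]
  rw [lintegral_const_mul _ (by
    exact ((continuous_kP.rpow_const fun x => Or.inr hp.le).measurable).ennreal_ofReal),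
    lintegral_kP_rpow hq hp, ← ENNReal.ofReal_mul (by positivity)]
  have hL : 0 < Lone (q + 1 / 2) := by
    unfold Lone Lcl
    rw [e1, e2]
    have g1 : 0 < Real.Gamma (q + 1 / 2 + 1) := Real.Gamma_pos_of_pos (by linarith)
    have g2 : 0 < Real.Gamma (q + 1 / 2 + 3 / 2) := Real.Gamma_pos_of_pos (by linarith)
    positivity
  rw [← ENNReal.ofReal_inv_of_pos hL]
  congr 1
  -- the Beta function identity
  have hdup := Real.Gamma_mul_Gamma_add_half (q + 1)
  have g0 : 0 < Real.Gamma (q + 1) := Real.Gamma_pos_of_pos hp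
  have g1 : 0 < Real.Gamma (q + 1 + 1 / 2) := Real.Gamma_pos_of_pos (by linarith)
  have g2 : 0 < Real.Gamma (2 * (q + 1)) := Real.Gamma_pos_of_pos (by linarith)
  have g3 : Real.Gamma (q + 1 / 2 + 3 / 2) = (q + 1) * Real.Gamma (q + 1) := by
    rw [show q + 1 / 2 + 3 / 2 = (q + 1) + 1 by ring, Real.Gamma_add_one hp.ne']
  have g4 : Real.Gamma (q + 1 / 2 + 1) = Real.Gamma (q + 1 + 1 / 2) := by
    congr 1
    ring
  have hpi : 0 < Real.sqrt Real.pi := Real.sqrt_pos.2 Real.pi_pos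
  rw [Lone, Lcl, e1, e2, g3, g4, beta, show q + 1 + (q + 1) = 2 * (q + 1) by ring]
  have h4 : (4 : ℝ) ^ (q + 1) = 2 ^ (2 * (q + 1)) := by
    rw [Real.rpow_mul (by norm_num)]
    norm_num
  have h5 : (2 : ℝ) ^ (1 - 2 * (q + 1)) = 2 / 2 ^ (2 * (q + 1)) := by
    rw [Real.rpow_sub (by norm_num), Real.rpow_one]
  have h6 : ((q + 1) / q) ^ (q + 1) = ((q + 1) / q) ^ q * ((q + 1) / q) := by
    rw [Real.rpow_add_one (by positivity)]
  have h7 : (q / (q + 1)) ^ q = (((q + 1) / q) ^ q)⁻¹ := by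
    rw [← Real.inv_rpow (by positivity), inv_div]
  have h8 : 0 < ((q + 1) / q) ^ q := by positivity
  have h9 : (0 : ℝ) < 2 ^ (2 * (q + 1)) := by positivity
  rw [Real.mul_rpow (by norm_num) (by positivity), h4, h6, h7]
  rw [h5] at hdup
  generalize ((q + 1) / q) ^ q = A at *
  generalize (2 : ℝ) ^ (2 * (q + 1)) = B at *
  generalize Real.Gamma (q + 1 + 1 / 2) = G1 at *
  generalize Real.Gamma (2 * (q + 1)) = G2 at *
  generalize Real.Gamma (q + 1) = G0 at *
  have hG : G0 * G1 * B = G2 * 2 * Real.sqrt Real.pi := by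
    rw [hdup]
    field_simp
  field_simp
  nlinarith [hG]

lemma kMat_eigenpair {m : ℕ} (i0 : Fin m) {q : ℝ} (hq : 0 < q) (c : ℂ) :
    IsEigenpair (kMat i0 q) (-1)
      (fun x => ((kF q x : ℝ) : ℂ) • c • EuclideanSpace.single i0 (1 : ℂ)) := by
  set e : EuclideanSpace ℂ (Fin m) := c • EuclideanSpace.single i0 (1 : ℂ) with he
  have hb1 : ∀ x, |1 - 2 * kS q x| ≤ 1 := by
    intro x
    have h1 := Real.sigmoid_pos (2 / q * x)
    have h2 := Real.sigmoid_lt_one (2 / q * x)
    unfold kS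
    rw [abs_le]
    constructor <;> linarith
  have hb2 : ∀ x, |1 - kW q x| ≤ 1 + 4 * ((q + 1) / q) := by
    intro x
    have h1 := kW_pos hq x
    have h2 : kW q x ≤ 4 * ((q + 1) / q) := by
      have := kP_le_one q x
      unfold kW
      exact mul_le_of_le_one_right (by positivity) this
    rw [abs_le]
    constructor <;> linarith
  have hb3 : ∀ x, |kW q x| ≤ 4 * ((q + 1) / q) := by
    intro x
    rw [abs_of_pos (kW_pos hq x)]
    have := kP_le_one q x
    unfold kW
    exact mul_le_of_le_one_right (by positivity) this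
  have c1 : Continuous fun x => 1 - 2 * kS q x := continuous_const.sub (continuous_const.mul continuous_kS)
  have c2 : Continuous fun x => 1 - kW q x := continuous_const.sub continuous_kW
  have L0 := memLp_kF hq
  have L1 := memLp_mul_kF hq c1 hb1
  have L2 := memLp_mul_kF hq c2 hb2
  have H1 : IsH1 (fun x => ((kF q x : ℝ) : ℂ) • e)
      (fun x => (((1 - 2 * kS q x) * kF q x : ℝ) : ℂ) • e) :=
    isH1_real_smul L0 L1 (hasDerivAt_kF hq) (c1.mul (continuous_kF hq)) e
  have H2 : IsH1 (fun x => (((1 - 2 * kS q x) * kF q x : ℝ) : ℂ) • e)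
      (fun x => (((1 - kW q x) * kF q x : ℝ) : ℂ) • e) :=
    isH1_real_smul L1 L2 (hasDerivAt_kF' hq) (c2.mul (continuous_kF hq)) e
  have L3 : MemLp (fun x => ((kW q x * kF q x : ℝ) : ℂ) • e) 2 volume := by
    have hb := memLp_mul_kF hq continuous_kW hb3
    refine MemLp.of_le_mul (c := ‖e‖) hb ?_ ?_
    · exact (Complex.continuous_ofReal.comp_aestronglyMeasurable hb.1).smul_const e
    · refine ae_of_all _ fun x => ?_
      rw [norm_smul, Complex.norm_real, mul_comm]
  refine ⟨_, H1, fun phi h Hphi => ?_⟩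
  have hibp := ibp_line Hphi H2
  have hWe : ∀ x, Matrix.toEuclideanLin (kMat i0 q x) (((kF q x : ℝ) : ℂ) • e) =
      ((kW q x * kF q x : ℝ) : ℂ) • e := by
    intro x
    rw [he, smul_smul, kMat_apply_single, smul_smul, smul_smul, Complex.ofReal_mul]
    congr 1
    ring
  have i1 : Integrable fun x => (inner ℂ (h x) ((((1 - 2 * kS q x) * kF q x : ℝ) : ℂ) • e) : ℂ) :=
    integrable_inner_of_memLp Hphi.memLp_deriv H2.memLp
  have i2 : Integrable fun x => (inner ℂ (phi x) (((kF q x : ℝ) : ℂ) • e) : ℂ) :=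
    integrable_inner_of_memLp Hphi.memLp H1.memLp
  have i3 : Integrable fun x => (inner ℂ (phi x) (((kW q x * kF q x : ℝ) : ℂ) • e) : ℂ) :=
    integrable_inner_of_memLp Hphi.memLp L3
  have hsplit : ∀ x, (inner ℂ (h x) ((((1 - 2 * kS q x) * kF q x : ℝ) : ℂ) • e) : ℂ) +
      inner ℂ (phi x) ((((1 - kW q x) * kF q x : ℝ) : ℂ) • e) =
      (inner ℂ (h x) ((((1 - 2 * kS q x) * kF q x : ℝ) : ℂ) • e) : ℂ) +
      (inner ℂ (phi x) (((kF q x : ℝ) : ℂ) • e) -
        inner ℂ (phi x) (((kW q x * kF q x : ℝ) : ℂ) • e)) := by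
    intro x
    rw [← inner_sub_right, ← sub_smul, ← Complex.ofReal_sub]
    congr 4
    ring
  simp only [hsplit] at hibp
  have e1 := integral_add i1 (i2.sub i3)
  have e2 := integral_sub i2 i3
  simp only [Pi.sub_apply] at e1
  rw [e1, e2] at hibp
  simp only [hWe]
  push_cast at hibp ⊢
  linear_combination hibp

theorem keller_lower {gam : ℝ} (hgam : 1 / 2 < gam) {m : ℕ} (hm : 0 < m) :
    ENNReal.ofReal (Lone gam) ≤ LT gam m := by
  obtain ⟨q, hqdef⟩ : ∃ q, q = gam - 1 / 2 := ⟨_, rfl⟩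
  have hq : 0 < q := by rw [hqdef]; linarith
  have i0 : Fin m := ⟨0, hm⟩
  have hnorm := potNorm_kMat i0 hgam
  rw [← hqdef] at hnorm
  have hL : 0 < Lone gam := by
    unfold Lone Lcl
    have g1 : 0 < Real.Gamma (gam + 1) := Real.Gamma_pos_of_pos (by linarith)
    have g2 : 0 < Real.Gamma (gam + 3 / 2) := Real.Gamma_pos_of_pos (by linarith)
    have h1 : 0 < gam - 1 / 2 := by linarith
    have h2 : 0 < gam + 1 / 2 := by linarith
    have hpi : 0 < Real.sqrt Real.pi := Real.sqrt_pos.2 Real.pi_pos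
    positivity
  have hpot : IsPotential gam (kMat i0 q) := by
    refine ⟨fun i j => ?_, fun x => kMat_psd i0 hq x, ?_⟩
    · have hc : Continuous fun x => kMat i0 q x i j := by
        simp only [kMat, Matrix.diagonal_apply]
        split_ifs
        · exact Complex.continuous_ofReal.comp continuous_kW
        · exact continuous_const
        · exact continuous_const
      exact hc.measurable
    · change potNorm gam (kMat i0 q) ≠ ∞
      rw [hnorm]
      simp [hL]
  have hne : potNorm gam (kMat i0 q) ≠ 0 := by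
    rw [hnorm]
    simp
  -- the normalised ground state
  obtain ⟨J, hJ⟩ : ∃ J, J = ∫ x, kF q x ^ 2 := ⟨_, rfl⟩
  have hJpos : 0 < J := by
    rw [hJ]
    refine (integral_pos_iff_support_of_nonneg (fun x => by positivity)
      (integrable_kF_sq hq)).2 ?_
    have : Function.support (fun x => kF q x ^ 2) = Set.univ := by
      ext x
      simp [(kF_pos q x).ne']
    rw [this]
    simp
  have hfam : IsNegFamily (N := 1) (kMat i0 q) (fun _ => -1)
      (fun _ x => ((kF q x : ℝ) : ℂ) • (((Real.sqrt J)⁻¹ : ℝ) : ℂ) •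
        EuclideanSpace.single i0 (1 : ℂ)) := by
    refine ⟨fun _ => by norm_num, fun _ => kMat_eigenpair i0 hq _, fun i j => ?_⟩
    rw [if_pos (Subsingleton.elim i j)]
    have h1 : ∀ x, (inner ℂ (((kF q x : ℝ) : ℂ) • (((Real.sqrt J)⁻¹ : ℝ) : ℂ) •
        EuclideanSpace.single i0 (1 : ℂ)) (((kF q x : ℝ) : ℂ) • (((Real.sqrt J)⁻¹ : ℝ) : ℂ) •
        EuclideanSpace.single i0 (1 : ℂ)) : ℂ) = ((kF q x ^ 2 * J⁻¹ : ℝ) : ℂ) := by
      intro x
      have hn : ‖(((kF q x : ℝ) : ℂ) • (((Real.sqrt J)⁻¹ : ℝ) : ℂ) •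
          EuclideanSpace.single i0 (1 : ℂ) : EuclideanSpace ℂ (Fin m))‖ ^ 2 =
          kF q x ^ 2 * J⁻¹ := by
        rw [norm_smul, norm_smul, Complex.norm_real, Complex.norm_real, PiLp.norm_single,
          norm_one, mul_one, Real.norm_eq_abs, Real.norm_eq_abs, mul_pow, sq_abs, sq_abs, inv_pow,
          Real.sq_sqrt hJpos.le]
      rw [inner_self_eq_norm_sq_to_K, ← hn]
      push_cast
      rfl
    simp only [h1]
    rw [integral_complex_ofReal, integral_mul_const, ← hJ, mul_inv_cancel₀ hJpos.ne']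
    simp
  have hTr : 1 ≤ TrNeg gam (kMat i0 q) := by
    unfold TrNeg
    refine le_trans ?_ (le_iSup_of_le 1 (le_iSup_of_le (fun _ => -1) (le_iSup_of_le _
      (le_iSup_of_le hfam le_rfl))))
    simp
  refine le_trans ?_ (le_iSup_of_le (kMat i0 q) (le_iSup_of_le hpot (le_iSup_of_le hne le_rfl)))
  rw [hnorm, ENNReal.div_eq_inv_mul, inv_inv]
  calc ENNReal.ofReal (Lone gam) = ENNReal.ofReal (Lone gam) * 1 := (mul_one _).symm
    _ ≤ _ := by gcongr

end LT371
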