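import Mathlib

/-!
# [KAPPA] the kernel inequality (helper23 / helper16 / helper3 / helper19)
-/

namespace LT371

open Matrix
open scoped ComplexOrder

section RP

variable {N : ℕ}

/-- a real kernel is positive semidefinite -/
def RP (k : Fin N → Fin N → ℝ) : Prop := (Matrix.of k : Matrix (Fin N) (Fin N) ℝ).PosSemidef

theorem rp_iff (k : Fin N → Fin N → ℝ) :
    RP k ↔ (∀ i j, k i j = k j i) ∧ ∀ x : Fin N → ℝ, 0 ≤ ∑ i, ∑ j, x i * k i j * x j := by
  unfold RP
  rw [Matrix.posSemidef_iff_dotProduct_mulVec]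
  constructor
  · rintro ⟨h1, h2⟩
    refine ⟨fun i j => ?_, fun x => ?_⟩
    · have := congrFun (congrFun h1 i) j
      simpa [Matrix.conjTranspose_apply] using this.symm
    · have := h2 x
      simp only [dotProduct, Matrix.mulVec, Matrix.of_apply, Finset.mul_sum] at this
      simpa [mul_assoc] using this
  · rintro ⟨h1, h2⟩
    refine ⟨?_, fun x => ?_⟩
    · ext i j
      simp [Matrix.conjTranspose_apply, h1 i j]
    · have := h2 x
      simp only [dotProduct, Matrix.mulVec, Matrix.of_apply, Finset.mul_sum]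
      simpa [mul_assoc] using this

theorem RP.add {k l : Fin N → Fin N → ℝ} (hk : RP k) (hl : RP l) :
    RP fun i j => k i j + l i j := by
  have := Matrix.PosSemidef.add hk hl
  exact this

theorem RP.mul {k l : Fin N → Fin N → ℝ} (hk : RP k) (hl : RP l) :
    RP fun i j => k i j * l i j := by
  have := Matrix.PosSemidef.hadamard hk hl
  exact this

theorem RP.rankOne (c : Fin N → ℝ) : RP fun i j => c i * c j := by
  rw [rp_iff]
  refine ⟨fun i j => mul_comm _ _, fun x => ?_⟩
  have : ∑ i, ∑ j, x i * (c i * c j) * x j = (∑ i, x i * c i) * ∑ j, x j * c j := by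
    rw [Finset.sum_mul_sum]
    apply Finset.sum_congr rfl
    intro i _
    apply Finset.sum_congr rfl
    intro j _
    ring
  rw [this]
  exact mul_self_nonneg _

theorem RP.const {a : ℝ} (ha : 0 ≤ a) : RP fun _ _ : Fin N => a := by
  have := RP.rankOne (N := N) fun _ => Real.sqrt a
  simpa [Real.mul_self_sqrt ha] using this

theorem RP.smul {k : Fin N → Fin N → ℝ} (hk : RP k) {a : ℝ} (ha : 0 ≤ a) :
    RP fun i j => a * k i j := (RP.const ha).mul hk

theorem RP.congr {k l : Fin N → Fin N → ℝ} (hk : RP k) (h : ∀ i j, k i j = l i j) : RP l := by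
  have : k = l := by funext i j; exact h i j
  rwa [← this]

theorem RP.prod {s : Finset ℕ} {k : ℕ → Fin N → Fin N → ℝ} (h : ∀ n ∈ s, RP (k n)) :
    RP fun i j => ∏ n ∈ s, k n i j := by
  induction s using Finset.induction_on with
  | empty => simpa using RP.const (N := N) zero_le_one
  | insert a s ha ih =>
    have h1 := (h a (Finset.mem_insert_self a s)).mul
      (ih fun n hn => h n (Finset.mem_insert_of_mem hn))
    exact h1.congr fun i j => by rw [Finset.prod_insert ha]

theorem RP.limit {k : ℕ → Fin N → Fin N → ℝ} {l : Fin N → Fin N → ℝ} (h : ∀ n, RP (k n))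
    (hl : ∀ i j, Filter.Tendsto (fun n => k n i j) Filter.atTop (nhds (l i j))) : RP l := by
  rw [rp_iff]
  refine ⟨fun i j => ?_, fun x => ?_⟩
  · refine tendsto_nhds_unique (hl i j) ?_
    have := hl j i
    refine this.congr fun n => ?_
    exact ((rp_iff _).mp (h n)).1 j i
  · refine ge_of_tendsto' (f := fun n => ∑ i, ∑ j, x i * k n i j * x j) (x := Filter.atTop) ?_
      fun n => ((rp_iff _).mp (h n)).2 x
    refine tendsto_finsetSum _ fun i _ => tendsto_finsetSum _ fun j _ => ?_
    exact ((hl i j).const_mul (x i)).mul_const (x j)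

/-- geometric series kernel -/
theorem RP.geom (y : Fin N → ℝ) (hy : ∀ i, |y i| < 1) : RP fun i j => 1 / (1 - y i * y j) := by
  have h1 : ∀ n : ℕ, RP fun i j => ∑ m ∈ Finset.range n, (y i * y j) ^ m := by
    intro n
    induction n with
    | zero => simpa using RP.const (N := N) (le_refl 0)
    | succ n ih =>
      have h2 := ih.add (RP.rankOne fun i => y i ^ n)
      exact h2.congr fun i j => by rw [Finset.sum_range_succ, mul_pow]
  refine RP.limit h1 fun i j => ?_
  have h3 : |y i * y j| < 1 := by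
    rw [abs_mul]
    exact mul_lt_one_of_nonneg_of_lt_one_left (abs_nonneg _) (hy i) (hy j).le
  have := (hasSum_geometric_of_norm_lt_one (by rwa [Real.norm_eq_abs])).tendsto_sum_nat
  simpa [one_div] using this

/-- the Cauchy kernel -/
theorem RP.cauchy (a : Fin N → ℝ) (ha : ∀ i, 0 < a i) : RP fun i j => 1 / (a i + a j) := by
  have h1 := RP.geom (fun i => (1 - a i) / (1 + a i)) fun i => by
    have := ha i
    rw [abs_lt, lt_div_iff₀ (by linarith), div_lt_iff₀ (by linarith)]
    constructor <;> linarith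
  have h2 := ((RP.rankOne fun i => 1 / (1 + a i)).mul h1).smul (a := 2) (by norm_num)
  refine h2.congr fun i j => ?_
  have hi := ha i
  have hj := ha j
  have e1 : 1 - (1 - a i) / (1 + a i) * ((1 - a j) / (1 + a j))
      = 2 * (a i + a j) / ((1 + a i) * (1 + a j)) := by
    field_simp
    ring
  rw [e1]
  field_simp

/-- the kernel `cos (a (t_i - t_j) / 2)` -/
theorem RP.cos (a : ℝ) (t : Fin N → ℝ) : RP fun i j => Real.cos (a * (t i - t j) / 2) := by
  have h1 := (RP.rankOne fun i => Real.cos (a * t i / 2)).add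
    (RP.rankOne fun i => Real.sin (a * t i / 2))
  refine h1.congr fun i j => ?_
  rw [← Real.cos_sub]
  congr 1
  ring

/-- the kernel `sin (α y + β) / sin y`, `y = (t_i + t_j) / 2` -/
theorem RP.ratio (t : Fin N → ℝ) (ht0 : ∀ i, 0 < t i) (ht1 : ∀ i, t i < Real.pi) (α β : ℝ)
    (hα0 : 0 ≤ α) (hα1 : α ≤ 1) (hβ : 0 ≤ β) (hαβ : α * Real.pi + β ≤ Real.pi) :
    RP fun i j => Real.sin (α * ((t i + t j) / 2) + β) / Real.sin ((t i + t j) / 2) := by
  have hpi := Real.pi_pos
  -- partial products
  let P : ℕ → ℝ → ℝ := fun n x => Real.pi * x *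
    ∏ m ∈ Finset.range n, ((1 : ℝ) - x ^ 2 / ((m : ℝ) + 1) ^ 2)
  have hy0 : ∀ i j, 0 < (t i + t j) / 2 := fun i j => by
    have := ht0 i; have := ht0 j; linarith
  have hy1 : ∀ i j, (t i + t j) / 2 < Real.pi := fun i j => by
    have := ht1 i; have := ht1 j; linarith
  have hk : ∀ n, RP fun i j => P n ((α * ((t i + t j) / 2) + β) / Real.pi)
      / P n (((t i + t j) / 2) / Real.pi) := by
    intro n
    have hfac : ∀ m ∈ Finset.range n, RP fun i j =>
        (α + (((m : ℝ) + 1) * Real.pi * (1 - α) - β) * (1 / (((((m : ℝ) + 1) * Real.pi - t i) / 2)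
          + ((((m : ℝ) + 1) * Real.pi - t j) / 2)))) *
        (α + (((m : ℝ) + 1) * Real.pi * (1 - α) + β) * (1 / (((((m : ℝ) + 1) * Real.pi + t i) / 2)
          + ((((m : ℝ) + 1) * Real.pi + t j) / 2)))) := by
      intro m _
      have hm : (1 : ℝ) ≤ (m : ℝ) + 1 := by
        have : (0 : ℝ) ≤ (m : ℝ) := Nat.cast_nonneg m
        linarith
      have hmp : Real.pi ≤ ((m : ℝ) + 1) * Real.pi := by nlinarith
      have hc : 0 ≤ ((m : ℝ) + 1) * Real.pi * (1 - α) - β := by
        have h1 : Real.pi * (1 - α) ≤ ((m : ℝ) + 1) * Real.pi * (1 - α) :=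
          mul_le_mul_of_nonneg_right hmp (by linarith)
        nlinarith
      have hc' : 0 ≤ ((m : ℝ) + 1) * Real.pi * (1 - α) + β := by
        have : 0 ≤ ((m : ℝ) + 1) * Real.pi * (1 - α) :=
          mul_nonneg (by positivity) (by linarith)
        linarith
      refine RP.mul ?_ ?_
      · refine (RP.const hα0).add (RP.smul ?_ hc)
        refine RP.cauchy (fun i => (((m : ℝ) + 1) * Real.pi - t i) / 2) fun i => ?_
        have := ht1 i
        linarith
      · refine (RP.const hα0).add (RP.smul ?_ hc')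
        refine RP.cauchy (fun i => (((m : ℝ) + 1) * Real.pi + t i) / 2) fun i => ?_
        have := ht0 i
        positivity
    have h0 : RP fun i j => α + β * (1 / (t i / 2 + t j / 2)) := by
      refine (RP.const hα0).add (RP.smul ?_ hβ)
      exact RP.cauchy (fun i => t i / 2) fun i => by have := ht0 i; positivity
    refine (h0.mul (RP.prod hfac)).congr fun i j => ?_
    have hy := hy0 i j
    have hy' := hy1 i j
    set y := (t i + t j) / 2 with hydef
    have e0 : t i / 2 + t j / 2 = y := by rw [hydef]; ring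
    rw [e0]
    have e1 : ∀ m ∈ Finset.range n,
        (α + (((m : ℝ) + 1) * Real.pi * (1 - α) - β) * (1 / (((((m : ℝ) + 1) * Real.pi - t i) / 2)
          + ((((m : ℝ) + 1) * Real.pi - t j) / 2)))) *
        (α + (((m : ℝ) + 1) * Real.pi * (1 - α) + β) * (1 / (((((m : ℝ) + 1) * Real.pi + t i) / 2)
          + ((((m : ℝ) + 1) * Real.pi + t j) / 2))))
        = ((1 : ℝ) - ((α * y + β) / Real.pi) ^ 2 / ((m : ℝ) + 1) ^ 2)
          / ((1 : ℝ) - (y / Real.pi) ^ 2 / ((m : ℝ) + 1) ^ 2) := by
      intro m _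
      have hm : (1 : ℝ) ≤ (m : ℝ) + 1 := by
        have : (0 : ℝ) ≤ (m : ℝ) := Nat.cast_nonneg m
        linarith
      have hmp : Real.pi ≤ ((m : ℝ) + 1) * Real.pi := by nlinarith
      have s1 : ((((m : ℝ) + 1) * Real.pi - t i) / 2) + ((((m : ℝ) + 1) * Real.pi - t j) / 2)
          = ((m : ℝ) + 1) * Real.pi - y := by rw [hydef]; ring
      have s2 : ((((m : ℝ) + 1) * Real.pi + t i) / 2) + ((((m : ℝ) + 1) * Real.pi + t j) / 2)
          = ((m : ℝ) + 1) * Real.pi + y := by rw [hydef]; ring
      rw [s1, s2]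
      have p1 : ((m : ℝ) + 1) * Real.pi - y ≠ 0 := by
        have : 0 < ((m : ℝ) + 1) * Real.pi - y := by linarith
        exact this.ne'
      have p2 : ((m : ℝ) + 1) * Real.pi + y ≠ 0 := by positivity
      have p3 : (1 : ℝ) - (y / Real.pi) ^ 2 / ((m : ℝ) + 1) ^ 2
          = (((m : ℝ) + 1) * Real.pi - y) * (((m : ℝ) + 1) * Real.pi + y)
            / (((m : ℝ) + 1) * Real.pi) ^ 2 := by
        field_simp
        ring
      have p4 : (1 : ℝ) - ((α * y + β) / Real.pi) ^ 2 / ((m : ℝ) + 1) ^ 2
          = (((m : ℝ) + 1) * Real.pi - (α * y + β)) * (((m : ℝ) + 1) * Real.pi + (α * y + β))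
            / (((m : ℝ) + 1) * Real.pi) ^ 2 := by
        field_simp
        ring
      rw [p3, p4]
      have p5 : ((m : ℝ) + 1) * Real.pi ≠ 0 := by positivity
      field_simp
      ring
    rw [Finset.prod_congr rfl e1, Finset.prod_div_distrib]
    have hyne : y ≠ 0 := hy.ne'
    simp only [P]
    have e2 : α + β * (1 / y) = (Real.pi * ((α * y + β) / Real.pi)) / (Real.pi * (y / Real.pi)) := by
      field_simp
    rw [e2, div_mul_div_comm]
  refine RP.limit hk fun i j => ?_
  have h1 := Real.tendsto_euler_sin_prod ((α * ((t i + t j) / 2) + β) / Real.pi)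
  have h2 := Real.tendsto_euler_sin_prod (((t i + t j) / 2) / Real.pi)
  have e1 : Real.pi * ((α * ((t i + t j) / 2) + β) / Real.pi) = α * ((t i + t j) / 2) + β := by
    field_simp
  have e2 : Real.pi * (((t i + t j) / 2) / Real.pi) = (t i + t j) / 2 := by
    field_simp
  have hne : Real.sin (Real.pi * (((t i + t j) / 2) / Real.pi)) ≠ 0 := by
    rw [e2]
    exact (Real.sin_pos_of_pos_of_lt_pi (hy0 i j) (hy1 i j)).ne'
  have h3 := h1.div h2 hne
  have e3 : Real.sin (α * ((t i + t j) / 2) + β) / Real.sin ((t i + t j) / 2)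
      = Real.sin (Real.pi * ((α * ((t i + t j) / 2) + β) / Real.pi)) /
        Real.sin (Real.pi * (((t i + t j) / 2) / Real.pi)) := by
    rw [e1, e2]
  rw [e3]
  exact h3

/-- the kernel `(g(t_i) + g(t_j)) / sin ((t_i + t_j) / 2)` for `g(t) = sin (α t + β)` -/
theorem RP.kwong (t : Fin N → ℝ) (ht0 : ∀ i, 0 < t i) (ht1 : ∀ i, t i < Real.pi) (α β : ℝ)
    (hα0 : 0 ≤ α) (hα1 : α ≤ 1) (hβ : 0 ≤ β) (hαβ : α * Real.pi + β ≤ Real.pi) :
    RP fun i j => (Real.sin (α * t i + β) + Real.sin (α * t j + β)) /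
      Real.sin ((t i + t j) / 2) := by
  have h1 := ((RP.cos α t).mul (RP.ratio t ht0 ht1 α β hα0 hα1 hβ hαβ)).smul (a := 2) (by norm_num)
  refine h1.congr fun i j => ?_
  have e1 : Real.sin (α * t i + β) + Real.sin (α * t j + β)
      = 2 * Real.sin (α * ((t i + t j) / 2) + β) * Real.cos (α * (t i - t j) / 2) := by
    have e2 : α * t i + β = (α * ((t i + t j) / 2) + β) + α * (t i - t j) / 2 := by ring
    have e3 : α * t j + β = (α * ((t i + t j) / 2) + β) - α * (t i - t j) / 2 := by ring
    rw [e2, e3, Real.sin_add, Real.sin_sub]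
    ring
  rw [e1]
  ring

/-- the kernel of the proof: `g(s) = cos (r (c - s) / 2) sin ((c + s) / 2)` -/
theorem RP.main (t : Fin N → ℝ) (ht0 : ∀ i, 0 < t i) (ht1 : ∀ i, t i < Real.pi) (r c : ℝ)
    (hr0 : 0 ≤ r) (hr1 : r ≤ 1) (hc0 : 0 < c) (hc1 : c < Real.pi) :
    RP fun i j => (Real.cos (r * ((c - t i) / 2)) * Real.sin ((c + t i) / 2)
      + Real.cos (r * ((c - t j) / 2)) * Real.sin ((c + t j) / 2)) /
      Real.sin ((t i + t j) / 2) := by
  have hpi := Real.pi_pos
  have h1 := RP.kwong t ht0 ht1 ((1 + r) / 2) ((1 - r) * c / 2) (by linarith) (by linarith)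
    (by have := mul_nonneg (sub_nonneg.mpr hr1) hc0.le; linarith)
    (by nlinarith [mul_nonneg (sub_nonneg.mpr hr1) (sub_nonneg.mpr hc1.le)])
  have h2 := RP.kwong t ht0 ht1 ((1 - r) / 2) ((1 + r) * c / 2) (by linarith) (by linarith)
    (by positivity)
    (by nlinarith [mul_nonneg (by linarith : 0 ≤ 1 + r) (sub_nonneg.mpr hc1.le)])
  refine ((h1.add h2).smul (a := 1 / 2) (by norm_num)).congr fun i j => ?_
  have e : ∀ s : ℝ, Real.cos (r * ((c - s) / 2)) * Real.sin ((c + s) / 2)
      = 1 / 2 * (Real.sin ((1 + r) / 2 * s + (1 - r) * c / 2)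
        + Real.sin ((1 - r) / 2 * s + (1 + r) * c / 2)) := by
    intro s
    have e2 : (1 + r) / 2 * s + (1 - r) * c / 2 = (c + s) / 2 - r * ((c - s) / 2) := by ring
    have e3 : (1 - r) / 2 * s + (1 + r) * c / 2 = (c + s) / 2 + r * ((c - s) / 2) := by ring
    rw [e2, e3, Real.sin_sub, Real.sin_add]
    ring
  rw [e (t i), e (t j)]
  ring

/-- a real positive semidefinite kernel is positive semidefinite over `ℂ` -/
theorem RP.complex {k : Fin N → Fin N → ℝ} (hk : RP k) :
    (Matrix.of fun i j => ((k i j : ℝ) : ℂ)).PosSemidef := by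
  obtain ⟨h1, h2⟩ := (rp_iff k).mp hk
  rw [Matrix.posSemidef_iff_dotProduct_mulVec]
  refine ⟨?_, fun x => ?_⟩
  · ext i j
    simp [Matrix.conjTranspose_apply, h1 i j]
  · have e1 : star x ⬝ᵥ (Matrix.of fun i j => ((k i j : ℝ) : ℂ)) *ᵥ x
        = ∑ i, ∑ j, star (x i) * (k i j : ℂ) * x j := by
      simp only [dotProduct, Matrix.mulVec, Matrix.of_apply, Finset.mul_sum, Pi.star_apply]
      apply Finset.sum_congr rfl
      intro i _
      apply Finset.sum_congr rfl
      intro j _
      ring
    rw [e1, Complex.nonneg_iff]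
    constructor
    · have e2 : (∑ i, ∑ j, star (x i) * (k i j : ℂ) * x j).re
          = (∑ i, ∑ j, (x i).re * k i j * (x j).re) + ∑ i, ∑ j, (x i).im * k i j * (x j).im := by
        rw [← Finset.sum_add_distrib, Complex.re_sum]
        apply Finset.sum_congr rfl
        intro i _
        rw [← Finset.sum_add_distrib, Complex.re_sum]
        apply Finset.sum_congr rfl
        intro j _
        simp
      rw [e2]
      exact add_nonneg (h2 _) (h2 _)
    · have e2 : (∑ i, ∑ j, star (x i) * (k i j : ℂ) * x j).im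
          = (∑ i, ∑ j, (x i).re * k i j * (x j).im) - ∑ i, ∑ j, (x i).im * k i j * (x j).re := by
        rw [← Finset.sum_sub_distrib, Complex.im_sum]
        apply Finset.sum_congr rfl
        intro i _
        rw [← Finset.sum_sub_distrib, Complex.im_sum]
        apply Finset.sum_congr rfl
        intro j _
        simp
        ring
      rw [e2, Finset.sum_comm, eq_comm, sub_eq_zero]
      apply Finset.sum_congr rfl
      intro i _
      apply Finset.sum_congr rfl
      intro j _
      rw [h1 j i]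
      ring

end RP

/-- the integral representation of `sinc x - cos x` -/
theorem sinc_sub_cos (x : ℝ) :
    Real.sinc x - Real.cos x
      = ∫ r in (0 : ℝ)..1, (1 - r ^ 2) / 2 * (x ^ 2 * Real.cos (r * x)) := by
  rcases eq_or_ne x 0 with rfl | hx
  · simp
  · have h : ∀ r ∈ Set.uIcc (0 : ℝ) 1, HasDerivAt (fun r : ℝ =>
        (x * (1 - r ^ 2) * Real.sin (r * x) - 2 * r * Real.cos (r * x)
          + 2 * Real.sin (r * x) / x) / 2) ((1 - r ^ 2) / 2 * (x ^ 2 * Real.cos (r * x))) r := by
      intro r _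
      have h1 : HasDerivAt (fun r : ℝ => r * x) x r := by
        simpa using (hasDerivAt_id r).mul_const x
      have h2 := h1.sin
      have h3 := h1.cos
      have h4 : HasDerivAt (fun r : ℝ => x * (1 - r ^ 2)) (x * (- (2 * r))) r := by
        have := ((hasDerivAt_pow 2 r).const_sub 1).const_mul x
        simpa using this
      have h5 : HasDerivAt (fun r : ℝ => 2 * r) 2 r := by
        simpa using (hasDerivAt_id r).const_mul 2
      have h6 := (((h4.mul h2).sub (h5.mul h3)).add ((h2.const_mul 2).div_const x)).div_const 2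
      refine h6.congr_deriv ?_
      field_simp
      ring
    rw [intervalIntegral.integral_eq_sub_of_hasDerivAt h
      (Continuous.intervalIntegrable (by fun_prop) _ _), Real.sinc_of_ne_zero hx]
    simp
    field_simp
    ring

/-- the pointwise (in `r`) kernel inequality -/
theorem kernel_pt {N : ℕ} (t : Fin N → ℝ) (ht0 : ∀ i, 0 < t i) (ht1 : ∀ i, t i < Real.pi)
    (E : Matrix (Fin N) (Fin N) ℂ) (hE : E.PosSemidef) (r : ℝ) (hr0 : 0 ≤ r) (hr1 : r ≤ 1) :
    0 ≤ ∑ i, ∑ j, ∑ k, (E j i * E i k * E k j).re *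
      ((((t i - t k) / 2) ^ 2 * Real.cos (r * ((t i - t k) / 2))) /
        (Real.sin ((t i + t j) / 2) * Real.sin ((t k + t j) / 2))) := by
  obtain ⟨S, hS⟩ : ∃ S : Fin N → Fin N → ℝ, ∀ i j, S i j = Real.sin ((t i + t j) / 2) :=
    ⟨_, fun _ _ => rfl⟩
  obtain ⟨x, hx⟩ : ∃ x : Fin N → Fin N → ℝ, ∀ i j, x i j = (t i - t j) / 2 :=
    ⟨_, fun _ _ => rfl⟩
  obtain ⟨K, hK⟩ : ∃ K : Fin N → Fin N → ℝ, ∀ i j, K i j =
    Real.cos (r * ((t i - t j) / 2)) * Real.sin ((t i + t j) / 2) := ⟨_, fun _ _ => rfl⟩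
  obtain ⟨P, hP⟩ : ∃ P : Fin N → Fin N → ℂ, ∀ i j, P i j = E i j / (S i j : ℂ) :=
    ⟨_, fun _ _ => rfl⟩
  obtain ⟨W, hW⟩ : ∃ W : Fin N → Fin N → Fin N → ℝ, ∀ i j k, W i j k
    = (P j i * P i k * P k j).re := ⟨_, fun _ _ _ => rfl⟩
  have hSpos : ∀ i j, 0 < S i j := fun i j => by
    rw [hS]
    have h1 := ht0 i
    have h2 := ht0 j
    have h3 := ht1 i
    have h4 := ht1 j
    exact Real.sin_pos_of_pos_of_lt_pi (by linarith) (by linarith)
  have hSsym : ∀ i j, S i j = S j i := fun i j => by rw [hS, hS, add_comm]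
  have hxneg : ∀ i j, x j i = - x i j := fun i j => by rw [hx, hx]; ring
  have hKsym : ∀ i j, K j i = K i j := fun i j => by
    rw [hK, hK, add_comm (t j) (t i), ← Real.cos_neg]
    congr 2
    ring
  have hEstar : ∀ i j, star (E i j) = E j i := fun i j => by
    have := congrFun (congrFun hE.isHermitian j) i
    simpa [Matrix.conjTranspose_apply] using this
  have hPstar : ∀ i j, star (P i j) = P j i := fun i j => by
    rw [hP, hP, star_div₀, hEstar, hSsym j i]
    congr 1
    exact Complex.conj_ofReal _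
  have hW1 : ∀ i j k, W k j i = W i j k := fun i j k => by
    rw [hW, hW]
    have : P j k * P k i * P i j = star (P j i * P i k * P k j) := by
      rw [star_mul, star_mul, hPstar, hPstar, hPstar]
      ring
    rw [this]
    exact Complex.conj_re _
  have hW2 : ∀ i j k, W i k j = W i j k := fun i j k => by
    rw [hW, hW]
    have : P k i * P i j * P j k = star (P j i * P i k * P k j) := by
      rw [star_mul, star_mul, hPstar, hPstar, hPstar]
      ring
    rw [this]
    exact Complex.conj_re _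
  have hterm : ∀ i j k, (E j i * E i k * E k j).re *
      ((((t i - t k) / 2) ^ 2 * Real.cos (r * ((t i - t k) / 2))) /
        (Real.sin ((t i + t j) / 2) * Real.sin ((t k + t j) / 2)))
      = W i j k * (K i k * x i k ^ 2) := by
    intro i j k
    have e1 : E j i * E i k * E k j
        = (P j i * P i k * P k j) * ((S i j * S i k * S k j : ℝ) : ℂ) := by
      rw [hP, hP, hP, hSsym j i]
      have h1 : (S i j : ℂ) ≠ 0 := by exact_mod_cast (hSpos i j).ne'
      have h2 : (S i k : ℂ) ≠ 0 := by exact_mod_cast (hSpos i k).ne'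
      have h3 : (S k j : ℂ) ≠ 0 := by exact_mod_cast (hSpos k j).ne'
      push_cast
      field_simp
    rw [e1, Complex.re_mul_ofReal, hW, ← hS, ← hS, hK, ← hS, ← hx]
    have h1 := (hSpos i j).ne'
    have h2 := (hSpos k j).ne'
    field_simp
  simp only [hterm]
  -- symmetrisation
  have hA : ∑ i, ∑ j, ∑ k, W i j k * (K i k * x i k ^ 2)
      = ∑ i, ∑ j, ∑ k, W i j k * (K i k * (x i k * x i j))
        + ∑ i, ∑ j, ∑ k, W i j k * (K i k * (x i k * x j k)) := by
    rw [← Finset.sum_add_distrib]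
    refine Finset.sum_congr rfl fun i _ => ?_
    rw [← Finset.sum_add_distrib]
    refine Finset.sum_congr rfl fun j _ => ?_
    rw [← Finset.sum_add_distrib]
    refine Finset.sum_congr rfl fun k _ => ?_
    have : x i k = x i j + x j k := by rw [hx, hx, hx]; ring
    rw [sq]
    nth_rewrite 2 [this]
    ring
  have hB : ∑ i, ∑ j, ∑ k, W i j k * (K i k * (x i k * x j k))
      = ∑ i, ∑ j, ∑ k, W i j k * (K i k * (x i k * x i j)) := by
    have h1 : ∑ i, ∑ j, ∑ k, W i j k * (K i k * (x i k * x j k))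
        = ∑ k, ∑ j, ∑ i, W i j k * (K i k * (x i k * x j k)) := by
      rw [Finset.sum_comm]
      conv_rhs => rw [Finset.sum_comm]
      refine Finset.sum_congr rfl fun j _ => ?_
      exact Finset.sum_comm
    rw [h1]
    refine Finset.sum_congr rfl fun i _ => ?_
    refine Finset.sum_congr rfl fun j _ => ?_
    refine Finset.sum_congr rfl fun k _ => ?_
    rw [hW1, hKsym, hxneg i k, hxneg i j]
    ring
  have hC : ∑ i, ∑ j, ∑ k, W i j k * (K i k * (x i k * x i j))
      = ∑ i, ∑ j, ∑ k, W i j k * (K i j * (x i k * x i j)) := by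
    refine Finset.sum_congr rfl fun i _ => ?_
    rw [Finset.sum_comm]
    refine Finset.sum_congr rfl fun j _ => ?_
    refine Finset.sum_congr rfl fun k _ => ?_
    rw [hW2]
    ring
  have hD : ∑ i, ∑ j, ∑ k, W i j k * (K i k * x i k ^ 2)
      = ∑ i, ∑ j, ∑ k, W i j k * ((K i j + K i k) * (x i j * x i k)) := by
    rw [hA, hB]
    nth_rewrite 1 [hC]
    rw [← Finset.sum_add_distrib]
    refine Finset.sum_congr rfl fun i _ => ?_
    rw [← Finset.sum_add_distrib]
    refine Finset.sum_congr rfl fun j _ => ?_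
    rw [← Finset.sum_add_distrib]
    refine Finset.sum_congr rfl fun k _ => ?_
    ring
  rw [hD]
  refine Finset.sum_nonneg fun i _ => ?_
  -- positivity for fixed `i`
  have hk := (RP.main t ht0 ht1 r (t i) hr0 hr1 (ht0 i) (ht1 i)).complex
  have hQ := Matrix.PosSemidef.hadamard hE hk
  rw [Matrix.posSemidef_iff_dotProduct_mulVec] at hQ
  have h2 := hQ.2 fun j => (x i j : ℂ) * P j i
  have h3 : ((star fun j => (x i j : ℂ) * P j i) ⬝ᵥ (E ⊙ (Matrix.of fun a b =>
      (((Real.cos (r * ((t i - t a) / 2)) * Real.sin ((t i + t a) / 2)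
      + Real.cos (r * ((t i - t b) / 2)) * Real.sin ((t i + t b) / 2)) /
      Real.sin ((t a + t b) / 2) : ℝ) : ℂ))) *ᵥ fun j => (x i j : ℂ) * P j i).re
      = ∑ j, ∑ k, W i j k * ((K i j + K i k) * (x i j * x i k)) := by
    simp only [dotProduct, Matrix.mulVec, Matrix.of_apply, Finset.mul_sum, Pi.star_apply,
      Matrix.hadamard_apply, Complex.re_sum]
    rw [Finset.sum_comm]
    refine Finset.sum_congr rfl fun j _ => ?_
    refine Finset.sum_congr rfl fun k _ => ?_
    rw [← hK, ← hK, ← hS]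
    have e1 : star ((x i k : ℂ) * P k i) * (E k j * (((K i k + K i j) / S k j : ℝ) : ℂ) *
        ((x i j : ℂ) * P j i)) = (P j i * P i k * P k j) *
          (((K i j + K i k) * (x i j * x i k) : ℝ) : ℂ) := by
      rw [star_mul, hPstar, hP k j]
      have : star (x i k : ℂ) = (x i k : ℂ) := Complex.conj_ofReal _
      rw [this]
      have h3 : (S k j : ℂ) ≠ 0 := by exact_mod_cast (hSpos k j).ne'
      push_cast
      field_simp
      ring
    rw [e1, Complex.re_mul_ofReal, hW]
  rw [← h3]
  exact (Complex.nonneg_iff.mp h2).1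

/-- **[KAPPA]** the kernel inequality -/
theorem kernel_ineq {N : ℕ} (t : Fin N → ℝ) (ht0 : ∀ i, 0 < t i) (ht1 : ∀ i, t i < Real.pi)
    (E : Matrix (Fin N) (Fin N) ℂ) (hE : E.PosSemidef) :
    0 ≤ ∑ i, ∑ j, ∑ k, (E j i * E i k * E k j).re *
      ((Real.sinc ((t i - t k) / 2) - Real.cos ((t i - t k) / 2)) /
        (Real.sin ((t i + t j) / 2) * Real.sin ((t k + t j) / 2))) := by
  have h1 : ∑ i, ∑ j, ∑ k, (E j i * E i k * E k j).re *
      ((Real.sinc ((t i - t k) / 2) - Real.cos ((t i - t k) / 2)) /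
        (Real.sin ((t i + t j) / 2) * Real.sin ((t k + t j) / 2)))
      = ∫ r in (0 : ℝ)..1, (1 - r ^ 2) / 2 * ∑ i, ∑ j, ∑ k, (E j i * E i k * E k j).re *
      ((((t i - t k) / 2) ^ 2 * Real.cos (r * ((t i - t k) / 2))) /
        (Real.sin ((t i + t j) / 2) * Real.sin ((t k + t j) / 2))) := by
    simp only [Finset.mul_sum]
    rw [intervalIntegral.integral_finsetSum fun i _ => Continuous.intervalIntegrable
      (by fun_prop) _ _]
    refine Finset.sum_congr rfl fun i _ => ?_
    rw [intervalIntegral.integral_finsetSum fun i _ => Continuous.intervalIntegrable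
      (by fun_prop) _ _]
    refine Finset.sum_congr rfl fun j _ => ?_
    rw [intervalIntegral.integral_finsetSum fun i _ => Continuous.intervalIntegrable
      (by fun_prop) _ _]
    refine Finset.sum_congr rfl fun k _ => ?_
    rw [sinc_sub_cos, ← intervalIntegral.integral_div, ← intervalIntegral.integral_const_mul]
    refine intervalIntegral.integral_congr fun r _ => ?_
    ring
  rw [h1]
  refine intervalIntegral.integral_nonneg zero_le_one fun r hr => ?_
  refine mul_nonneg ?_ (kernel_pt t ht0 ht1 E hE r hr.1 hr.2)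
  nlinarith [hr.1, hr.2]

end LT371
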