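import Vale.Agent.P371.Defs

/-!
# value of the one-bound-state constant at gamma = 1
-/

namespace LT371

theorem Lone_one' : Lone 1 = 4 / (3 * Real.sqrt 3 * Real.pi) := by
  have hpi : 0 < Real.pi := Real.pi_pos
  have hs : 0 < Real.sqrt Real.pi := Real.sqrt_pos.2 hpi
  have hss : Real.sqrt Real.pi * Real.sqrt Real.pi = Real.pi := Real.mul_self_sqrt hpi.le
  have g1 : Real.Gamma (1 + 1) = 1 := by
    have := Real.Gamma_add_one (s := 1) one_ne_zero
    rw [this, Real.Gamma_one, one_mul]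
  have g2 : Real.Gamma (1 + 3 / 2) = 3 / 4 * Real.sqrt Real.pi := by
    have h1 := Real.Gamma_add_one (s := 3 / 2) (by norm_num)
    have h2 := Real.Gamma_add_one (s := 1 / 2) (by norm_num)
    rw [Real.Gamma_one_half_eq, show (1 / 2 : ℝ) + 1 = 3 / 2 by norm_num] at h2
    rw [h2, show (3 / 2 : ℝ) + 1 = 1 + 3 / 2 by norm_num] at h1
    rw [h1]
    ring
  have h3 : ((1 - 1 / 2 : ℝ) / (1 + 1 / 2)) ^ ((1 : ℝ) - 1 / 2) = 1 / Real.sqrt 3 := by
    rw [show ((1 - 1 / 2 : ℝ) / (1 + 1 / 2)) = 1 / 3 by norm_num,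
      show (1 : ℝ) - 1 / 2 = 1 / 2 by norm_num, ← Real.sqrt_eq_rpow, Real.sqrt_div zero_le_one,
      Real.sqrt_one]
  have h4 : 0 < Real.sqrt 3 := Real.sqrt_pos.2 (by norm_num)
  rw [Lone, Lcl, g1, g2, h3]
  field_simp
  rw [sq, hss]

end LT371
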