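import Mathlib
open Filter Topology Finset
namespace LT371

noncomputable def BM (M : ℕ) (a : ℝ) : ℝ := ∑ n ∈ Finset.Ico (-(M : ℤ)) (M : ℤ), 1 / (a + n)
noncomputable def AM (M : ℕ) (a b : ℝ) : ℝ :=
  ∑ n ∈ Finset.Ico (-(M : ℤ)) (M : ℤ), 1 / ((a + n) * (b + n))

lemma sum_Ico_succ_int {α : Type*} [AddCommGroup α] (f : ℤ → α) (M : ℕ) :
    ∑ n ∈ Finset.Ico (-((M + 1 : ℕ) : ℤ)) ((M + 1 : ℕ) : ℤ), f n =
      (∑ n ∈ Finset.Ico (-(M : ℤ)) (M : ℤ), f n) + f M + f (-(M + 1 : ℤ)) := by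
  have h1 : Finset.Ico (-((M + 1 : ℕ) : ℤ)) ((M + 1 : ℕ) : ℤ) =
      insert (-(M + 1 : ℤ)) (insert (M : ℤ) (Finset.Ico (-(M : ℤ)) (M : ℤ))) := by
    ext n
    simp only [Finset.mem_Ico, Finset.mem_insert]
    push_cast
    omega
  rw [h1, Finset.sum_insert, Finset.sum_insert]
  · abel
  · simp
  · simp only [Finset.mem_Ico, Finset.mem_insert]
    omega

lemma BM_succ (M : ℕ) (a : ℝ) :
    BM (M + 1) a = BM M a + (1 / (a + M) - 1 / (M + 1 - a)) := by
  unfold BM
  rw [sum_Ico_succ_int]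
  push_cast
  have : (1 : ℝ) / (a + (-1 + -(M:ℝ))) = - (1 / (M + 1 - a)) := by
    rw [← one_div_neg_eq_neg_one_div]; ring_nf
  have h2 : (a + -((M:ℝ) + 1)) = a + (-1 + -(M:ℝ)) := by ring
  rw [h2, this]; ring

lemma AM_succ (M : ℕ) (a b : ℝ) :
    AM (M + 1) a b = AM M a b + (1 / ((a + M) * (b + M)) + 1 / ((M + 1 - a) * (M + 1 - b))) := by
  unfold AM
  rw [sum_Ico_succ_int]
  push_cast
  have h2 : (a + -((M:ℝ) + 1)) * (b + -((M:ℝ) + 1)) = (M + 1 - a) * (M + 1 - b) := by ring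
  rw [h2]; ring

lemma step_bound {M : ℕ} (hM : 2 ≤ M) : (1 : ℝ) / (M * M) ≤ 1 / (M - 1) - 1 / M := by
  have h1 : (2 : ℝ) ≤ M := by exact_mod_cast hM
  rw [div_sub_div _ _ (by linarith) (by linarith), div_le_div_iff₀ (by positivity) (by nlinarith)]
  nlinarith

lemma BM_diff {a : ℝ} (h0 : 0 < a) (h1 : a < 1) {M : ℕ} (hM : 2 ≤ M) (k : ℕ) :
    |BM (M + k) a - BM M a| ≤ 1 / ((M : ℝ) - 1) - 1 / ((M : ℝ) + k - 1) := by
  induction k with
  | zero => simp
  | succ k ih =>
    have hM' : (2 : ℝ) ≤ M := by exact_mod_cast hM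
    have e : BM (M + (k + 1)) a = BM (M + k) a +
        (1 / (a + (M + k : ℕ)) - 1 / ((M + k : ℕ) + 1 - a)) := by
      rw [← BM_succ]; rfl
    have hk : (0 : ℝ) ≤ k := by positivity
    have hb : |1 / (a + ((M + k : ℕ) : ℝ)) - 1 / (((M + k : ℕ) : ℝ) + 1 - a)| ≤
        1 / (((M + k : ℕ) : ℝ) * ((M + k : ℕ) : ℝ)) := by
      have hc : (2 : ℝ) ≤ ((M + k : ℕ) : ℝ) := by push_cast; linarith
      set c := ((M + k : ℕ) : ℝ)
      rw [div_sub_div _ _ (by linarith) (by linarith), abs_div,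
        abs_of_pos (a := (a + c) * (c + 1 - a)) (by apply mul_pos <;> linarith)]
      have h3 : |1 * (c + 1 - a) - (a + c) * 1| ≤ 1 := by
        rw [abs_le]; constructor <;> linarith
      have h4 : c * c ≤ (a + c) * (c + 1 - a) := by nlinarith
      exact div_le_div₀ zero_le_one h3 (by nlinarith) h4
    have hs := step_bound (M := M + k) (by omega)
    calc |BM (M + (k + 1)) a - BM M a|
        = |(BM (M + k) a - BM M a) +
          (1 / (a + ((M + k : ℕ) : ℝ)) - 1 / (((M + k : ℕ) : ℝ) + 1 - a))| := by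
            rw [e]; congr 1; ring
      _ ≤ _ := abs_add_le _ _
      _ ≤ (1 / ((M : ℝ) - 1) - 1 / ((M : ℝ) + k - 1)) + (1 / (((M + k : ℕ) : ℝ) - 1) -
          1 / ((M + k : ℕ) : ℝ)) := add_le_add ih (hb.trans hs)
      _ = _ := by push_cast; ring_nf

lemma AM_diff {a b : ℝ} (h0 : 0 < a) (h1 : a < 1) (h0' : 0 < b) (h1' : b < 1)
    {M : ℕ} (hM : 2 ≤ M) (k : ℕ) :
    |AM (M + k) a b - AM M a b| ≤ 2 * (1 / ((M : ℝ) - 1) - 1 / ((M : ℝ) + k - 1)) := by
  induction k with
  | zero => simp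
  | succ k ih =>
    have hM' : (2 : ℝ) ≤ M := by exact_mod_cast hM
    have e : AM (M + (k + 1)) a b = AM (M + k) a b +
        (1 / ((a + (M + k : ℕ)) * (b + (M + k : ℕ))) +
          1 / (((M + k : ℕ) + 1 - a) * ((M + k : ℕ) + 1 - b))) := by
      rw [← AM_succ]; rfl
    have hk : (0 : ℝ) ≤ k := by positivity
    have hb : |1 / ((a + ((M + k : ℕ) : ℝ)) * (b + ((M + k : ℕ) : ℝ))) +
          1 / ((((M + k : ℕ) : ℝ) + 1 - a) * (((M + k : ℕ) : ℝ) + 1 - b))| ≤
        2 * (1 / (((M + k : ℕ) : ℝ) * ((M + k : ℕ) : ℝ))) := by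
      have hc : (2 : ℝ) ≤ ((M + k : ℕ) : ℝ) := by push_cast; linarith
      set c := ((M + k : ℕ) : ℝ)
      have p1 : 0 < (a + c) * (b + c) := by apply mul_pos <;> linarith
      have p2 : 0 < (c + 1 - a) * (c + 1 - b) := by apply mul_pos <;> linarith
      rw [abs_of_pos (by positivity)]
      have q1 : 1 / ((a + c) * (b + c)) ≤ 1 / (c * c) :=
        one_div_le_one_div_of_le (by nlinarith) (by nlinarith)
      have q2 : 1 / ((c + 1 - a) * (c + 1 - b)) ≤ 1 / (c * c) :=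
        one_div_le_one_div_of_le (by nlinarith) (by nlinarith)
      linarith
    have hs := step_bound (M := M + k) (by omega)
    calc |AM (M + (k + 1)) a b - AM M a b|
        = |(AM (M + k) a b - AM M a b) +
          (1 / ((a + ((M + k : ℕ) : ℝ)) * (b + ((M + k : ℕ) : ℝ))) +
          1 / ((((M + k : ℕ) : ℝ) + 1 - a) * (((M + k : ℕ) : ℝ) + 1 - b)))| := by
            rw [e]; congr 1; ring
      _ ≤ _ := abs_add_le _ _
      _ ≤ 2 * (1 / ((M : ℝ) - 1) - 1 / ((M : ℝ) + k - 1)) + 2 * (1 / (((M + k : ℕ) : ℝ) - 1) -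
          1 / ((M + k : ℕ) : ℝ)) := add_le_add ih (hb.trans (by linarith))
      _ = _ := by push_cast; ring_nf

lemma BM_eq_cotTerm (M : ℕ) (a : ℝ) :
    ((BM (M + 1) a : ℝ) : ℂ) = 1 / (a : ℂ) + ∑ j ∈ Finset.range M, cotTerm (a : ℂ) j
      - 1 / ((M : ℂ) + 1 - a) := by
  induction M with
  | zero =>
    rw [BM_succ]
    simp [BM]
  | succ M ih =>
    rw [BM_succ, Complex.ofReal_add, ih, Finset.sum_range_succ]
    unfold cotTerm
    push_cast
    have : 1 / ((a:ℂ) - (M + 1)) = - (1 / ((M:ℂ) + 1 - a)) := by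
      rw [← one_div_neg_eq_neg_one_div]; ring_nf
    rw [this]
    ring

lemma mem_compl {a : ℝ} (h0 : 0 < a) (h1 : a < 1) : (a : ℂ) ∈ Complex.integerComplement := by
  rw [Complex.mem_integerComplement_iff]
  rintro ⟨n, hn⟩
  have : (n : ℝ) = a := by exact_mod_cast hn
  rw [← this] at h0 h1
  have h2 : 0 < n := by exact_mod_cast h0
  have h3 : n < 1 := by exact_mod_cast h1
  omega

lemma BM_tendsto {a : ℝ} (h0 : 0 < a) (h1 : a < 1) :
    Tendsto (fun M => BM M a) atTop
      (𝓝 (Real.pi * (Real.cos (Real.pi * a) / Real.sin (Real.pi * a)))) := by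
  rw [← tendsto_add_atTop_iff_nat 1]
  have h2 := tendsto_logDeriv_euler_cot_sub (mem_compl h0 h1)
  have h3 : Tendsto (fun M : ℕ => 1 / ((M : ℂ) + 1 - a)) atTop (𝓝 0) := by
    have : Tendsto (fun M : ℕ => (1 : ℝ) / ((M : ℝ) + (1 - a))) atTop (𝓝 0) := by
      apply Filter.Tendsto.const_div_atTop
      exact tendsto_atTop_add_const_right _ _ tendsto_natCast_atTop_atTop
    have h4 := (Complex.continuous_ofReal.tendsto 0).comp this
    simp only [Complex.ofReal_zero] at h4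
    refine h4.congr fun M => ?_
    simp only [Function.comp]
    push_cast
    ring_nf
  have h5 := ((tendsto_const_nhds (x := 1 / (a : ℂ))).add h2).sub h3
  have h6 : Tendsto (fun M => ((BM (M + 1) a : ℝ) : ℂ)) atTop
      (𝓝 (Real.pi * Complex.cot (Real.pi * a))) := by
    refine (h5.congr fun M => (BM_eq_cotTerm M a).symm).trans ?_
    simp
  have h7 := (Complex.continuous_re.tendsto _).comp h6
  have h8 : (Real.pi * Complex.cot (Real.pi * a)).re =
      Real.pi * (Real.cos (Real.pi * a) / Real.sin (Real.pi * a)) := by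
    rw [Complex.cot]
    have : (Real.pi : ℂ) * (Complex.cos (Real.pi * a) / Complex.sin (Real.pi * a)) =
        ((Real.pi * (Real.cos (Real.pi * a) / Real.sin (Real.pi * a)) : ℝ) : ℂ) := by
      push_cast; rfl
    rw [this, Complex.ofReal_re]
  rw [h8] at h7
  exact h7

lemma BM_err {a : ℝ} (h0 : 0 < a) (h1 : a < 1) {M : ℕ} (hM : 2 ≤ M) :
    |BM M a - Real.pi * (Real.cos (Real.pi * a) / Real.sin (Real.pi * a))| ≤
      1 / ((M : ℝ) - 1) := by
  have h2 : Tendsto (fun k => |BM (M + k) a - BM M a|) atTop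
      (𝓝 |Real.pi * (Real.cos (Real.pi * a) / Real.sin (Real.pi * a)) - BM M a|) := by
    apply Tendsto.abs
    apply Tendsto.sub _ tendsto_const_nhds
    have := (BM_tendsto h0 h1)
    rw [← tendsto_add_atTop_iff_nat M] at this
    refine this.congr fun k => ?_
    rw [add_comm]
  rw [abs_sub_comm]
  refine le_of_tendsto h2 (Eventually.of_forall fun k => ?_)
  refine (BM_diff h0 h1 hM k).trans ?_
  have hM' : (2 : ℝ) ≤ M := by exact_mod_cast hM
  have : 0 ≤ 1 / ((M : ℝ) + k - 1) := by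
    apply one_div_nonneg.mpr
    have hk : (0 : ℝ) ≤ k := by positivity
    linarith
  linarith



/-- the limit of `AM` -/
noncomputable def FF (a b : ℝ) : ℝ :=
  Real.pi ^ 2 * Real.sinc (Real.pi * (b - a)) /
    (Real.sin (Real.pi * a) * Real.sin (Real.pi * b))

lemma sin_pi_pos {a : ℝ} (h0 : 0 < a) (h1 : a < 1) : 0 < Real.sin (Real.pi * a) := by
  apply Real.sin_pos_of_pos_of_lt_pi
  · positivity
  · nlinarith [Real.pi_pos]

lemma AM_eq {a b : ℝ} (h0 : 0 < a) (h1 : a < 1) (h0' : 0 < b) (h1' : b < 1) (hab : a ≠ b)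
    (M : ℕ) : AM M a b = (BM M a - BM M b) / (b - a) := by
  unfold AM BM
  rw [← Finset.sum_sub_distrib, Finset.sum_div]
  apply Finset.sum_congr rfl
  intro n _
  have hz : ∀ c : ℝ, 0 < c → c < 1 → c + n ≠ 0 := by
    intro c hc0 hc1 h
    have h2 : (-n : ℤ) = c := by push_cast; linarith
    rw [← h2] at hc0 hc1
    have h3 : (0 : ℤ) < -n := by exact_mod_cast hc0
    have h4 : -n < (1 : ℤ) := by exact_mod_cast hc1
    omega
  have ha := hz a h0 h1
  have hb := hz b h0' h1'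
  have hba : b - a ≠ 0 := sub_ne_zero.mpr hab.symm
  field_simp
  ring

lemma FF_eq {a b : ℝ} (h0 : 0 < a) (h1 : a < 1) (h0' : 0 < b) (h1' : b < 1) (hab : a ≠ b) :
    FF a b = (Real.pi * (Real.cos (Real.pi * a) / Real.sin (Real.pi * a)) -
      Real.pi * (Real.cos (Real.pi * b) / Real.sin (Real.pi * b))) / (b - a) := by
  have hba : b - a ≠ 0 := sub_ne_zero.mpr hab.symm
  have hpi := Real.pi_ne_zero
  unfold FF
  rw [Real.sinc_of_ne_zero (mul_ne_zero hpi hba)]
  have s1 := (sin_pi_pos h0 h1).ne'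
  have s2 := (sin_pi_pos h0' h1').ne'
  have e : Real.sin (Real.pi * (b - a)) = Real.sin (Real.pi * b) * Real.cos (Real.pi * a) -
      Real.cos (Real.pi * b) * Real.sin (Real.pi * a) := by
    rw [← Real.sin_sub]; ring_nf
  rw [e]
  field_simp

lemma AM_err_ne {a b : ℝ} (h0 : 0 < a) (h1 : a < 1) (h0' : 0 < b) (h1' : b < 1) (hab : a ≠ b)
    {M : ℕ} (hM : 2 ≤ M) : |AM M a b - FF a b| ≤ 2 / ((M : ℝ) - 1) := by
  have ht : Tendsto (fun M => AM M a b) atTop (𝓝 (FF a b)) := by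
    rw [FF_eq h0 h1 h0' h1' hab]
    refine (((BM_tendsto h0 h1).sub (BM_tendsto h0' h1')).div_const (b - a)).congr fun M => ?_
    rw [AM_eq h0 h1 h0' h1' hab]
  have h2 : Tendsto (fun k => |AM (M + k) a b - AM M a b|) atTop
      (𝓝 |FF a b - AM M a b|) := by
    apply Tendsto.abs
    apply Tendsto.sub _ tendsto_const_nhds
    rw [← tendsto_add_atTop_iff_nat M] at ht
    refine ht.congr fun k => ?_
    rw [add_comm]
  rw [abs_sub_comm]
  refine le_of_tendsto h2 (Eventually.of_forall fun k => ?_)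
  refine (AM_diff h0 h1 h0' h1' hM k).trans ?_
  have hM' : (2 : ℝ) ≤ M := by exact_mod_cast hM
  have : 0 ≤ 1 / ((M : ℝ) + k - 1) := by
    apply one_div_nonneg.mpr
    have hk : (0 : ℝ) ≤ k := by positivity
    linarith
  have e : 2 / ((M : ℝ) - 1) = 2 * (1 / ((M : ℝ) - 1)) := by ring
  rw [e]
  linarith

lemma int_add_ne_zero {c : ℝ} (hc0 : 0 < c) (hc1 : c < 1) (n : ℤ) : c + n ≠ 0 := by
  intro h
  have h2 : ((-n : ℤ) : ℝ) = c := by push_cast; linarith
  rw [← h2] at hc0 hc1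
  have h3 : (0 : ℤ) < -n := by exact_mod_cast hc0
  have h4 : -n < (1 : ℤ) := by exact_mod_cast hc1
  omega

lemma AM_err {a b : ℝ} (h0 : 0 < a) (h1 : a < 1) (h0' : 0 < b) (h1' : b < 1)
    {M : ℕ} (hM : 2 ≤ M) : |AM M a b - FF a b| ≤ 2 / ((M : ℝ) - 1) := by
  rcases ne_or_eq a b with hab | hab
  · exact AM_err_ne h0 h1 h0' h1' hab hM
  subst hab
  have hc : Tendsto (fun x => |AM M x a - FF x a|) (𝓝[≠] a) (𝓝 |AM M a a - FF a a|) := by
    apply Tendsto.mono_left _ nhdsWithin_le_nhds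
    apply Tendsto.abs
    apply Tendsto.sub
    · unfold AM
      apply tendsto_finsetSum
      intro n _
      apply Tendsto.div tendsto_const_nhds
      · exact ((continuous_id.add continuous_const).mul continuous_const).tendsto a
      · exact mul_ne_zero (int_add_ne_zero h0 h1 n) (int_add_ne_zero h0 h1 n)
    · unfold FF
      apply Tendsto.div
      · apply Continuous.tendsto
        exact continuous_const.mul (Real.continuous_sinc.comp
          (continuous_const.mul (continuous_const.sub continuous_id)))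
      · apply Continuous.tendsto
        exact (Real.continuous_sin.comp (continuous_const.mul continuous_id)).mul continuous_const
      · exact mul_ne_zero (sin_pi_pos h0 h1).ne' (sin_pi_pos h0 h1).ne'
  refine le_of_tendsto hc ?_
  have h5 : ∀ᶠ x in 𝓝[≠] a, x ∈ Set.Ioo (0 : ℝ) 1 :=
    nhdsWithin_le_nhds (Ioo_mem_nhds h0 h1)
  filter_upwards [h5, self_mem_nhdsWithin] with x hx hxa
  exact AM_err_ne hx.1 hx.2 h0 h1 hxa hM

/-- the combined error bound for one pair -/
lemma pair_err {δ : ℝ} (hδ : 0 < δ) : ∃ K : ℝ, 0 ≤ K ∧ ∀ (M : ℕ), 2 ≤ M →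
    ∀ a b : ℝ, δ ≤ a → a ≤ 1 - δ → δ ≤ b → b ≤ 1 - δ →
      |(AM M a b - BM M a * BM M b) - (Real.pi ^ 2 + Real.pi ^ 2 *
        ((Real.sinc (Real.pi * (b - a)) - Real.cos (Real.pi * (b - a))) /
          (Real.sin (Real.pi * a) * Real.sin (Real.pi * b))))| ≤ K / ((M : ℝ) - 1) := by
  set co : ℝ → ℝ := fun a => Real.pi * (Real.cos (Real.pi * a) / Real.sin (Real.pi * a)) with hco
  have hK : ∃ K0 : ℝ, ∀ a ∈ Set.Icc δ (1 - δ), |co a| ≤ K0 := by
    have hcont : ContinuousOn co (Set.Icc δ (1 - δ)) := by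
      apply ContinuousOn.mul continuousOn_const
      apply ContinuousOn.div
      · exact (Real.continuous_cos.comp (continuous_const.mul continuous_id)).continuousOn
      · exact (Real.continuous_sin.comp (continuous_const.mul continuous_id)).continuousOn
      · intro x hx
        exact (sin_pi_pos (by linarith [hx.1]) (by linarith [hx.2])).ne'
    obtain ⟨K, hK⟩ := isCompact_Icc.exists_bound_of_continuousOn hcont
    exact ⟨K, fun a ha => hK a ha⟩
  obtain ⟨K0, hK0⟩ := hK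
  refine ⟨2 + (|K0| + 1) + |K0|, by positivity, ?_⟩
  intro M hM a b ha0 ha1 hb0 hb1
  have a0 : 0 < a := by linarith
  have a1 : a < 1 := by linarith
  have b0 : 0 < b := by linarith
  have b1 : b < 1 := by linarith
  have hM' : (2 : ℝ) ≤ M := by exact_mod_cast hM
  have hM1 : (0 : ℝ) < M - 1 := by linarith
  have e1 := AM_err a0 a1 b0 b1 hM
  have e2 : |BM M a - co a| ≤ 1 / ((M : ℝ) - 1) := BM_err a0 a1 hM
  have e3 : |BM M b - co b| ≤ 1 / ((M : ℝ) - 1) := BM_err b0 b1 hM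
  have k1 : |co a| ≤ |K0| := (hK0 a ⟨ha0, ha1⟩).trans (le_abs_self _)
  have k2 : |co b| ≤ |K0| := (hK0 b ⟨hb0, hb1⟩).trans (le_abs_self _)
  have hle1 : 1 / ((M : ℝ) - 1) ≤ 1 := by
    rw [div_le_one hM1]; linarith
  have k3 : |BM M b| ≤ |K0| + 1 := by
    have : |BM M b| ≤ |BM M b - co b| + |co b| := by
      have := abs_add_le (BM M b - co b) (co b)
      simpa using this
    linarith
  have key : Real.pi ^ 2 + Real.pi ^ 2 *
        ((Real.sinc (Real.pi * (b - a)) - Real.cos (Real.pi * (b - a))) /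
          (Real.sin (Real.pi * a) * Real.sin (Real.pi * b))) = FF a b - co a * co b := by
    have s1 := (sin_pi_pos a0 a1).ne'
    have s2 := (sin_pi_pos b0 b1).ne'
    have e : Real.cos (Real.pi * (b - a)) = Real.cos (Real.pi * b) * Real.cos (Real.pi * a) +
        Real.sin (Real.pi * b) * Real.sin (Real.pi * a) := by
      rw [← Real.cos_sub]; ring_nf
    rw [e, hco]
    unfold FF
    field_simp
    ring
  rw [key]
  have e4 : |BM M a * BM M b - co a * co b| ≤ (1 / ((M : ℝ) - 1)) * (|K0| + 1) +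
      |K0| * (1 / ((M : ℝ) - 1)) := by
    have : BM M a * BM M b - co a * co b = (BM M a - co a) * BM M b + co a * (BM M b - co b) := by
      ring
    rw [this]
    refine (abs_add_le _ _).trans ?_
    rw [abs_mul, abs_mul]
    apply add_le_add
    · exact mul_le_mul e2 k3 (abs_nonneg _) (by positivity)
    · exact mul_le_mul k1 e3 (abs_nonneg _) (abs_nonneg _)
  have e5 : (AM M a b - BM M a * BM M b) - (FF a b - co a * co b) =
      (AM M a b - FF a b) - (BM M a * BM M b - co a * co b) := by ring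
  rw [e5]
  refine (abs_sub _ _).trans ?_
  refine (add_le_add e1 e4).trans (le_of_eq ?_)
  ring

end LT371
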