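import Vale.Agent.P371.TruncA
import Vale.Agent.P371.Kernel

open Filter Topology Finset
namespace LT371

open Matrix
open scoped ComplexOrder

lemma entry_bound {N : ℕ} {E : Matrix (Fin N) (Fin N) ℂ} (hE : E.PosSemidef) :
    ∃ S : ℝ, 0 ≤ S ∧ (∀ i j, ‖E i j‖ ≤ S) ∧ S ^ 3 ≤ (N : ℝ) ^ 2 * (E * E * E).trace.re := by
  have hH := hE.isHermitian
  set V : Matrix (Fin N) (Fin N) ℂ := (hH.eigenvectorUnitary : Matrix (Fin N) (Fin N) ℂ) with hV
  set D : Matrix (Fin N) (Fin N) ℂ := diagonal (RCLike.ofReal ∘ hH.eigenvalues) with hD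
  have hsp : E = V * D * star V := by
    have := hH.spectral_theorem
    rw [Unitary.conjStarAlgAut_apply] at this
    exact this
  have hVV : star V * V = 1 := Unitary.coe_star_mul_self _
  have hl : ∀ i, 0 ≤ hH.eigenvalues i := hE.eigenvalues_nonneg
  refine ⟨∑ i, hH.eigenvalues i, Finset.sum_nonneg fun i _ => hl i, ?_, ?_⟩
  · intro i j
    have h1 : E i j = ∑ k, V i k * (hH.eigenvalues k : ℂ) * star (V j k) := by
      conv_lhs => rw [hsp]
      rw [Matrix.mul_apply]
      apply Finset.sum_congr rfl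
      intro k _
      rw [hD, Matrix.mul_diagonal]
      simp [Matrix.star_apply]
    rw [h1]
    refine (norm_sum_le _ _).trans (Finset.sum_le_sum fun k _ => ?_)
    have b1 := entry_norm_bound_of_unitary (hH.eigenvectorUnitary).2 i k
    have b2 := entry_norm_bound_of_unitary (hH.eigenvectorUnitary).2 j k
    rw [norm_mul, norm_mul, norm_star]
    have b3 : ‖(hH.eigenvalues k : ℂ)‖ = hH.eigenvalues k := by
      rw [Complex.norm_real, Real.norm_eq_abs, abs_of_nonneg (hl k)]
    rw [b3]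
    calc ‖V i k‖ * hH.eigenvalues k * ‖V j k‖ ≤ 1 * hH.eigenvalues k * 1 := by
          apply mul_le_mul
          · exact mul_le_mul_of_nonneg_right b1 (hl k)
          · exact b2
          · exact norm_nonneg _
          · simpa using hl k
      _ = _ := by ring
  · have h2 : (E * E * E).trace.re = ∑ i, hH.eigenvalues i ^ 3 := by
      have h3 : E * E * E = V * (D * D * D) * star V := by
        conv_lhs => rw [hsp]
        calc V * D * star V * (V * D * star V) * (V * D * star V)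
            = V * D * (star V * V) * D * (star V * V) * D * star V := by
              simp only [Matrix.mul_assoc]
          _ = _ := by rw [hVV]; simp only [Matrix.mul_assoc, Matrix.one_mul]
      rw [h3, Matrix.mul_assoc, Matrix.trace_mul_comm, Matrix.mul_assoc, hVV, Matrix.mul_one, hD,
        Matrix.diagonal_mul_diagonal, Matrix.diagonal_mul_diagonal, Matrix.trace_diagonal,
        Complex.re_sum]
      apply Finset.sum_congr rfl
      intro i _
      simp only [Function.comp]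
      have : ((RCLike.ofReal (hH.eigenvalues i) : ℂ)) = ((hH.eigenvalues i : ℝ) : ℂ) := rfl
      rw [this, ← Complex.ofReal_mul, ← Complex.ofReal_mul, Complex.ofReal_re]
      ring
    rw [h2]
    rcases Nat.eq_zero_or_pos N with hN | hN
    · subst hN; simp
    have h4 := pow_sum_div_card_le_sum_pow (s := Finset.univ) (f := hH.eigenvalues)
      (fun i _ => hl i) 2
    rw [Finset.card_univ, Fintype.card_fin] at h4
    have hN' : (0 : ℝ) < (N : ℝ) ^ 2 := by positivity
    rw [div_le_iff₀ hN'] at h4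
    norm_num at h4
    linarith

lemma calib_diag (N : ℕ) {δ ε : ℝ} (hδ : 0 < δ) (hε : 0 < ε) :
    ∃ M0 : ℕ, ∀ M : ℕ, M0 ≤ M → ∀ (p : Fin N → ℝ) (E : Matrix (Fin N) (Fin N) ℂ)
      (X : ℤ → Matrix (Fin N) (Fin N) ℂ),
      (∀ i, δ ≤ p i) → (∀ i, p i ≤ 1 - δ) → E.PosSemidef →
      (∀ (n : ℤ) i j, (((p i + p j) / 2 + n : ℝ) : ℂ) * X n i j = E i j) →
      (Real.pi ^ 2 / 4 - ε) * (E * E * E).trace.re ≤
        (1 / 4) * ((∑ n ∈ Finset.Ico (-(M : ℤ)) (M : ℤ), (E * X n * X n).trace.re) -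
          (E * (∑ n ∈ Finset.Ico (-(M : ℤ)) (M : ℤ), X n) *
            (∑ n ∈ Finset.Ico (-(M : ℤ)) (M : ℤ), X n)).trace.re) := by
  obtain ⟨K, hK0, hK⟩ := pair_err hδ
  obtain ⟨M1, hM1⟩ := exists_nat_gt ((N : ℝ) ^ 5 * K / (4 * ε) + 1)
  refine ⟨max M1 2, ?_⟩
  intro M hM p E X hp0 hp1 hE hX
  have hM2 : 2 ≤ M := (le_max_right _ _).trans hM
  have hMM : (M1 : ℝ) ≤ M := by exact_mod_cast (le_max_left _ _).trans hM
  have hM' : (2 : ℝ) ≤ M := by exact_mod_cast hM2
  set s : Fin N → Fin N → ℝ := fun i j => (p i + p j) / 2 with hs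
  have s0 : ∀ i j, δ ≤ s i j := fun i j => by
    simp only [hs]; linarith [hp0 i, hp0 j]
  have s1 : ∀ i j, s i j ≤ 1 - δ := fun i j => by
    simp only [hs]; linarith [hp1 i, hp1 j]
  have sp0 : ∀ i j, 0 < s i j := fun i j => hδ.trans_le (s0 i j)
  have sp1 : ∀ i j, s i j < 1 := fun i j => by linarith [s1 i j]
  have hXe : ∀ (n : ℤ) i j, X n i j = ((1 / (s i j + n) : ℝ) : ℂ) * E i j := by
    intro n i j
    have h1 := hX n i j
    have h2 : (s i j + n : ℝ) ≠ 0 := int_add_ne_zero (sp0 i j) (sp1 i j) n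
    have h3 : ((s i j + n : ℝ) : ℂ) ≠ 0 := by exact_mod_cast h2
    rw [← h1]
    change _ = ((1 / (s i j + n) : ℝ) : ℂ) * (((s i j + n : ℝ) : ℂ) * X n i j)
    rw [← mul_assoc, ← Complex.ofReal_mul, one_div, inv_mul_cancel₀ h2]
    simp
  set w : Fin N → Fin N → Fin N → ℝ := fun i j k => (E j i * E i k * E k j).re with hw
  have ssym : ∀ i j, s i j = s j i := fun i j => by simp only [hs]; ring
  have tr3 : ∀ A B C : Matrix (Fin N) (Fin N) ℂ,
      (A * B * C).trace = ∑ i, ∑ j, ∑ k, A i k * B k j * C j i := by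
    intro A B C
    simp only [Matrix.trace, Matrix.diag, Matrix.mul_apply, Finset.sum_mul]
  have t1 : (E * E * E).trace.re = ∑ i, ∑ j, ∑ k, w i j k := by
    rw [tr3]
    simp only [Complex.re_sum, hw]
    refine Finset.sum_congr rfl fun i _ => Finset.sum_congr rfl fun j _ =>
      Finset.sum_congr rfl fun k _ => ?_
    congr 1; ring
  have t2 : (∑ n ∈ Finset.Ico (-(M : ℤ)) (M : ℤ), (E * X n * X n).trace.re) =
      ∑ i, ∑ j, ∑ k, w i j k * AM M (s i j) (s k j) := by
    have : ∀ n : ℤ, (E * X n * X n).trace.re = ∑ i, ∑ j, ∑ k,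
        w i j k * (1 / ((s i j + n) * (s k j + n))) := by
      intro n
      rw [tr3]
      simp only [Complex.re_sum, hw]
      refine Finset.sum_congr rfl fun i _ => Finset.sum_congr rfl fun j _ =>
        Finset.sum_congr rfl fun k _ => ?_
      rw [hXe, hXe, ssym j i]
      have : E i k * (((1 / (s k j + n) : ℝ) : ℂ) * E k j) * (((1 / (s i j + n) : ℝ) : ℂ) * E j i) =
          ((1 / ((s i j + n) * (s k j + n)) : ℝ) : ℂ) * (E j i * E i k * E k j) := by
        have e0 : (1 / ((s i j + n) * (s k j + n)) : ℝ) =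
            (1 / (s i j + n)) * (1 / (s k j + n)) := (one_div_mul_one_div _ _).symm
        rw [e0, Complex.ofReal_mul]
        ring
      rw [this, Complex.re_ofReal_mul]
      ring
    simp only [this]
    rw [Finset.sum_comm]
    refine Finset.sum_congr rfl fun i _ => ?_
    rw [Finset.sum_comm]
    refine Finset.sum_congr rfl fun j _ => ?_
    rw [Finset.sum_comm]
    refine Finset.sum_congr rfl fun k _ => ?_
    rw [AM, Finset.mul_sum]
  have hXs : ∀ i j, (∑ n ∈ Finset.Ico (-(M : ℤ)) (M : ℤ), X n) i j =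
      ((BM M (s i j) : ℝ) : ℂ) * E i j := by
    intro i j
    rw [Matrix.sum_apply, BM, Complex.ofReal_sum, Finset.sum_mul]
    exact Finset.sum_congr rfl fun n _ => hXe n i j
  have t3 : (E * (∑ n ∈ Finset.Ico (-(M : ℤ)) (M : ℤ), X n) *
            (∑ n ∈ Finset.Ico (-(M : ℤ)) (M : ℤ), X n)).trace.re =
      ∑ i, ∑ j, ∑ k, w i j k * (BM M (s i j) * BM M (s k j)) := by
    rw [tr3]
    simp only [Complex.re_sum, hw]
    refine Finset.sum_congr rfl fun i _ => Finset.sum_congr rfl fun j _ =>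
      Finset.sum_congr rfl fun k _ => ?_
    rw [hXs, hXs, ssym j i]
    have : E i k * (((BM M (s k j) : ℝ) : ℂ) * E k j) * (((BM M (s i j) : ℝ) : ℂ) * E j i) =
        ((BM M (s i j) * BM M (s k j) : ℝ) : ℂ) * (E j i * E i k * E k j) := by
      push_cast; ring
    rw [this, Complex.re_ofReal_mul]
    ring
  -- kernel inequality
  have kern := kernel_ineq (fun i => Real.pi * p i)
    (fun i => mul_pos Real.pi_pos (hδ.trans_le (hp0 i)))
    (fun i => by nlinarith [Real.pi_pos, hp1 i]) E hE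
  set κ : Fin N → Fin N → Fin N → ℝ := fun i j k =>
    (Real.sinc (Real.pi * (s k j - s i j)) - Real.cos (Real.pi * (s k j - s i j))) /
          (Real.sin (Real.pi * s i j) * Real.sin (Real.pi * s k j)) with hκ
  have kern' : 0 ≤ ∑ i, ∑ j, ∑ k, w i j k * κ i j k := by
    refine kern.trans (le_of_eq ?_)
    refine Finset.sum_congr rfl fun i _ => Finset.sum_congr rfl fun j _ =>
      Finset.sum_congr rfl fun k _ => ?_
    simp only [hw, hκ, hs]
    have e1 : Real.pi * ((p k + p j) / 2 - (p i + p j) / 2) =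
        -((Real.pi * p i - Real.pi * p k) / 2) := by ring
    have e2 : Real.pi * ((p i + p j) / 2) = (Real.pi * p i + Real.pi * p j) / 2 := by ring
    have e3 : Real.pi * ((p k + p j) / 2) = (Real.pi * p k + Real.pi * p j) / 2 := by ring
    rw [e1, e2, e3, Real.sinc_neg, Real.cos_neg]
  obtain ⟨S, hS0, hS1, hS2⟩ := entry_bound hE
  have hwb : ∀ i j k, |w i j k| ≤ S ^ 3 := by
    intro i j k
    simp only [hw]
    refine (Complex.abs_re_le_norm _).trans ?_
    rw [norm_mul, norm_mul]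
    have := hS1 j i
    have := hS1 i k
    have := hS1 k j
    calc ‖E j i‖ * ‖E i k‖ * ‖E k j‖ ≤ S * S * S := by
          apply mul_le_mul
          · apply mul_le_mul (hS1 j i) (hS1 i k) (norm_nonneg _) hS0
          · exact hS1 k j
          · exact norm_nonneg _
          · positivity
      _ = S ^ 3 := by ring
  have hM1p : (0 : ℝ) < (M : ℝ) - 1 := by linarith
  have herr : ∀ i j k, w i j k * (Real.pi ^ 2 + Real.pi ^ 2 * κ i j k) - S ^ 3 * (K / ((M : ℝ) - 1)) ≤
      w i j k * (AM M (s i j) (s k j) - BM M (s i j) * BM M (s k j)) := by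
    intro i j k
    have h1 := hK M hM2 (s i j) (s k j) (s0 i j) (s1 i j) (s0 k j) (s1 k j)
    have h2 : |w i j k * ((AM M (s i j) (s k j) - BM M (s i j) * BM M (s k j)) -
        (Real.pi ^ 2 + Real.pi ^ 2 * κ i j k))| ≤ S ^ 3 * (K / ((M : ℝ) - 1)) := by
      rw [abs_mul]
      exact mul_le_mul (hwb i j k) h1 (abs_nonneg _) (by positivity)
    have h3 := neg_le_of_abs_le h2
    rw [mul_sub] at h3
    linarith
  have hsum : ∑ i, ∑ j, ∑ k, (w i j k * (Real.pi ^ 2 + Real.pi ^ 2 * κ i j k) -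
        S ^ 3 * (K / ((M : ℝ) - 1))) ≤
      ∑ i, ∑ j, ∑ k, w i j k * (AM M (s i j) (s k j) - BM M (s i j) * BM M (s k j)) :=
    Finset.sum_le_sum fun i _ => Finset.sum_le_sum fun j _ => Finset.sum_le_sum fun k _ =>
      herr i j k
  have hsum2 : ∑ i, ∑ j, ∑ k, (w i j k * (Real.pi ^ 2 + Real.pi ^ 2 * κ i j k) -
        S ^ 3 * (K / ((M : ℝ) - 1))) = Real.pi ^ 2 * (∑ i, ∑ j, ∑ k, w i j k) +
        Real.pi ^ 2 * (∑ i, ∑ j, ∑ k, w i j k * κ i j k) -
        (N : ℝ) ^ 3 * (S ^ 3 * (K / ((M : ℝ) - 1))) := by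
    simp only [Finset.sum_sub_distrib, mul_add, Finset.sum_add_distrib, Finset.mul_sum,
      Finset.sum_const, Finset.card_univ, Fintype.card_fin, nsmul_eq_mul]
    have a1 : ∀ i j k, w i j k * Real.pi ^ 2 = Real.pi ^ 2 * w i j k := fun i j k => by ring
    have a2 : ∀ i j k, w i j k * (Real.pi ^ 2 * κ i j k) = Real.pi ^ 2 * (w i j k * κ i j k) :=
      fun i j k => by ring
    simp only [a1, a2]
    ring
  have t4 : (∑ n ∈ Finset.Ico (-(M : ℤ)) (M : ℤ), (E * X n * X n).trace.re) -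
          (E * (∑ n ∈ Finset.Ico (-(M : ℤ)) (M : ℤ), X n) *
            (∑ n ∈ Finset.Ico (-(M : ℤ)) (M : ℤ), X n)).trace.re =
      ∑ i, ∑ j, ∑ k, w i j k * (AM M (s i j) (s k j) - BM M (s i j) * BM M (s k j)) := by
    rw [t2, t3]
    simp only [← Finset.sum_sub_distrib, mul_sub]
  rw [t4]
  have hT : 0 ≤ (E * E * E).trace.re := by
    by_contra hneg
    push Not at hneg
    have h1 : 0 ≤ S ^ 3 := by positivity
    rcases Nat.eq_zero_or_pos N with hN | hN
    · subst hN
      simp [Matrix.trace] at hneg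
    · have hNp : (0 : ℝ) < (N : ℝ) ^ 2 := by positivity
      nlinarith
  have hfin : (N : ℝ) ^ 3 * (S ^ 3 * (K / ((M : ℝ) - 1))) ≤ 4 * ε * (E * E * E).trace.re := by
    have h1 : (N : ℝ) ^ 5 * K / (4 * ε) + 1 < M := lt_of_lt_of_le hM1 hMM
    have h2 : (N : ℝ) ^ 5 * K / (4 * ε) ≤ M - 1 := by linarith
    rw [div_le_iff₀ (by positivity)] at h2
    have h3 : (N : ℝ) ^ 5 * K / ((M : ℝ) - 1) ≤ 4 * ε := by
      rw [div_le_iff₀ hM1p]; linarith
    calc (N : ℝ) ^ 3 * (S ^ 3 * (K / ((M : ℝ) - 1)))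
        ≤ (N : ℝ) ^ 3 * (((N : ℝ) ^ 2 * (E * E * E).trace.re) * (K / ((M : ℝ) - 1))) := by
          apply mul_le_mul_of_nonneg_left _ (by positivity)
          exact mul_le_mul_of_nonneg_right hS2 (by positivity)
      _ = ((N : ℝ) ^ 5 * K / ((M : ℝ) - 1)) * (E * E * E).trace.re := by ring
      _ ≤ _ := mul_le_mul_of_nonneg_right h3 hT
  have hpi2 : 0 ≤ Real.pi ^ 2 * (∑ i, ∑ j, ∑ k, w i j k * κ i j k) := by positivity
  rw [hsum2] at hsum
  rw [t1] at hfin ⊢
  linarith

end LT371
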