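import Vale.Agent.P371.Core
import Vale.Agent.P371.Young

/-!
# [UPPER] the Lieb-Thirring inequality for gamma = 1
-/

namespace LT371

open Matrix MeasureTheory
open scoped ComplexOrder ENNReal

theorem lt_upper {m N : ℕ} {W : ℝ → Matrix (Fin m) (Fin m) ℂ} (hW : IsPotential 1 W)
    {lam : Fin N → ℝ} {psi : Fin N → ℝ → EuclideanSpace ℂ (Fin m)}
    (h : IsNegFamily W lam psi) :
    ∑ j, ENNReal.ofReal (|lam j| ^ (1 : ℝ)) ≤
      ENNReal.ofReal (4 / (3 * Real.sqrt 3 * Real.pi)) * potNorm 1 W := by
  have heig := h.eig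
  choose g hg hweak using heig
  have horth := h.orth
  have hself : ∀ j, (∫ x, inner ℂ (psi j x) (psi j x) : ℂ) = 1 := fun j => by
    simpa using horth j j
  -- the quadratic form identity
  have e0 : ∀ j, (∫ x, ‖g j x‖ ^ 2) -
      (∫ x, inner ℂ (psi j x) (Matrix.toEuclideanLin (W x) (psi j x)) : ℂ).re = lam j := by
    intro j
    have := hweak j (psi j) (g j) (hg j)
    rw [hself j, mul_one] at this
    have h1 : (∫ x, inner ℂ (g j x) (g j x) : ℂ) = ((∫ x, ‖g j x‖ ^ 2 : ℝ) : ℂ) := by
      rw [← integral_complex_ofReal]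
      refine integral_congr_ae (Filter.Eventually.of_forall fun x => ?_)
      simp [inner_self_eq_norm_sq_to_K]
    rw [h1] at this
    have h2 := congrArg Complex.re this
    simpa using h2
  -- integrability of the potential term
  have hpint : ∀ j, Integrable fun x =>
      (inner ℂ (psi j x) (Matrix.toEuclideanLin (W x) (psi j x)) : ℂ) := by
    intro j
    by_contra hni
    have h1 := e0 j
    rw [integral_undef hni] at h1
    have h2 : 0 ≤ ∫ x, ‖g j x‖ ^ 2 := integral_nonneg fun x => by positivity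
    have h3 := h.neg j
    simp at h1
    linarith
  obtain ⟨hcube, hkin⟩ := kinetic psi g hg horth
  set c : ℝ := 4 / (3 * Real.sqrt 3 * Real.pi) with hc
  set A : ℝ → ℝ := fun x => ∑ j,
    (inner ℂ (psi j x) (Matrix.toEuclideanLin (W x) (psi j x)) : ℂ).re with hA
  set B : ℝ → ℝ := fun x =>
    Real.pi ^ 2 / 4 * (gram psi x * gram psi x * gram psi x).trace.re with hB
  have hAint : Integrable A := integrable_finsetSum _ fun j _ => (hpint j).re
  have hBint : Integrable B := hcube.const_mul _
  have hpt : ∀ x, A x - B x ≤ c * trPow (W x) (3 / 2) := by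
    intro x
    have := young_pointwise (W x) (hW.psd x) (fun j => psi j x)
    simp only [hA, hB, gram] at *
    linarith
  -- the sum of the eigenvalues
  have hsum : ∑ j, |lam j| ≤ ∫ x, (A x - B x) := by
    rw [integral_sub hAint hBint]
    have hAI : ∫ x, A x = ∑ j,
        (∫ x, inner ℂ (psi j x) (Matrix.toEuclideanLin (W x) (psi j x)) : ℂ).re := by
      have hre : ∀ j, Integrable (fun x =>
          (inner ℂ (psi j x) (Matrix.toEuclideanLin (W x) (psi j x)) : ℂ).re) :=
        fun j => (hpint j).re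
      simp only [hA]
      rw [integral_finsetSum _ fun j _ => hre j]
      refine Finset.sum_congr rfl fun j _ => ?_
      exact integral_re (hpint j)
    have h1 : ∑ j, |lam j| = (∫ x, A x) - (∑ j, ∫ x, ‖g j x‖ ^ 2) := by
      rw [hAI, ← Finset.sum_sub_distrib]
      refine Finset.sum_congr rfl fun j _ => ?_
      rw [abs_of_neg (h.neg j), ← e0 j]
      ring
    have h2 : (∫ x, B x) ≤ ∑ j, ∫ x, ‖g j x‖ ^ 2 := by
      rw [hB, integral_const_mul]
      exact hkin
    rw [h1]
    linarith
  have hint : Integrable fun x => A x - B x := hAint.sub hBint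
  have h3 : ENNReal.ofReal (∫ x, (A x - B x)) ≤ ∫⁻ x, ENNReal.ofReal (A x - B x) := by
    rw [integral_eq_lintegral_pos_part_sub_lintegral_neg_part hint]
    refine (ENNReal.ofReal_le_ofReal (sub_le_self _ ENNReal.toReal_nonneg)).trans ?_
    exact ENNReal.ofReal_toReal_le
  have h4 : ∫⁻ x, ENNReal.ofReal (A x - B x) ≤
      ∫⁻ x, ENNReal.ofReal c * ENNReal.ofReal (trPow (W x) (1 + 1 / 2)) := by
    refine lintegral_mono fun x => ?_
    have hc0 : 0 ≤ c := by positivity
    rw [← ENNReal.ofReal_mul hc0]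
    refine ENNReal.ofReal_le_ofReal ?_
    have := hpt x
    norm_num at this ⊢
    exact this
  rw [lintegral_const_mul' _ _ ENNReal.ofReal_ne_top] at h4
  calc ∑ j, ENNReal.ofReal (|lam j| ^ (1 : ℝ))
      = ENNReal.ofReal (∑ j, |lam j|) := by
        rw [ENNReal.ofReal_sum_of_nonneg fun j _ => abs_nonneg _]
        simp
    _ ≤ ENNReal.ofReal (∫ x, (A x - B x)) := ENNReal.ofReal_le_ofReal hsum
    _ ≤ _ := h3.trans h4

theorem LT_one_le (m : ℕ) : LT 1 m ≤ ENNReal.ofReal (4 / (3 * Real.sqrt 3 * Real.pi)) := by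
  unfold LT
  refine iSup_le fun W => iSup_le fun hW => iSup_le fun hne => ?_
  refine ENNReal.div_le_of_le_mul ?_
  unfold TrNeg
  refine iSup_le fun N => iSup_le fun lam => iSup_le fun psi => iSup_le fun h => ?_
  exact lt_upper hW h

end LT371
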